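import Mathlib

namespace Vale.Agent.P263.LZ

open MvPolynomial

/-- The rank `s` Dickson algebra, as the polynomial ring on `q_0, ..., q_{s-1}`. -/
def D (s : ℕ) : Type := MvPolynomial (Fin s) (ZMod 2)

noncomputable instance instD1 (s : ℕ) : CommRing (D s) :=
  inferInstanceAs (CommRing (MvPolynomial (Fin s) (ZMod 2)))
noncomputable instance instD2 (s : ℕ) : Algebra (ZMod 2) (D s) :=
  inferInstanceAs (Algebra (ZMod 2) (MvPolynomial (Fin s) (ZMod 2)))
instance instD3 (s : ℕ) : CharP (D s) 2 :=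
  inferInstanceAs (CharP (MvPolynomial (Fin s) (ZMod 2)) 2)
instance instD4 (s : ℕ) : IsDomain (D s) :=
  inferInstanceAs (IsDomain (MvPolynomial (Fin s) (ZMod 2)))

/-- the generators -/
noncomputable def gen {s : ℕ} (i : Fin s) : D s := (X i : MvPolynomial (Fin s) (ZMod 2))

/-- the algebra map with given values on the generators -/
noncomputable def lift {s : ℕ} {B : Type*} [CommRing B] [Algebra (ZMod 2) B] (g : Fin s → B) :
    D s →ₐ[ZMod 2] B :=
  (aeval g : MvPolynomial (Fin s) (ZMod 2) →ₐ[ZMod 2] B)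

lemma lift_gen {s : ℕ} {B : Type*} [CommRing B] [Algebra (ZMod 2) B] (g : Fin s → B) (i : Fin s) :
    lift g (gen i) = g i := aeval_X g i

lemma zmod2 : ∀ a : ZMod 2, a = 0 ∨ a = 1 := by decide

lemma D_induction {s : ℕ} {P : D s → Prop} (h0 : P 0) (h1 : P 1)
    (hadd : ∀ x y, P x → P y → P (x + y)) (hmul : ∀ x i, P x → P (x * gen i)) (F : D s) : P F := by
  refine MvPolynomial.induction_on (motive := P) F ?_ hadd hmul
  intro a
  rcases zmod2 a with h | h
  · rw [h, C_0]; exact h0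
  · rw [h, C_1]; exact h1

/-- coefficient of a monomial -/
noncomputable def cf {s : ℕ} (m : Fin s →₀ ℕ) (F : D s) : ZMod 2 := MvPolynomial.coeff m F

/-- support -/
noncomputable def supp {s : ℕ} (F : D s) : Finset (Fin s →₀ ℕ) := MvPolynomial.support F

lemma D_as_sum {s : ℕ} (F : D s) : F = ∑ m ∈ supp F, ∏ i, gen i ^ m i := by
  have h := MvPolynomial.as_sum F
  conv_lhs => rw [h]
  refine Finset.sum_congr rfl (fun m hm => ?_)
  have h1 : MvPolynomial.coeff m F = 1 := by
    rcases zmod2 (MvPolynomial.coeff m F) with h | h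
    · exact absurd h (MvPolynomial.mem_support_iff.mp hm)
    · exact h
  rw [h1, monomial_eq, C_1, one_mul, Finsupp.prod_fintype _ _ (fun i => pow_zero _)]
  rfl

/-- `q s i = q_i`, with `q_s = 1` and `q_i = 0` for `i > s`. -/
noncomputable def q (s i : ℕ) : D s :=
  if h : i < s then gen ⟨i, h⟩ else if i = s then 1 else 0

/-- `qm s i = q_{i-1}`, with `q_{-1} = 0`. -/
noncomputable def qm (s : ℕ) : ℕ → D s
  | 0 => 0
  | (i+1) => q s i

@[simp] lemma q_self (s : ℕ) : q s s = 1 := by simp [q]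
lemma q_gt {s i : ℕ} (h : s < i) : q s i = 0 := by
  simp [q, not_lt.mpr h.le, h.ne']
lemma q_lt {s i : ℕ} (h : i < s) : q s i = gen ⟨i, h⟩ := by simp [q, h]
@[simp] lemma qm_zero (s : ℕ) : qm s 0 = 0 := rfl
@[simp] lemma qm_succ (s i : ℕ) : qm s (i+1) = q s i := rfl

/-- the ring map `rho : D_{s+1} → D_s[V]`, `q_i ↦ q_{i-1}^2 + V q_i`. -/
noncomputable def rho (s : ℕ) : D (s+1) →ₐ[ZMod 2] Polynomial (D s) :=
  lift (fun i : Fin (s+1) => Polynomial.C (qm s i ^ 2) + Polynomial.X * Polynomial.C (q s i))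

lemma rho_q (s i : ℕ) :
    rho s (q (s+1) i) = Polynomial.C (qm s i ^ 2) + Polynomial.X * Polynomial.C (q s i) := by
  rcases lt_trichotomy i (s+1) with h | h | h
  · rw [q_lt h, rho, lift_gen]
  · subst h
    rw [q_self, map_one, qm_succ, q_self, q_gt (Nat.lt_succ_self s)]; simp
  · rw [q_gt h, map_zero]
    obtain ⟨j, rfl⟩ : ∃ j, i = j + 1 := ⟨i - 1, by omega⟩
    rw [qm_succ, q_gt (by omega : s < j), q_gt (by omega : s < j+1)]; simp

/-! ### integer-indexed coefficients -/

section zc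
variable {R : Type*} [CommRing R]

/-- coefficient with an integer index (zero for negative index) -/
noncomputable def zc (P : Polynomial R) (m : ℤ) : R :=
  if 0 ≤ m then P.coeff m.toNat else 0

lemma zc_neg (P : Polynomial R) {m : ℤ} (h : m < 0) : zc P m = 0 := by
  simp [zc, not_le.mpr h]
@[simp] lemma zc_nat (P : Polynomial R) (m : ℕ) : zc P (m : ℤ) = P.coeff m := by
  simp [zc]
lemma zc_of_nonneg (P : Polynomial R) {m : ℤ} (h : 0 ≤ m) : zc P m = P.coeff m.toNat := by
  simp [zc, h]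
@[simp] lemma zc_zero (m : ℤ) : zc (0 : Polynomial R) m = 0 := by
  simp [zc]
lemma zc_add (P Q : Polynomial R) (m : ℤ) : zc (P + Q) m = zc P m + zc Q m := by
  unfold zc; split_ifs <;> simp
lemma zc_C_mul (a : R) (P : Polynomial R) (m : ℤ) : zc (Polynomial.C a * P) m = a * zc P m := by
  unfold zc; split_ifs <;> simp
lemma zc_X_mul (P : Polynomial R) (m : ℤ) : zc (Polynomial.X * P) m = zc P (m - 1) := by
  rcases lt_trichotomy m 0 with h | h | h
  · rw [zc_neg _ h, zc_neg _ (by omega)]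
  · subst h; rw [zc_neg _ (by omega : (0:ℤ) - 1 < 0)]; simp [zc]
  · obtain ⟨n, rfl⟩ : ∃ n : ℕ, m = n + 1 := ⟨(m-1).toNat, by omega⟩
    rw [show ((n:ℤ) + 1) = ((n+1 : ℕ) : ℤ) by push_cast; ring, zc_nat,
      show ((n+1 : ℕ) : ℤ) - 1 = (n : ℤ) by push_cast; ring, zc_nat, Polynomial.coeff_X_mul]
lemma zc_X_pow_mul (P : Polynomial R) (k : ℕ) (m : ℤ) :
    zc (Polynomial.X ^ k * P) m = zc P (m - k) := by
  induction k generalizing m with
  | zero => simp
  | succ k ih => rw [pow_succ, mul_comm (Polynomial.X ^ k), mul_assoc, zc_X_mul, ih]; congr 1; push_cast; ring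
end zc

/-- `e s m : D_{s+1} → D_s`, the coefficient of `V^m` in `rho`. -/
noncomputable def e (s : ℕ) (m : ℤ) : D (s+1) →+ D s where
  toFun G := zc (rho s G) m
  map_zero' := by simp
  map_add' := by intro x y; rw [map_add, zc_add]

lemma e_apply (s : ℕ) (m : ℤ) (G : D (s+1)) : e s m G = zc (rho s G) m := rfl
lemma e_nat (s : ℕ) (m : ℕ) (G : D (s+1)) : e s m G = (rho s G).coeff m := by
  rw [e_apply, zc_nat]
lemma e_neg (s : ℕ) {m : ℤ} (h : m < 0) (G : D (s+1)) : e s m G = 0 := by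
  rw [e_apply, zc_neg _ h]

/-! ### grading -/

/-- weights: `deg q_i = 2^s - 2^i` -/
def w (s : ℕ) : Fin s → ℤ := fun i => 2 ^ s - 2 ^ (i : ℕ)

/-- homogeneous of degree `n` -/
def Hom (s : ℕ) (n : ℤ) (F : D s) : Prop :=
  IsWeightedHomogeneous (R := ZMod 2) (σ := Fin s) (w s) F n

lemma Hom.zero (s : ℕ) (n : ℤ) : Hom s n 0 := isWeightedHomogeneous_zero _ _ _
lemma Hom.one (s : ℕ) : Hom s 0 1 := isWeightedHomogeneous_one _ _
lemma Hom.add {s : ℕ} {n : ℤ} {F G : D s} (hF : Hom s n F) (hG : Hom s n G) : Hom s n (F + G) :=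
  (weightedHomogeneousSubmodule (ZMod 2) (w s) n).add_mem hF hG
lemma Hom.mul {s : ℕ} {n m : ℤ} {F G : D s} (hF : Hom s n F) (hG : Hom s m G) :
    Hom s (n + m) (F * G) := IsWeightedHomogeneous.mul hF hG
lemma Hom.congr {s : ℕ} {n m : ℤ} {F : D s} (hF : Hom s n F) (h : n = m) : Hom s m F := h ▸ hF
lemma Hom.pow {s : ℕ} {n : ℤ} {F : D s} (hF : Hom s n F) (k : ℕ) : Hom s (k * n) (F ^ k) := by
  induction k with
  | zero => simpa using Hom.one s
  | succ k ih => rw [pow_succ]; exact (ih.mul hF).congr (by push_cast; ring)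
lemma Hom.sum {s : ℕ} {n : ℤ} {ι : Type*} (t : Finset ι) (F : ι → D s)
    (h : ∀ i ∈ t, Hom s n (F i)) : Hom s n (∑ i ∈ t, F i) := by
  classical
  induction t using Finset.induction_on with
  | empty => simpa using Hom.zero s n
  | insert a t ha ih =>
    rw [Finset.sum_insert ha]
    exact (h a (Finset.mem_insert_self _ _)).add
      (ih (fun i hi => h i (Finset.mem_insert_of_mem hi)))

lemma w_pos {s : ℕ} (i : Fin s) : 0 < w s i := by
  unfold w
  have : (2:ℤ) ^ (i:ℕ) < 2 ^ s := pow_lt_pow_right₀ (by norm_num) i.2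
  omega

lemma weight_nonneg {s : ℕ} (m : Fin s →₀ ℕ) : 0 ≤ Finsupp.weight (w s) m := by
  rw [Finsupp.weight_apply]
  exact Finset.sum_nonneg (fun i _ => by simpa using mul_nonneg (Int.natCast_nonneg _) (w_pos i).le)

lemma weight_eq_zero {s : ℕ} (m : Fin s →₀ ℕ) (h : Finsupp.weight (w s) m = 0) : m = 0 := by
  rw [Finsupp.weight_apply, Finsupp.sum] at h
  rw [Finset.sum_eq_zero_iff_of_nonneg
    (fun i _ => by simpa using mul_nonneg (Int.natCast_nonneg _) (w_pos i).le)] at h
  ext i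
  by_contra hi
  have := h i (by simpa using hi)
  simp only [nsmul_eq_mul, mul_eq_zero, Nat.cast_eq_zero] at this
  rcases this with h1 | h1
  · exact hi (by simpa using h1)
  · exact (w_pos i).ne' h1

lemma Hom.eq_zero_of_neg {s : ℕ} {n : ℤ} {F : D s} (hF : Hom s n F) (h : n < 0) : F = 0 := by
  refine MvPolynomial.ext (R := ZMod 2) (σ := Fin s) _ _ (fun m => ?_)
  by_contra hm
  have h1 := hF hm
  have := weight_nonneg (s := s) m
  omega

lemma Hom.const {s : ℕ} {F : D s} (hF : Hom s 0 F) : F = 0 ∨ F = 1 := by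
  have hC : F = (C (MvPolynomial.coeff 0 F) : MvPolynomial (Fin s) (ZMod 2)) := by
    refine MvPolynomial.ext (R := ZMod 2) (σ := Fin s) _ _ (fun m => ?_)
    rw [coeff_C]
    split_ifs with h
    · rw [h]
    · by_contra hm
      exact h (weight_eq_zero m (hF hm)).symm
  rcases zmod2 (MvPolynomial.coeff 0 F) with h | h
  · left; rw [hC, h, C_0]; rfl
  · right; rw [hC, h, C_1]; rfl

lemma Hom.gen {s : ℕ} (i : Fin s) : Hom s (w s i) (gen i) := isWeightedHomogeneous_X _ _ _

lemma Hom.weight {s : ℕ} {n : ℤ} {F : D s} (hF : Hom s n F) {m : Fin s →₀ ℕ} (hm : m ∈ supp F) :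
    ∑ i, (m i : ℤ) * w s i = n := by
  have hw : Finsupp.weight (w s) m = n := hF (MvPolynomial.mem_support_iff.mp hm)
  rw [← hw, Finsupp.weight_apply, Finsupp.sum_fintype _ _ (fun i => by simp)]
  simp

lemma Hom.q (s i : ℕ) : Hom s (2 ^ s - 2 ^ i) (q s i) := by
  rcases lt_trichotomy i s with h | h | h
  · rw [q_lt h]; exact Hom.gen _
  · subst h; rw [q_self]; exact (Hom.one i).congr (by ring)
  · rw [q_gt h]; exact Hom.zero _ _

/-- polynomials over `D s`, homogeneous of degree `n` when the variable has degree `v` -/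
def PHom (s : ℕ) (v n : ℤ) (P : Polynomial (D s)) : Prop := ∀ k : ℕ, Hom s (n - k * v) (P.coeff k)

lemma PHom.zero (s : ℕ) (v n : ℤ) : PHom s v n 0 := fun _ => by simpa using Hom.zero _ _
lemma PHom.add {s : ℕ} {v n : ℤ} {P Q : Polynomial (D s)} (hP : PHom s v n P) (hQ : PHom s v n Q) :
    PHom s v n (P + Q) := fun k => by rw [Polynomial.coeff_add]; exact (hP k).add (hQ k)
lemma PHom.mul {s : ℕ} {v n m : ℤ} {P Q : Polynomial (D s)} (hP : PHom s v n P)
    (hQ : PHom s v m Q) : PHom s v (n + m) (P * Q) := fun k => by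
  rw [Polynomial.coeff_mul]
  refine Hom.sum _ _ (fun x hx => ((hP x.1).mul (hQ x.2)).congr ?_)
  have : x.1 + x.2 = k := by simpa using hx
  rw [← this]; push_cast; ring
lemma PHom.C {s : ℕ} {v n : ℤ} {F : D s} (hF : Hom s n F) : PHom s v n (Polynomial.C F) := fun k => by
  rw [Polynomial.coeff_C]
  split_ifs with h
  · subst h; simpa using hF
  · exact Hom.zero _ _
lemma PHom.one (s : ℕ) (v : ℤ) : PHom s v 0 1 := by
  simpa using PHom.C (v := v) (Hom.one s)
lemma PHom.X (s : ℕ) (v : ℤ) : PHom s v v (Polynomial.X) := fun k => by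
  rw [Polynomial.coeff_X]
  split_ifs with h
  · subst h; exact (Hom.one s).congr (by simp)
  · exact Hom.zero _ _
lemma PHom.congr {s : ℕ} {v n m : ℤ} {P : Polynomial (D s)} (hP : PHom s v n P) (h : n = m) :
    PHom s v m P := h ▸ hP
lemma PHom.pow {s : ℕ} {v n : ℤ} {P : Polynomial (D s)} (hP : PHom s v n P) (k : ℕ) :
    PHom s v (k * n) (P ^ k) := by
  induction k with
  | zero => simpa using PHom.one s v
  | succ k ih => rw [pow_succ]; exact (ih.mul hP).congr (by push_cast; ring)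
lemma PHom.sum {s : ℕ} {v n : ℤ} {ι : Type*} (t : Finset ι) (P : ι → Polynomial (D s))
    (h : ∀ i ∈ t, PHom s v n (P i)) : PHom s v n (∑ i ∈ t, P i) := fun k => by
  rw [Polynomial.finsetSum_coeff]
  exact Hom.sum _ _ (fun i hi => h i hi k)

/-- An algebra map that is homogeneous on the generators is homogeneous. -/
lemma hom_map {s : ℕ} {B : Type*} [CommRing B] (A : ℤ → B → Prop)
    (hzero : ∀ n, A n 0) (hadd : ∀ n x y, A n x → A n y → A n (x + y))
    (hone : A 0 1) (hmul : ∀ n m x y, A n x → A m y → A (n + m) (x * y))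
    (φ : D s →+* B) (hX : ∀ i, A (w s i) (φ (gen i))) (F : D s) (n : ℤ) (hF : Hom s n F) :
    A n (φ F) := by
  have hpow : ∀ n x (k : ℕ), A n x → A (k * n) (x ^ k) := by
    intro n x k hx
    induction k with
    | zero => simpa using hone
    | succ k ih =>
      have := hmul _ _ _ _ ih hx
      rw [pow_succ]; convert this using 1; push_cast; ring
  have hprod : ∀ (t : Finset (Fin s)) (m : Fin s →₀ ℕ),
      A (∑ i ∈ t, (m i : ℤ) * w s i) (∏ i ∈ t, φ (gen i) ^ m i) := by
    intro t m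
    induction t using Finset.induction_on with
    | empty => simpa using hone
    | insert a t ha ih =>
      rw [Finset.sum_insert ha, Finset.prod_insert ha]
      exact hmul _ _ _ _ (hpow _ _ _ (hX a)) ih
  have hsum : ∀ (t : Finset (Fin s →₀ ℕ)) (g : (Fin s →₀ ℕ) → B), (∀ m ∈ t, A n (g m)) →
      A n (∑ m ∈ t, g m) := by
    intro t g
    induction t using Finset.induction_on with
    | empty => intro _; simpa using hzero n
    | insert a t ha ih =>
      intro h
      rw [Finset.sum_insert ha]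
      exact hadd _ _ _ (h a (Finset.mem_insert_self _ _))
        (ih (fun m hm => h m (Finset.mem_insert_of_mem hm)))
  rw [D_as_sum F, map_sum]
  refine hsum _ _ (fun m hm => ?_)
  rw [map_prod, ← hF.weight hm]
  simp only [map_pow]
  exact hprod _ _

lemma PHom.rho (s : ℕ) {n : ℤ} {F : D (s+1)} (hF : Hom (s+1) n F) :
    PHom s (2 ^ s) n (rho s F) := by
  refine hom_map (PHom s (2 ^ s)) (PHom.zero s _) (fun _ _ _ => PHom.add) (PHom.one s _)
    (fun _ _ _ _ => PHom.mul) (LZ.rho s : D (s+1) →+* Polynomial (D s)) ?_ F n hF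
  intro i
  show PHom s (2 ^ s) _ (LZ.rho s (gen i))
  rw [LZ.rho, lift_gen]
  refine PHom.add ?_ ?_
  · refine PHom.C ?_
    rcases i with ⟨i, hi⟩
    rcases i with _ | i
    · simpa using Hom.zero _ _
    · refine ((Hom.q s i).pow 2).congr ?_
      simp only [w]; push_cast; ring
  · refine ((PHom.X s _).mul (PHom.C (Hom.q s i))).congr ?_
    simp only [w]; ring

lemma Hom.e {s : ℕ} {n : ℤ} {F : D (s+1)} (hF : Hom (s+1) n F) (m : ℤ) :
    Hom s (n - m * 2 ^ s) (e s m F) := by
  rw [e_apply]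
  rcases lt_or_ge m 0 with h | h
  · rw [zc_neg _ h]; exact Hom.zero _ _
  · rw [zc_of_nonneg _ h]
    have := PHom.rho s hF m.toNat
    rwa [Int.toNat_of_nonneg h] at this

end Vale.Agent.P263.LZ
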