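import Vale.Agent.P263.LZ.Main

/-!
A small verified evaluator for the operators `e_m` on explicit polynomials.
-/

namespace Vale.Agent.P263.LZ

/-- `∏ q_{k+i}^{a_i}` -/
noncomputable def pmL (s : ℕ) : ℕ → List ℕ → D s
  | _, [] => 1
  | k, a :: t => q s k ^ a * pmL s (k+1) t

/-- add `c` to the entry in position `i` -/
def addAt : ℕ → ℕ → List ℕ → List ℕ
  | _, _, [] => []
  | 0, c, a :: t => (a + c) :: t
  | i+1, c, a :: t => a :: addAt i c t

lemma addAt_length (i c : ℕ) (y : List ℕ) : (addAt i c y).length = y.length := by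
  induction y generalizing i with
  | nil => cases i <;> rfl
  | cons a t ih => cases i with
    | zero => rfl
    | succ i => simp [addAt, ih]

lemma pmL_addAt (s k i c : ℕ) (y : List ℕ) (hk : k + y.length = s) (hi : k + i ≤ s) :
    pmL s k (addAt i c y) = q s (k+i) ^ c * pmL s k y := by
  induction y generalizing k i with
  | nil =>
    have : k + i = s := by simp at hk; omega
    rw [this, q_self, one_pow, one_mul]
    cases i <;> rfl
  | cons a t ih =>
    cases i with
    | zero =>
      show q s k ^ (a + c) * pmL s (k+1) t = q s (k+0) ^ c * (q s k ^ a * pmL s (k+1) t)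
      rw [pow_add, add_zero]; ring
    | succ i =>
      show q s k ^ a * pmL s (k+1) (addAt i c t) = q s (k+(i+1)) ^ c * (q s k ^ a * pmL s (k+1) t)
      rw [ih (k+1) i (by simp at hk; omega) (by omega)]
      rw [show k + 1 + i = k + (i + 1) by ring]; ring

/-- source monomials, as products of `q_i^{2^t}` -/
noncomputable def src (s : ℕ) : List (ℕ × ℕ) → D (s+1)
  | [] => 1
  | (i, t) :: r => q (s+1) i ^ 2 ^ t * src s r

lemma e_q_pow_mul (s i t : ℕ) (m : ℤ) (B : D (s+1)) :
    e s m (q (s+1) i ^ 2 ^ t * B) = qm s i ^ (2 * 2 ^ t) * e s m B + q s i ^ 2 ^ t * e s (m - 2 ^ t) B := by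
  have h : rho s (q (s+1) i ^ 2 ^ t * B) = Polynomial.C (qm s i ^ (2 * 2 ^ t)) * rho s B +
      Polynomial.C (q s i ^ 2 ^ t) * (Polynomial.X ^ 2 ^ t * rho s B) := by
    rw [map_mul, map_pow, rho_q, add_pow_char_pow, mul_pow, ← Polynomial.C_pow, ← Polynomial.C_pow,
      ← pow_mul]
    ring
  rw [e_apply, h, zc_add, zc_C_mul, zc_C_mul, zc_X_pow_mul]
  simp only [e_apply]
  push_cast
  rfl

/-- evaluation of `e_n` on a source monomial, unpruned -/
def E0 (s : ℕ) : ℕ → List (ℕ × ℕ) → List (List ℕ)
  | n, [] => if n = 0 then [List.replicate s 0] else []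
  | n, (i, t) :: r =>
    (if i = 0 then [] else (E0 s n r).map (addAt (i-1) (2 ^ (t+1)))) ++
    (if 2 ^ t ≤ n then (E0 s (n - 2 ^ t) r).map (addAt i (2 ^ t)) else [])

/-- the largest possible exponent of `V` -/
def tot : List (ℕ × ℕ) → ℕ
  | [] => 0
  | (_, t) :: r => 2 ^ t + tot r

/-- pruned evaluation -/
def E (s : ℕ) : ℕ → List (ℕ × ℕ) → List (List ℕ)
  | n, [] => if n = 0 then [List.replicate s 0] else []
  | n, (i, t) :: r =>
    (if i = 0 ∨ tot r < n then [] else (E s n r).map (addAt (i-1) (2 ^ (t+1)))) ++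
    (if 2 ^ t ≤ n then (E s (n - 2 ^ t) r).map (addAt i (2 ^ t)) else [])

lemma E0_nil (s : ℕ) : ∀ (x : List (ℕ × ℕ)) (n : ℕ), tot x < n → E0 s n x = [] := by
  intro x
  induction x with
  | nil => intro n h; rw [E0, if_neg (by simp [tot] at h; omega)]
  | cons a r ih =>
    obtain ⟨i, t⟩ := a
    intro n h
    simp only [tot] at h
    have h1 : 1 ≤ 2 ^ t := Nat.one_le_two_pow
    rw [E0, ih n (by omega)]
    by_cases hn : 2 ^ t ≤ n
    · rw [ih (n - 2 ^ t) (by omega)]; simp
    · rw [if_neg hn]; simp

lemma E_eq (s : ℕ) : ∀ (x : List (ℕ × ℕ)) (n : ℕ), E s n x = E0 s n x := by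
  intro x
  induction x with
  | nil => intro n; rfl
  | cons a r ih =>
    obtain ⟨i, t⟩ := a
    intro n
    rw [E, E0, ih, ih]
    congr 1
    by_cases hi : i = 0
    · simp [hi]
    · by_cases hn : tot r < n
      · rw [if_pos (Or.inr hn), if_neg hi, E0_nil s r n hn]; simp
      · rw [if_neg (by tauto), if_neg hi]

lemma E0_length (s : ℕ) : ∀ (x : List (ℕ × ℕ)) (n : ℕ), ∀ y ∈ E0 s n x, y.length = s := by
  intro x
  induction x with
  | nil =>
    intro n y hy
    rw [E0] at hy
    split_ifs at hy
    · simp at hy; rw [hy]; simp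
    · simp at hy
  | cons a r ih =>
    obtain ⟨i, t⟩ := a
    intro n y hy
    rw [E0, List.mem_append] at hy
    rcases hy with hy | hy
    · split_ifs at hy
      · simp at hy
      · obtain ⟨z, hz, rfl⟩ := List.mem_map.mp hy
        rw [addAt_length]; exact ih _ _ hz
    · split_ifs at hy
      · obtain ⟨z, hz, rfl⟩ := List.mem_map.mp hy
        rw [addAt_length]; exact ih _ _ hz
      · simp at hy

lemma sum_map_addAt (s i c : ℕ) (hi : i ≤ s) (l : List (List ℕ)) (hl : ∀ y ∈ l, y.length = s) :
    ((l.map (addAt i c)).map (pmL s 0)).sum = q s i ^ c * (l.map (pmL s 0)).sum := by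
  induction l with
  | nil => simp
  | cons y l ih =>
    simp only [List.map_cons, List.sum_cons]
    rw [ih (fun z hz => hl z (List.mem_cons_of_mem _ hz)),
      pmL_addAt s 0 i c y (by rw [hl y List.mem_cons_self]; simp) (by omega), mul_add, zero_add]

lemma pmL_replicate (s k n : ℕ) : pmL s k (List.replicate n 0) = 1 := by
  induction n generalizing k with
  | zero => rfl
  | succ n ih => rw [List.replicate_succ, pmL, ih, pow_zero, mul_one]

lemma e_src (s : ℕ) : ∀ (x : List (ℕ × ℕ)), (∀ p ∈ x, p.1 ≤ s) → ∀ n : ℕ,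
    e s n (src s x) = ((E s n x).map (pmL s 0)).sum := by
  intro x
  induction x with
  | nil =>
    intro _ n
    rw [src, e_one, E]
    by_cases hn : n = 0
    · rw [if_pos (by exact_mod_cast hn), if_pos hn]
      simp [pmL_replicate]
    · rw [if_neg (by exact_mod_cast hn), if_neg hn]; simp
  | cons a r ih =>
    obtain ⟨i, t⟩ := a
    intro hx n
    have hi : i ≤ s := hx (i, t) List.mem_cons_self
    have ih' := ih (fun p hp => hx p (List.mem_cons_of_mem _ hp))
    rw [E_eq, E0, src, e_q_pow_mul, List.map_append, List.sum_append]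
    congr 1
    · by_cases h0 : i = 0
      · rw [if_pos h0, h0, qm_zero, zero_pow (by positivity)]; simp
      · rw [if_neg h0, sum_map_addAt s (i-1) _ (by omega) _ (E0_length s r n), ih' n, E_eq]
        obtain ⟨j, rfl⟩ : ∃ j, i = j + 1 := ⟨i - 1, by omega⟩
        rw [qm_succ, Nat.add_sub_cancel, pow_succ']
    · by_cases hn : 2 ^ t ≤ n
      · rw [if_pos hn, sum_map_addAt s i _ hi _ (E0_length s r _), ← E_eq, ← ih' (n - 2 ^ t)]
        congr 2
        push_cast [hn]; ring_nf
      · rw [if_neg hn, e_neg _ (by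
          have : ((n:ℕ):ℤ) < ((2 ^ t : ℕ) : ℤ) := by exact_mod_cast not_le.mp hn
          push_cast at this; linarith)]
        simp

/-! ### parity check by bit masks -/

/-- xor of the masks `2^c` -/
def xorMask : List ℕ → ℕ
  | [] => 0
  | c :: l => Nat.xor (Nat.shiftLeft 1 c) (xorMask l)

/-- sum over the bits below `M` -/
def bitSum {A : Type*} [AddCommMonoid A] (T : ℕ → A) (M N : ℕ) : A :=
  ∑ k ∈ Finset.range M, if N.testBit k then T k else 0

lemma bitSum_xor {A : Type*} [CommRing A] [CharP A 2] (T : ℕ → A) (M c N : ℕ) (hc : c < M) :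
    bitSum T M (Nat.xor (Nat.shiftLeft 1 c) N) = T c + bitSum T M N := by
  unfold bitSum
  have h1 : ∀ k ∈ Finset.range M, (if (Nat.xor (Nat.shiftLeft 1 c) N).testBit k then T k else 0) =
      (if k = c then T k else 0) + (if N.testBit k then T k else 0) := by
    intro k _
    have h2 : (Nat.xor (Nat.shiftLeft 1 c) N).testBit k = ((decide (c = k)) ^^ N.testBit k) := by
      have h3 : Nat.xor (Nat.shiftLeft 1 c) N = (2 ^ c) ^^^ N := by
        show (1 <<< c) ^^^ N = _
        rw [Nat.shiftLeft_eq, one_mul]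
      rw [h3, Nat.testBit_xor, Nat.testBit_two_pow]
    rw [h2]
    by_cases hk : k = c
    · subst hk
      by_cases hN : N.testBit k
      · simp [hN, CharTwo.add_self_eq_zero]
      · simp [hN]
    · have : c ≠ k := fun h => hk h.symm
      simp [hk, this]
  rw [Finset.sum_congr rfl h1, Finset.sum_add_distrib, Finset.sum_ite_eq',
    if_pos (Finset.mem_range.mpr hc)]

lemma xorMask_sum {A : Type*} [CommRing A] [CharP A 2] (T : ℕ → A) (M : ℕ) (l : List ℕ)
    (hl : ∀ c ∈ l, c < M) : bitSum T M (xorMask l) = (l.map T).sum := by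
  induction l with
  | nil => simp [xorMask, bitSum]
  | cons c l ih =>
    rw [xorMask, bitSum_xor T M c _ (hl c List.mem_cons_self),
      ih (fun d hd => hl d (List.mem_cons_of_mem _ hd))]
    simp

lemma xor_sound {A : Type*} [CommRing A] [CharP A 2] (T : ℕ → A) (l l' : List ℕ)
    (h : xorMask l = xorMask l') : (l.map T).sum = (l'.map T).sum := by
  obtain ⟨M, hM⟩ : ∃ M, ∀ c ∈ l ++ l', c < M := by
    refine ⟨(l ++ l').sum + 1, fun c hc => ?_⟩
    have := List.single_le_sum (by simp) c hc
    omega
  rw [← xorMask_sum T M l (fun c hc => hM c (by simp [hc])),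
    ← xorMask_sum T M l' (fun c hc => hM c (by simp [hc])), h]

/-- codes of exponent lists: the last entry is recovered from the degree -/
def code : List ℕ → ℕ
  | [] => 0
  | [_] => 0
  | a :: t => a + 128 * code t

/-- total weight of an exponent list in rank `s`, starting at index `k` -/
def wtL (s : ℕ) : ℕ → List ℕ → ℕ
  | _, [] => 0
  | k, a :: t => a * (2 ^ s - 2 ^ k) + wtL s (k+1) t

/-- decode -/
def decode (s : ℕ) : ℕ → ℕ → ℕ → ℕ → List ℕ
  | 0, _, _, _ => []
  | 1, k, D, _ => [D / (2 ^ s - 2 ^ k)]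
  | n+2, k, D, c => (c % 128) :: decode s (n+1) (k+1) (D - (c % 128) * (2 ^ s - 2 ^ k)) (c / 128)

/-- the boolean check: the sum of `e_n` over the source monomials is the sum of the targets -/
def check (s n D : ℕ) (cert : List (List (ℕ × ℕ))) (tgt : List (List ℕ)) : Bool :=
  let l := cert.flatMap (E s n)
  (l.all fun y => decode s s 0 D (code y) == y) &&
  (tgt.all fun y => decode s s 0 D (code y) == y) &&
  (xorMask (l.map code) == xorMask (tgt.map code))

/-- source weights -/
def wtS (s : ℕ) : List (ℕ × ℕ) → ℕ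
  | [] => 0
  | (i, t) :: r => 2 ^ t * (2 ^ (s+1) - 2 ^ i) + wtS s r

/-- well-formedness of the certificate -/
def wf (s D : ℕ) (cert : List (List (ℕ × ℕ))) : Bool :=
  cert.all fun x => (wtS s x == D) && x.all fun p => decide (p.1 ≤ s)

/-- the polynomial of a certificate -/
noncomputable def certPoly (s : ℕ) (cert : List (List (ℕ × ℕ))) : D (s+1) := (cert.map (src s)).sum

lemma Hom.src (s : ℕ) (x : List (ℕ × ℕ)) (hx : ∀ p ∈ x, p.1 ≤ s) : Hom (s+1) (wtS s x) (src s x) := by
  induction x with
  | nil => exact (Hom.one _).congr (by simp [wtS])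
  | cons a r ih =>
    obtain ⟨i, t⟩ := a
    have hi : i ≤ s := hx (i, t) List.mem_cons_self
    refine (((Hom.q (s+1) i).pow (2 ^ t)).mul (ih (fun p hp => hx p (List.mem_cons_of_mem _ hp)))).congr ?_
    have h2 : 2 ^ i ≤ 2 ^ (s+1) := Nat.pow_le_pow_right (by norm_num) (by omega)
    simp only [wtS]
    push_cast [h2]; ring

lemma Hom.certPoly (s D : ℕ) (cert : List (List (ℕ × ℕ))) (h : wf s D cert = true) :
    Hom (s+1) D (certPoly s cert) := by
  unfold LZ.certPoly
  unfold wf at h
  rw [List.all_eq_true] at h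
  induction cert with
  | nil => simpa using Hom.zero _ _
  | cons x l ih =>
    rw [List.map_cons, List.sum_cons]
    have hx := h x List.mem_cons_self
    rw [Bool.and_eq_true, beq_iff_eq, List.all_eq_true] at hx
    refine Hom.add ((Hom.src s x (fun p hp => by simpa using hx.2 p hp)).congr (by rw [hx.1])) ?_
    exact ih (fun y hy => h y (List.mem_cons_of_mem _ hy))

theorem check_sound (s n W W' : ℕ) (cert : List (List (ℕ × ℕ))) (tgt : List (List ℕ))
    (hwf : wf s W' cert = true) (h : check s n W cert tgt = true) :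
    e s n (certPoly s cert) = (tgt.map (pmL s 0)).sum := by
  have h1 : e s n (certPoly s cert) = ((cert.flatMap (E s n)).map (pmL s 0)).sum := by
    unfold certPoly
    unfold wf at hwf
    rw [List.all_eq_true] at hwf
    clear h
    induction cert with
    | nil => simp
    | cons x l ih =>
      have hx := hwf x List.mem_cons_self
      rw [Bool.and_eq_true, beq_iff_eq, List.all_eq_true] at hx
      rw [List.map_cons, List.sum_cons, map_add, List.flatMap_cons, List.map_append,
        List.sum_append, e_src s x (fun p hp => by simpa using hx.2 p hp) n,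
        ih (fun y hy => hwf y (List.mem_cons_of_mem _ hy))]
  rw [h1]
  unfold check at h
  simp only [Bool.and_eq_true, beq_iff_eq] at h
  obtain ⟨⟨h2, h3⟩, h4⟩ := h
  rw [List.all_eq_true] at h2 h3
  set l := cert.flatMap (E s n)
  set T : ℕ → D s := fun c => pmL s 0 (decode s s 0 W c) with hT
  have h5 : ∀ l : List (List ℕ), (∀ y ∈ l, (decode s s 0 W (code y) == y) = true) →
      (l.map (pmL s 0)).sum = ((l.map code).map T).sum := by
    intro l hl
    rw [List.map_map]
    congr 1
    refine List.map_congr_left (fun y hy => ?_)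
    have := hl y hy
    rw [beq_iff_eq] at this
    simp only [Function.comp, hT, this]
  rw [h5 l h2, h5 tgt h3]
  exact xor_sound T _ _ h4

end Vale.Agent.P263.LZ
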