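import Mathlib.Algebra.MonoidAlgebra.Basic
import Mathlib.Algebra.MonoidAlgebra.Support
import Mathlib.Algebra.Field.ZMod
import Mathlib.Data.Finsupp.Basic
import Mathlib.Data.Finsupp.Single
import Mathlib.Tactic

/-!
Singer's invariant-theoretic chain complex `Γ⁺`, in the form used by Hung, whose homology is
Tor over the mod 2 Steenrod algebra.
-/

namespace Vale.Agent.P263.LZ

noncomputable section

/-- Laurent polynomials over `F_2` in the variables `v_1, v_2, …`. -/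
abbrev Lau := AddMonoidAlgebra (ZMod 2) (ℕ →₀ ℤ)

/-- The variable `v_{i+1}`. -/
def v (i : ℕ) : Lau := AddMonoidAlgebra.single (Finsupp.single i 1) 1

/-- The Dickson invariants `Q_{s,j}`, written in terms of `v_1, …, v_s`:
`Q_{s,j} = Q_{s-1,j-1}^2 + v_s Q_{s-1,0} Q_{s-1,j}`, `Q_{0,0} = 1`. -/
def Q : ℕ → ℕ → Lau
  | 0, 0 => 1
  | 0, _ + 1 => 0
  | s + 1, 0 => v s * Q s 0 * Q s 0
  | s + 1, j + 1 => Q s j ^ 2 + v s * Q s 0 * Q s (j + 1)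

/-- The differential of `Γ⁺` on Laurent polynomials in `v_1, …, v_{s+1}`:
`v_1^{e_1} ⋯ v_{s+1}^{e_{s+1}}` goes to `v_1^{e_1} ⋯ v_s^{e_s}` if `e_{s+1} = -1`, and to `0`
otherwise. -/
def bdry (s : ℕ) (x : Lau) : Lau :=
  x.coeff.sum fun e c => if e s = -1 then AddMonoidAlgebra.single (e.erase s) c else 0

/-- `Γ⁺_s`: the span of the elements `Q_{s,0}^{i_0} Q_{s,1}^{i_1} ⋯ Q_{s,s-1}^{i_{s-1}}` with
`i_0 = b - a` an integer, `i_1, …, i_{s-1} ≥ 0` and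
`i_0 + deg = 2^s i_0 + ∑_{j ≥ 1} i_j (2^s - 2^j) ≥ 0`. -/
def GammaPlus (s : ℕ) : Submodule (ZMod 2) Lau :=
  Submodule.span (ZMod 2) {x | ∃ (a b : ℕ) (i : ℕ → ℕ),
    x * Q s 0 ^ a = Q s 0 ^ b * ∏ j ∈ Finset.Ico 1 s, Q s j ^ i j ∧
    2 ^ s * a ≤ 2 ^ s * b + ∑ j ∈ Finset.Ico 1 s, i j * (2 ^ s - 2 ^ j)}

/-- The part of positive degree of the Dickson algebra `D_s = F_2[Q_{s,0}, …, Q_{s,s-1}]`. -/
def DicksonPlus (s : ℕ) : Submodule (ZMod 2) Lau :=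
  Submodule.span (ZMod 2) {x | ∃ i : ℕ → ℕ, (∃ j < s, i j ≠ 0) ∧
    x = ∏ j ∈ Finset.range s, Q s j ^ i j}

end

end Vale.Agent.P263.LZ
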