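import Vale.Agent.P263.LZ.Ops

namespace Vale.Agent.P263.LZ

lemma coeff_two_smul {σ : Type*} (A : MvPolynomial σ (ZMod 2)) (m : σ →₀ ℕ) :
    MvPolynomial.coeff (2 • m) (A ^ 2) = MvPolynomial.coeff m A := by
  rw [← MvPolynomial.expand_zmod]
  exact MvPolynomial.coeff_expand_smul _ (by norm_num) _ _

lemma sqrt_hom {s : ℕ} {n : ℤ} {A : D s} (h : Hom s (2 * n) (A ^ 2)) : Hom s n A := by
  intro m hm
  have h1 := coeff_two_smul (σ := Fin s) A m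
  have h2 := h (show MvPolynomial.coeff (2 • m) (A ^ 2) ≠ 0 from fun h3 => hm (h1.symm.trans h3))
  rw [map_nsmul, two_nsmul] at h2
  omega

lemma sqrt_Ng {s : ℕ} {d : ℤ} {A : D s} (h : Ng s (2 * d) (A ^ 2)) : Ng s d A :=
  sqrt_hom (Hom.congr h (by ring))

lemma rank_zero {n : ℤ} {F : D 0} (h : Hom 0 n F) (hn : n ≠ 0) : F = 0 := by
  refine MvPolynomial.ext (R := ZMod 2) (σ := Fin 0) _ _ (fun m => ?_)
  by_contra hm
  have h1 := h hm
  have : m = 0 := Subsingleton.elim _ _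
  rw [this, map_zero] at h1
  exact hn h1.symm

/-! ### classes -/

/-- sums of `q_i B^2`, `i ≥ 1` -/
noncomputable def Q1 (s : ℕ) : AddSubmonoid (D s) :=
  AddSubmonoid.closure {H | ∃ (i : ℕ) (B : D s), 1 ≤ i ∧ H = q s i * B ^ 2}

/-- sums of `q_i q_j B^2`, `i, j ≥ 1` -/
noncomputable def Q2 (s : ℕ) : AddSubmonoid (D s) :=
  AddSubmonoid.closure {H | ∃ (i j : ℕ) (B : D s), 1 ≤ i ∧ 1 ≤ j ∧ H = q s i * (q s j * B ^ 2)}

lemma mem_Q1 (s i : ℕ) (B : D s) (hi : 1 ≤ i) : q s i * B ^ 2 ∈ Q1 s :=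
  AddSubmonoid.subset_closure ⟨i, B, hi, rfl⟩

lemma q_mul_Q1 (s i : ℕ) (hi : 1 ≤ i) {H : D s} (hH : H ∈ Q1 s) : q s i * H ∈ Q2 s := by
  induction hH using AddSubmonoid.closure_induction with
  | mem x hx =>
    obtain ⟨j, B, hj, rfl⟩ := hx
    exact AddSubmonoid.subset_closure ⟨i, j, B, hi, hj, rfl⟩
  | zero => rw [mul_zero]; exact zero_mem _
  | add x y _ _ hx hy => rw [mul_add]; exact add_mem hx hy

lemma Q1_e_even {s : ℕ} {H : D (s+1)} (hH : H ∈ Q1 (s+1)) (m : ℤ) :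
    ∃ A : D s, e s (2 * m) H = A ^ 2 := by
  induction hH using AddSubmonoid.closure_induction with
  | mem x hx =>
    obtain ⟨j, B, hj, rfl⟩ := hx
    refine ⟨qm s j * e s m B, ?_⟩
    rw [e_q_mul, e_sq_even, show 2 * m - 1 = 2 * (m - 1) + 1 by ring, e_sq_odd, mul_zero, add_zero,
      mul_pow]
  | zero => exact ⟨0, by simp⟩
  | add x y _ _ hx hy =>
    obtain ⟨A, hA⟩ := hx
    obtain ⟨B, hB⟩ := hy
    exact ⟨A + B, by rw [map_add, hA, hB, CharTwo.add_sq]⟩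

lemma Q2_e_odd {s : ℕ} {H : D (s+1)} (hH : H ∈ Q2 (s+1)) (m : ℤ) :
    e s (2 * m + 1) H ∈ Q1 s := by
  induction hH using AddSubmonoid.closure_induction with
  | mem x hx =>
    obtain ⟨i, j, B, hi, hj, rfl⟩ := hx
    have h : e s (2 * m + 1) (q (s+1) i * (q (s+1) j * B ^ 2)) =
        q s j * (qm s i * e s m B) ^ 2 + q s i * (qm s j * e s m B) ^ 2 := by
      rw [e_q_mul, e_q_mul, e_q_mul, e_sq_odd, show 2 * m + 1 - 1 = 2 * m by ring, e_sq_even,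
        show 2 * m - 1 = 2 * (m - 1) + 1 by ring, e_sq_odd]
      ring
    rw [h]
    exact add_mem (mem_Q1 _ _ _ hj) (mem_Q1 _ _ _ hi)
  | zero => rw [map_zero]; exact zero_mem _
  | add x y _ _ hx hy => rw [map_add]; exact add_mem hx hy

lemma tM_sq_Q1 (s M : ℕ) (B : D s) : tM s (2 * M + 1) (B ^ 2) ∈ Q1 (s+1) := by
  rw [tM_odd]
  exact sum_mem (fun i _ => mem_Q1 _ _ _ (by omega))

lemma tM_Q1_Q2 {s : ℕ} (M : ℕ) {H : D s} (hH : H ∈ Q1 s) : tM s (2 * M + 1) H ∈ Q2 (s+1) := by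
  induction hH using AddSubmonoid.closure_induction with
  | mem x hx =>
    obtain ⟨j, B, hj, rfl⟩ := hx
    rw [tM_q]
    refine sum_mem (fun a ha => q_mul_Q1 _ _ (by simp at ha; omega) ?_)
    simp only [Finset.mem_Ioc] at ha
    have h1 : 2 ^ a = 2 * 2 ^ (a-1) := by
      rw [← pow_succ', Nat.sub_add_cancel (by omega)]
    have h2 : 2 ^ (j+1) = 2 * 2 ^ j := by rw [pow_succ']
    have : 2 * M + 1 + (2 ^ a - 2 ^ (j+1)) = 2 * (M + (2 ^ (a-1) - 2 ^ j)) + 1 := by omega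
    rw [this]
    exact tM_sq_Q1 _ _ _
  | zero => rw [map_zero]; exact zero_mem _
  | add x y _ _ hx hy => rw [map_add]; exact add_mem hx hy

lemma Kb_Q1_Q2 {s : ℕ} (b : ℕ) {H : D s} (hH : H ∈ Q1 s) : Kb s b H ∈ Q2 (s+1) := by
  have h1 : 1 ≤ (b+1) * 2 ^ s := Nat.one_le_iff_ne_zero.mpr (by positivity)
  have : (b+1) * 2 ^ (s+1) - 1 = 2 * ((b+1) * 2 ^ s - 1) + 1 := by
    have : (b+1) * 2 ^ (s+1) = 2 * ((b+1) * 2 ^ s) := by rw [pow_succ]; ring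
    omega
  rw [Kb, this]
  exact tM_Q1_Q2 _ hH

lemma Th_Q1 (s : ℕ) (Z : D s) : Th s Z ∈ Q1 (s+1) :=
  sum_mem (fun i _ => mem_Q1 _ _ _ (by omega))

/-! ### TOP -/

theorem TOP (s r m : ℕ) (hm : 1 ≤ m) (δ : ℤ) (H : D (s+1)) (hH : Ng (s+1) δ H)
    (hv : ∀ k : ℕ, 1 ≤ k → k ≤ m → e s (δ + 2 ^ (r+1) * k - 1) H = 0) :
    ∃ Φ : D (s+2), Ng (s+2) (δ + 2 ^ r * m - 1) Φ ∧
      e (s+1) (δ + 2 ^ r * m - 1 + 2 ^ r * m - 1) Φ = H ∧
      (∀ k : ℕ, 1 ≤ k → k < m → e (s+1) (δ + 2 ^ r * m - 1 + 2 ^ r * k - 1) Φ = 0) ∧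
      (1 ≤ r → Odd δ → H ∈ Q1 (s+1) → Φ ∈ Q2 (s+2)) := by
  set δ' : ℤ := δ + 2 ^ r * m - 1 with hδ'
  -- induction on the number of corrected letters
  suffices key : ∀ j : ℕ, j < m → ∃ Φ : D (s+2), Ng (s+2) δ' Φ ∧
      e (s+1) (δ' + 2 ^ r * m - 1) Φ = H ∧
      (∀ k : ℕ, m - j ≤ k → k < m → e (s+1) (δ' + 2 ^ r * k - 1) Φ = 0) ∧
      (1 ≤ r → Odd δ → H ∈ Q1 (s+1) → Φ ∈ Q2 (s+2)) by
    obtain ⟨Φ, h1, h2, h3, h4⟩ := key (m-1) (by omega)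
    exact ⟨Φ, h1, h2, fun k hk1 hk2 => h3 k (by omega) hk2, h4⟩
  intro j
  induction j with
  | zero =>
    intro _
    have hb1 : 1 ≤ 2 ^ r * m := Nat.one_le_iff_ne_zero.mpr (by positivity)
    have hb : ((2 ^ r * m - 1 : ℕ) : ℤ) = 2 ^ r * m - 1 := by
      rw [Nat.cast_sub hb1]; push_cast; ring
    refine ⟨Kb (s+1) (2 ^ r * m - 1) H, ?_, ?_, ?_, ?_⟩
    · refine (hH.Kb _).congr ?_
      rw [hb, hδ']; ring
    · have h5 := e_Kb s (2 ^ r * m - 1) hH (δ' + 2 ^ r * m - 1) (by rw [hb]; linarith)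
      have h6 : δ' + 2 ^ r * (m:ℤ) - 1 = δ + 2 * ((2 ^ r * m - 1 : ℕ) : ℤ) := by
        rw [hb, hδ']; ring
      have h7 : δ' + 2 ^ r * (m:ℤ) - 1 + 1 = δ + 2 ^ (r+1) * m - 1 := by
        rw [hδ', pow_succ]; ring
      rw [if_pos h6, h7, hv m hm le_rfl, map_zero, zero_add] at h5
      exact h5
    · intro k hk1 hk2; omega
    · intro _ _ hQ
      exact Kb_Q1_Q2 _ hQ
  | succ j ih =>
    intro hj
    obtain ⟨Φ, h1, h2, h3, h4⟩ := ih (by omega)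
    set k0 := m - (j+1) with hk0
    have hk01 : 1 ≤ k0 := by omega
    have hb1 : 1 ≤ 2 ^ r * k0 := Nat.one_le_iff_ne_zero.mpr (by positivity)
    have hb : ((2 ^ r * k0 - 1 : ℕ) : ℤ) = 2 ^ r * k0 - 1 := by
      rw [Nat.cast_sub hb1]; push_cast; ring
    set E := e (s+1) (δ' + 2 ^ r * k0 - 1) Φ with hE
    have hEN : Ng (s+1) (δ' - 2 ^ r * k0 + 1) E := (h1.e _).congr (by ring)
    have hp : (0:ℤ) < 2 ^ r := by positivity
    -- the iterated operators vanish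
    have hvan : ∀ k : ℕ, k0 ≤ k → k ≤ m → e s (δ' + 2 ^ r * k) E = 0 := by
      intro k hk1 hk2
      rw [hE]
      rcases Nat.eq_or_lt_of_le hk1 with h5 | h5
      · have h9 := rel_zero s Φ (δ' + 2 ^ r * k0 - 1)
        rw [← h5]
        rw [sub_add_cancel] at h9
        exact h9
      · obtain ⟨κ, hκ⟩ : ∃ κ : ℕ, k = k0 + κ := ⟨k - k0, by omega⟩
        have hκ1 : 1 ≤ κ := by omega
        have hrp := rel_pow s r κ hκ1 (δ' + 2 ^ r * k0 - 1) Φ (by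
          intro k' hk'1 hk'2
          have := h3 (k0 + k') (by omega) (by omega)
          rw [show δ' + 2 ^ r * (k0:ℤ) - 1 + 2 ^ r * k' = δ' + 2 ^ r * ((k0 + k' : ℕ) : ℤ) - 1 by
            push_cast; ring, this, map_zero])
        rw [show δ' + 2 ^ r * (k:ℤ) = δ' + 2 ^ r * k0 - 1 + 1 + 2 ^ r * κ by
          rw [hκ]; push_cast; ring, hrp,
          show δ' + 2 ^ r * (k0:ℤ) - 1 + 2 ^ r * κ = δ' + 2 ^ r * (k:ℤ) - 1 by
            rw [hκ]; push_cast; ring]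
        rcases Nat.eq_or_lt_of_le hk2 with h6 | h6
        · rw [h6, h2]
          have := hv k0 hk01 (by omega)
          rw [show δ' + 2 ^ r * (k0:ℤ) - 1 + 1 - 2 ^ r * κ = δ + 2 ^ (r+1) * k0 - 1 by
            have : (m:ℤ) = k0 + κ := by rw [← h6, hκ]; push_cast; ring
            rw [hδ', this, pow_succ]; ring, this]
        · rw [h3 k (by omega) h6, map_zero]
    have hstep : ∀ k : ℕ, k0 ≤ k → k ≤ m →
        e (s+1) (δ' + 2 ^ r * k - 1) (Kb (s+1) (2 ^ r * k0 - 1) E) = if k = k0 then E else 0 := by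
      intro k hk1 hk2
      have hkk : (2:ℤ) ^ r * k0 ≤ 2 ^ r * k := mul_le_mul_of_nonneg_left (by exact_mod_cast hk1) hp.le
      have h8 := e_Kb s (2 ^ r * k0 - 1) hEN (δ' + 2 ^ r * k - 1) (by rw [hb]; linarith)
      rw [h8, show δ' + 2 ^ r * (k:ℤ) - 1 + 1 = δ' + 2 ^ r * k by ring, hvan k hk1 hk2, map_zero,
        zero_add]
      by_cases h5 : k = k0
      · rw [if_pos h5, if_pos (by rw [hb, h5]; ring)]
      · rw [if_neg h5, if_neg]
        rw [hb]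
        intro h6
        apply h5
        have : (2:ℤ) ^ r * k = 2 ^ r * k0 := by linarith
        exact_mod_cast mul_left_cancel₀ hp.ne' this
    refine ⟨Φ + Kb (s+1) (2 ^ r * k0 - 1) E, ?_, ?_, ?_, ?_⟩
    · refine h1.add ((hEN.Kb _).congr ?_)
      rw [hb]; ring
    · rw [map_add, h2, hstep m (by omega) le_rfl, if_neg (by omega), add_zero]
    · intro k hk1 hk2
      rw [map_add, hstep k hk1 hk2.le]
      by_cases h5 : k = k0
      · rw [if_pos h5, h5, ← hE, CharTwo.add_self_eq_zero]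
      · rw [if_neg h5, add_zero]
        exact h3 k (by omega) hk2
    · intro hr hodd hQ
      have hΦ := h4 hr hodd hQ
      refine add_mem hΦ (Kb_Q1_Q2 _ ?_)
      obtain ⟨c, hc⟩ := hodd
      obtain ⟨r', rfl⟩ : ∃ r', r = r' + 1 := ⟨r - 1, by omega⟩
      have : δ' + 2 ^ (r'+1) * (k0:ℤ) - 1 = 2 * (c + 2 ^ r' * m + 2 ^ r' * k0 - 1) + 1 := by
        rw [hδ', hc, pow_succ]; ring
      rw [hE, this]
      exact Q2_e_odd hΦ _

end Vale.Agent.P263.LZ
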