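import Vale.Agent.P263.LZ.Formal

namespace Vale.Agent.P263.LZ

/-- `1 + N_0 c_0` is surjective in positive degrees -/
theorem surj (s : ℕ) (d : ℤ) (hd : 0 < d) (X : D (s+1)) (hX : Ng (s+1) d X) :
    ∃ Z : D (s+1), Ng (s+1) d Z ∧ Z + N0 s (e s d Z) = X := by
  induction s with
  | zero =>
    refine ⟨X, hX, ?_⟩
    have h1 : Ng 0 (2 * d - d) (e 0 d X) := hX.e d
    have h2 : e 0 d X = 0 := rank_zero h1 (by
      have : (2 * d - d) * 2 ^ 0 = d := by ring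
      rw [this]; omega)
    rw [h2, map_zero, add_zero]
  | succ s ih =>
    have h1 : Ng (s+1) d (e (s+1) d X) := (hX.e d).congr (by ring)
    obtain ⟨Y, hY, hYe⟩ := ih (e (s+1) d X) h1
    have h2 : e (s+1) d (N0 (s+1) Y) = N0 s (e s d Y) := e_N0 s hY d le_rfl
    have h3 : e (s+1) d (X + N0 (s+1) Y) = Y := by
      rw [map_add, h2, ← hYe, add_assoc, CharTwo.add_self_eq_zero, add_zero]
    refine ⟨X + N0 (s+1) Y, hX.add hY.N0, ?_⟩
    rw [h3, add_assoc X, CharTwo.add_self_eq_zero, add_zero]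

/-! ### the elements `X'_a`, `Z_a` -/

/-- `X'_a ∈ N_{a+1}(d)` -/
noncomputable def Xs (d : ℕ) : (a : ℕ) → D (a+1)
  | 0 => q 1 0 ^ (2 * d)
  | (a+1) => Kb (a+1) 0 (Xs d a)

/-- `Z_a ∈ N_{a+1}(d)` -/
noncomputable def Zs (d : ℕ) : (a : ℕ) → D (a+1)
  | 0 => Xs d 0
  | (a+1) => Xs d (a+1) + N0 (a+1) (Zs d a)

lemma Ng.Xs (d a : ℕ) : Ng (a+1) d (Xs d a) := by
  induction a with
  | zero =>
    refine ((Hom.q 1 0).pow (2 * d)).congr ?_
    push_cast; ring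
  | succ a ih => exact (ih.Kb 0).congr (by simp)

lemma Ng.Zs (d a : ℕ) : Ng (a+1) d (Zs d a) := by
  induction a with
  | zero => exact Ng.Xs d 0
  | succ a ih => exact (Ng.Xs d (a+1)).add ih.N0

lemma e_Xs_zero (d : ℕ) (κ : ℤ) : e 0 κ (Xs d 0) = if κ = 2 * d then 1 else 0 := by
  have h : ∀ n : ℕ, ∀ κ : ℤ, e 0 κ (q 1 0 ^ n) = if κ = n then 1 else 0 := by
    intro n
    induction n with
    | zero => intro κ; rw [pow_zero, e_one]; simp
    | succ n ih =>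
      intro κ
      rw [pow_succ, mul_comm, e_q0_mul, ih, q_self, one_mul]
      by_cases h : κ = ((n+1 : ℕ) : ℤ)
      · rw [if_pos h, if_pos (by rw [h]; push_cast; ring)]
      · rw [if_neg h, if_neg (by push_cast at h; omega)]
  show e 0 κ (q 1 0 ^ (2 * d)) = _
  rw [h]; push_cast; rfl

lemma e_Xs (d a : ℕ) (κ : ℤ) (h1 : (d:ℤ) < κ) (h2 : κ ≠ 2 * d - a) : e a κ (Xs d a) = 0 := by
  induction a generalizing κ with
  | zero => rw [e_Xs_zero, if_neg (by simpa using h2)]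
  | succ a ih =>
    show e (a+1) κ (Kb (a+1) 0 (Xs d a)) = 0
    rw [e_Kb a 0 (Ng.Xs d a) κ (by push_cast; omega), ih (κ+1) (by omega) (by push_cast at h2; omega),
      map_zero, zero_add, if_neg (by push_cast; omega)]

lemma e_Xs_succ (d a : ℕ) (h : a + 1 < d) : e (a+1) d (Xs d (a+1)) = Xs d a := by
  show e (a+1) d (Kb (a+1) 0 (Xs d a)) = _
  rw [e_Kb a 0 (Ng.Xs d a) d (by push_cast; omega), e_Xs d a (d+1) (by omega) (by omega),
      map_zero, zero_add, if_pos (by push_cast; ring)]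

lemma Xs_dvd (d a : ℕ) (hd : 0 < d) : ∃ W, Xs d a = q (a+1) 0 * W ∧
    Hom (a+1) (d * 2 ^ (a+1) - (2 ^ (a+1) - 1)) W := by
  induction a with
  | zero =>
    obtain ⟨n, hn⟩ : ∃ n, 2 * d = n + 1 := ⟨2 * d - 1, by omega⟩
    refine ⟨q 1 0 ^ n, ?_, ?_⟩
    · show q 1 0 ^ (2 * d) = _
      rw [hn, pow_succ, mul_comm]
    · refine ((Hom.q 1 0).pow n).congr ?_
      have : (n:ℤ) = 2 * d - 1 := by
        have : ((2 * d : ℕ) : ℤ) = ((n + 1 : ℕ) : ℤ) := by rw [hn]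
        push_cast at this; linarith
      rw [this]; ring
  | succ a ih =>
    obtain ⟨W, hW, hWN⟩ := ih
    have h1 : 4 ≤ 2 ^ (a+1+1) := by
      have : 2 ^ 2 ≤ 2 ^ (a+1+1) := Nat.pow_le_pow_right (by norm_num) (by omega)
      omega
    have h2 : (0+1) * 2 ^ (a+1+1) - 1 = 2 ^ (a+1+1) - 2 + 1 := by omega
    refine ⟨tM (a+1) (2 ^ (a+1+1) - 2) W, ?_, ?_⟩
    · show Kb (a+1) 0 (Xs d a) = _
      rw [hW, Kb, h2, tM_q0 (a+1) (2 ^ (a+1+1) - 2) (by omega)]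
    · refine (Hom.tM (a+1) _ hWN).congr ?_
      rw [Nat.cast_sub (by omega), pow_succ (2:ℤ) (a+1)]; push_cast; ring

lemma Zs_eq (d : ℕ) (a : ℕ) (h : a < d) : Xs d a + N0 a (e a d (Zs d a)) = Zs d a := by
  induction a with
  | zero =>
    show Xs d 0 + N0 0 (e 0 d (Xs d 0)) = Xs d 0
    rw [e_Xs_zero, if_neg (by omega), map_zero, add_zero]
  | succ a ih =>
    have h1 : e (a+1) d (Zs d (a+1)) = Zs d a := by
      show e (a+1) d (Xs d (a+1) + N0 (a+1) (Zs d a)) = Zs d a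
      rw [map_add, e_Xs_succ d a h, e_N0 a (Ng.Zs d a) d le_rfl, ih (by omega)]
    rw [h1]; rfl

lemma e_Zs (p m : ℕ) (a : ℕ) (ha : a < p) (hm : 1 ≤ m) (k : ℕ) (hk : 1 ≤ k) :
    e a ((p * m : ℕ) + p * k) (Zs (p * m) a) = if k = m then 1 else 0 := by
  have hp : 0 < p := by omega
  have hpk : 1 ≤ p * k := Nat.one_le_iff_ne_zero.mpr (by positivity)
  induction a with
  | zero =>
    show e 0 ((p * m : ℕ) + p * k) (Xs (p * m) 0) = _
    rw [e_Xs_zero]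
    by_cases h : k = m
    · rw [if_pos h, if_pos (by rw [h]; push_cast; ring)]
    · rw [if_neg h, if_neg]
      intro h2
      apply h
      have h3 : p * k = p * m := by
        have : ((p * k : ℕ) : ℤ) = ((p * m : ℕ) : ℤ) := by push_cast at h2 ⊢; linarith
        exact_mod_cast this
      exact Nat.eq_of_mul_eq_mul_left hp h3
  | succ a ih =>
    show e (a+1) ((p * m : ℕ) + p * k) (Xs (p * m) (a+1) + N0 (a+1) (Zs (p * m) a)) = _
    have hpk' : (1:ℤ) ≤ p * k := by exact_mod_cast hpk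
    rw [map_add, e_N0 a (Ng.Zs (p * m) a) _ (by linarith), ih (by omega), e_Xs _ _ _ (by linarith),
      zero_add]
    · split_ifs
      · exact N0_one a
      · exact map_zero _
    · intro h2
      have h3 : p * k + (a + 1) = p * m := by
        have : ((p * k + (a+1) : ℕ) : ℤ) = ((p * m : ℕ) : ℤ) := by push_cast at h2 ⊢; linarith
        exact_mod_cast this
      have h4 : p ∣ a + 1 := by
        have h5 : p ∣ p * k + (a + 1) := ⟨m, h3⟩
        exact (Nat.dvd_add_right (dvd_mul_right p k)).mp h5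
      have := Nat.le_of_dvd (by omega) h4
      omega

lemma e_q1_sq (s : ℕ) (κ : ℤ) (W : D (s+2)) : e (s+1) (2 * κ) (q (s+2) 1 * W ^ 2) =
    e (s+1) (κ + 1) (q (s+2) 0 * W) ^ 2 := by
  rw [e_q_mul, e_q0_mul, e_sq_even, show 2 * κ - 1 = 2 * (κ - 1) + 1 by ring, e_sq_odd,
    add_sub_cancel_right, qm_succ]
  ring

/-- (E) -/
theorem Ethm (s p m : ℕ) (hp : s + 1 < p) (hm : 1 ≤ m) :
    ∃ H : D (s+2), Ng (s+2) (2 * (p * m) - 1) H ∧ H ∈ Q1 (s+2) ∧
      e (s+1) (2 * (p * m) - 2) H = 0 ∧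
      ∀ k : ℕ, 1 ≤ k → e (s+1) (2 * (p * m) - 2 + 2 * (p * k)) H = if k = m then 1 else 0 := by
  have hp0 : 0 < p := by omega
  have hd : p ≤ p * m := Nat.le_mul_of_pos_right p hm
  have hmain : ∀ κ : ℤ, 0 ≤ κ → ((p * m : ℕ) : ℤ) - 1 ≤ κ → ∀ W,
      Xs (p * m) (s+1) = q (s+2) 0 * W →
      e (s+1) (2 * κ) (q (s+2) 1 * W ^ 2 + Th (s+1) (Zs (p * m) s)) =
      e (s+1) (κ+1) (Xs (p * m) (s+1)) ^ 2 + ((if κ = ((p * m : ℕ) : ℤ) - 1 then
        Zs (p * m) s ^ 2 else 0) + N0 s (e s (κ+1) (Zs (p * m) s)) ^ 2) := by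
    intro κ h0 h1 W hW
    rw [map_add, e_q1_sq, ← hW, e_Th s (Ng.Zs (p * m) s) κ h0 h1]
  obtain ⟨W, hW, hWN⟩ := Xs_dvd (p * m) (s+1) (by omega)
  have hdz : ((p:ℤ) * m) = ((p * m : ℕ) : ℤ) := by push_cast; ring
  refine ⟨q (s+2) 1 * W ^ 2 + Th (s+1) (Zs (p * m) s), ?_, ?_, ?_, ?_⟩
  · refine Hom.add ?_ ?_
    · refine ((Hom.q (s+2) 1).mul (hWN.pow 2)).congr ?_
      rw [hdz]; push_cast; ring
    · exact (Ng.Zs (p * m) s).Th.congr (by rw [hdz])
  · exact add_mem (mem_Q1 _ _ _ le_rfl) (Th_Q1 _ _)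
  · have h1 := hmain (((p * m : ℕ) : ℤ) - 1) (by omega) le_rfl W hW
    rw [if_pos rfl, sub_add_cancel, e_Xs_succ (p * m) s (by omega)] at h1
    rw [hdz, show 2 * ((p * m : ℕ) : ℤ) - 2 = 2 * (((p * m : ℕ) : ℤ) - 1) by ring, h1]
    have h2 := Zs_eq (p * m) s (by omega)
    have h3 : (Xs (p * m) s + N0 s (e s ((p * m : ℕ) : ℤ) (Zs (p * m) s))) ^ 2 = Zs (p * m) s ^ 2 := by
      rw [h2]
    rw [CharTwo.add_sq] at h3
    rw [← h3, add_assoc (Xs (p * m) s ^ 2), CharTwo.add_self_eq_zero, add_zero,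
      CharTwo.add_self_eq_zero]
  · intro k hk
    have hpk : 1 ≤ p * k := Nat.one_le_iff_ne_zero.mpr (by positivity)
    have hpk' : (1:ℤ) ≤ p * k := by exact_mod_cast hpk
    have h1 := hmain (((p * m : ℕ) : ℤ) - 1 + p * k) (by omega) (by omega) W hW
    have h4 : ((p * m : ℕ) : ℤ) - 1 + p * k + 1 = ((p * m : ℕ) : ℤ) + p * k := by ring
    rw [if_neg (by omega), h4, e_Zs p m s (by omega) hm k hk, e_Xs _ _ _ (by linarith)] at h1
    · rw [hdz, show 2 * ((p * m : ℕ) : ℤ) - 2 + 2 * (p * k) =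
        2 * (((p * m : ℕ) : ℤ) - 1 + p * k) by ring, h1]
      split_ifs
      · rw [N0_one]; simp
      · rw [map_zero]; simp
    · intro h2
      have h3 : p * k + (s + 1) = p * m := by
        have : ((p * k + (s+1) : ℕ) : ℤ) = ((p * m : ℕ) : ℤ) := by push_cast at h2 ⊢; linarith
        exact_mod_cast this
      have h4 : p ∣ s + 1 := by
        have h5 : p ∣ p * k + (s + 1) := ⟨m, h3⟩
        exact (Nat.dvd_add_right (dvd_mul_right p k)).mp h5
      have := Nat.le_of_dvd (by omega) h4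
      omega

end Vale.Agent.P263.LZ
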