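import Vale.Agent.P263.LZ.Formal2

namespace Vale.Agent.P263.LZ

/-- (P) -/
theorem Pthm (s L : ℕ) (hL : s + 1 < 2 ^ L) (d : ℕ) : ∀ (r m : ℕ) (X : D (s+1)), 0 < d →
    Ng (s+1) d X → (m:ℤ) * (2 ^ L - 2 ^ r) < d →
    ∃ H : D (s+2), Ng (s+2) (2 * d - 1) H ∧ H ∈ Q1 (s+2) ∧
      e (s+1) (2 * d - 2) H = X ^ 2 ∧
      ∀ k : ℕ, 1 ≤ k → k ≤ m → e (s+1) (2 * d - 2 + 2 ^ (r+1) * k) H = 0 := by
  induction d using Nat.strong_induction_on with
  | _ d IH =>
  intro r m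
  induction m with
  | zero =>
    intro X hd hX _
    obtain ⟨Z, hZ, hZe⟩ := surj s d (by exact_mod_cast hd) X hX
    refine ⟨Th (s+1) Z, hZ.Th, Th_Q1 _ _, ?_, fun k hk1 hk2 => by omega⟩
    have h1 := e_Th s hZ ((d:ℤ) - 1) (by omega) le_rfl
    rw [if_pos rfl, sub_add_cancel, ← CharTwo.add_sq, hZe] at h1
    rw [← h1]; congr 1
    ring_nf
  | succ m ihm =>
    intro X hd hX hcond
    have hdz : (0:ℤ) < d := by exact_mod_cast hd
    have hcond' : (m:ℤ) * (2 ^ L - 2 ^ r) < d := by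
      rcases le_or_gt 0 ((2:ℤ) ^ L - 2 ^ r) with h | h
      · push_cast at hcond; nlinarith
      · have : (m:ℤ) * (2 ^ L - 2 ^ r) ≤ 0 := mul_nonpos_of_nonneg_of_nonpos (by positivity) h.le
        linarith
    obtain ⟨H', hH'N, hH'Q, hH'X, hH'v⟩ := ihm X hd hX hcond'
    -- the error term
    obtain ⟨A, hA⟩ := Q1_e_even hH'Q (d - 1 + 2 ^ r * (m+1))
    have hidx : 2 * ((d:ℤ) - 1 + 2 ^ r * (m+1)) = 2 * d - 2 + 2 ^ (r+1) * ((m+1 : ℕ) : ℤ) := by
      rw [pow_succ]; push_cast; ring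
    rw [hidx] at hA
    have hAN : Ng (s+1) ((d:ℤ) - 2 ^ r * (m+1)) A := by
      refine sqrt_Ng ?_
      rw [← hA]
      refine (hH'N.e _).congr ?_
      rw [pow_succ]; push_cast; ring
    rcases lt_trichotomy ((d:ℤ) - 2 ^ r * (m+1)) 0 with hneg | hz | hpos
    · have hA0 : A = 0 := hAN.eq_zero_of_neg hneg
      refine ⟨H', hH'N, hH'Q, hH'X, fun k hk1 hk2 => ?_⟩
      rcases Nat.eq_or_lt_of_le hk2 with h | h
      · rw [h, hA, hA0]; simp
      · exact hH'v k hk1 (by omega)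
    · rw [hz] at hAN
      rcases hAN.const with hA0 | hA1
      · refine ⟨H', hH'N, hH'Q, hH'X, fun k hk1 hk2 => ?_⟩
        rcases Nat.eq_or_lt_of_le hk2 with h | h
        · rw [h, hA, hA0]; simp
        · exact hH'v k hk1 (by omega)
      · -- use (E)
        have hdE : (d:ℤ) = 2 ^ r * (m+1) := by linarith
        have hp : s + 1 < 2 ^ r := by
          have h1 : ((m:ℤ)+1) * (2 ^ L - 2 ^ r) < (m+1) * 2 ^ r := by
            push_cast at hcond; linarith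
          have h2 : (2:ℤ) ^ L - 2 ^ r < 2 ^ r := by
            have hm1 : (0:ℤ) < m + 1 := by positivity
            exact lt_of_mul_lt_mul_left h1 hm1.le
          have h3 : (2:ℤ) ^ L < 2 ^ (r+1) := by rw [pow_succ]; linarith
          have h4 : L < r + 1 := by
            by_contra hcon
            have : (2:ℤ) ^ (r+1) ≤ 2 ^ L := pow_le_pow_right₀ (by norm_num) (not_lt.mp hcon)
            linarith
          have h5 : 2 ^ L ≤ 2 ^ r := Nat.pow_le_pow_right (by norm_num) (by omega)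
          omega
        obtain ⟨H3, h3N, h3Q, h30, h3v⟩ := Ethm s (2 ^ r) (m+1) hp (by omega)
        have hdE' : (2:ℤ) * (((2 ^ r : ℕ) : ℤ) * ((m+1 : ℕ) : ℤ)) = 2 * d := by
          rw [hdE]; push_cast; ring
        rw [hdE'] at h3N h30
        refine ⟨H' + H3, hH'N.add h3N, add_mem hH'Q h3Q, ?_, fun k hk1 hk2 => ?_⟩
        · rw [map_add, hH'X, h30, add_zero]
        · have h6 := h3v k hk1
          rw [hdE', show (2:ℤ) * (((2 ^ r : ℕ) : ℤ) * k) = 2 ^ (r+1) * k by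
            rw [pow_succ]; push_cast; ring] at h6
          rw [map_add, h6]
          rcases Nat.eq_or_lt_of_le hk2 with h | h
          · rw [if_pos h, h, hA, hA1, one_pow, CharTwo.add_self_eq_zero]
          · rw [if_neg (by omega), add_zero]
            exact hH'v k hk1 (by omega)
    · -- use (P) for A and TOP
      obtain ⟨dA, hdA⟩ : ∃ dA : ℕ, (dA:ℤ) = d - 2 ^ r * (m+1) := ⟨((d:ℤ) - 2 ^ r * (m+1)).toNat, by omega⟩
      have hpr : (0:ℤ) < 2 ^ r * (m+1) := by positivity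
      rw [← hdA] at hAN
      obtain ⟨H1, h1N, h1Q, h1A, h1v⟩ := IH dA (by omega) (r+1) (m+1) A (by omega) hAN (by
        push_cast at hcond ⊢
        rw [hdA, pow_succ]
        linarith)
      obtain ⟨Φ, hΦN, hΦm, hΦk, hΦQ⟩ := TOP (s+1) (r+1) (m+1) (by omega) (2 * dA - 1) H1 h1N (by
        intro k hk1 hk2
        have := h1v k hk1 hk2
        rw [show 2 * (dA:ℤ) - 1 + 2 ^ (r+1+1) * k - 1 = 2 * dA - 2 + 2 ^ (r+1+1) * k by ring]
        exact this)
      have hδ : 2 * (dA:ℤ) - 1 + 2 ^ (r+1) * ((m+1 : ℕ) : ℤ) - 1 = 2 * d - 2 := by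
        rw [hdA, pow_succ]; push_cast; ring
      rw [hδ] at hΦN hΦm
      simp only [hδ] at hΦk
      have hΦQ' : Φ ∈ Q2 (s+3) := hΦQ (by omega) ⟨dA - 1, by ring⟩ h1Q
      have hvan : ∀ k' : ℕ, 1 ≤ k' → k' < m + 1 →
          e (s+2) (2 * (d:ℤ) - 3 + 2 ^ (r+1) * k') Φ = 0 := by
        intro k' h1 h2
        have := hΦk k' h1 h2
        rw [show 2 * (d:ℤ) - 3 + 2 ^ (r+1) * k' = 2 * d - 2 + 2 ^ (r+1) * k' - 1 by ring]
        exact this
      have hiter : ∀ k : ℕ, 1 ≤ k → k ≤ m + 1 →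
          e (s+1) (2 * (d:ℤ) - 2 + 2 ^ (r+1) * k) (e (s+2) (2 * d - 3) Φ) =
          if k = m + 1 then A ^ 2 else 0 := by
        intro k hk1 hk2
        have hrp := rel_pow (s+1) (r+1) k hk1 (2 * (d:ℤ) - 3) Φ (by
          intro k' h1 h2
          rw [hvan k' h1 (by omega), map_zero])
        rw [show 2 * (d:ℤ) - 2 + 2 ^ (r+1) * k = 2 * d - 3 + 1 + 2 ^ (r+1) * k by ring, hrp]
        rcases Nat.eq_or_lt_of_le hk2 with h | h
        · rw [if_pos h, h]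
          rw [show 2 * (d:ℤ) - 3 + 2 ^ (r+1) * ((m+1 : ℕ) : ℤ) =
            2 * d - 2 + 2 ^ (r+1) * ((m+1 : ℕ) : ℤ) - 1 by ring, hΦm,
            show 2 * (d:ℤ) - 3 + 1 - 2 ^ (r+1) * ((m+1 : ℕ) : ℤ) = 2 * dA - 2 by
              rw [hdA, pow_succ]; push_cast; ring]
          exact h1A
        · rw [hvan k hk1 h, map_zero, if_neg (by omega)]
      refine ⟨H' + e (s+2) (2 * d - 3) Φ, hH'N.add ((hΦN.e _).congr (by ring)),
        add_mem hH'Q ?_, ?_, fun k hk1 hk2 => ?_⟩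
      · have := Q2_e_odd hΦQ' ((d:ℤ) - 2)
        rw [show 2 * ((d:ℤ) - 2) + 1 = 2 * d - 3 by ring] at this
        exact this
      · have h9 := rel_zero (s+1) Φ (2 * d - 3)
        rw [show 2 * (d:ℤ) - 3 + 1 = 2 * d - 2 by ring] at h9
        rw [map_add, hH'X, h9, add_zero]
      · rw [map_add, hiter k hk1 hk2]
        rcases Nat.eq_or_lt_of_le hk2 with h | h
        · rw [if_pos h, h, hA, CharTwo.add_self_eq_zero]
        · rw [if_neg (by omega), add_zero]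
          exact hH'v k hk1 (by omega)

/-- (SQ_m) -/
theorem SQm (s L m d : ℕ) (hL : s + 1 < 2 ^ L) (hd : 0 < d) (X : D (s+1)) (hX : Ng (s+1) d X)
    (hcond : (m:ℤ) * (2 ^ L - 1) < d) :
    ∃ Θ : D (s+2), Ng (s+2) (2 * d + m - 1) Θ ∧
      ∀ j : ℕ, j ≤ m → e (s+1) (2 * d + m - 2 + j) Θ = if j = m then X ^ 2 else 0 := by
  obtain ⟨H, hN, hQ, hHX, hHv⟩ := Pthm s L hL d 0 m X hd hX (by simpa using hcond)
  rcases Nat.eq_zero_or_pos m with hm | hm
  · subst hm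
    refine ⟨H, hN.congr (by simp), fun j hj => ?_⟩
    have hj0 : j = 0 := by omega
    subst hj0
    rw [if_pos rfl, ← hHX]
    congr 2
    simp
  · obtain ⟨Φ, hΦN, hΦm, hΦk, -⟩ := TOP (s+1) 0 m hm (2 * d - 1) H hN (by
      intro k hk1 hk2
      have := hHv k hk1 hk2
      rw [show 2 * (d:ℤ) - 1 + 2 ^ (0+1) * k - 1 = 2 * d - 2 + 2 ^ (0+1) * k by ring]
      exact this)
    have hδ : 2 * (d:ℤ) - 1 + 2 ^ 0 * (m : ℤ) - 1 = 2 * d + m - 2 := by ring
    rw [hδ] at hΦN hΦm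
    simp only [hδ] at hΦk
    refine ⟨e (s+2) (2 * d + m - 3) Φ, (hΦN.e _).congr (by ring), fun j hj => ?_⟩
    rcases Nat.eq_zero_or_pos j with hj0 | hj0
    · subst hj0
      have h9 := rel_zero (s+1) Φ (2 * d + m - 3)
      rw [show 2 * (d:ℤ) + m - 3 + 1 = 2 * d + m - 2 + ((0:ℕ):ℤ) by push_cast; ring] at h9
      rw [h9, if_neg (by omega)]
    · have hvan : ∀ k' : ℕ, 1 ≤ k' → k' < m →
          e (s+2) (2 * (d:ℤ) + m - 3 + 2 ^ 0 * k') Φ = 0 := by
        intro k' h1 h2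
        have := hΦk k' h1 h2
        rw [show 2 * (d:ℤ) + m - 3 + 2 ^ 0 * k' = 2 * d + m - 2 + 2 ^ 0 * k' - 1 by ring]
        exact this
      have hrp := rel_pow (s+1) 0 j hj0 (2 * (d:ℤ) + m - 3) Φ (by
          intro k' h1 h2
          rw [hvan k' h1 (by omega), map_zero])
      rw [show 2 * (d:ℤ) + m - 2 + j = 2 * d + m - 3 + 1 + 2 ^ 0 * j by ring, hrp]
      rcases Nat.eq_or_lt_of_le hj with h | h
      · rw [if_pos h, h]
        rw [show 2 * (d:ℤ) + m - 3 + 2 ^ 0 * m = 2 * d + m - 2 + 2 ^ 0 * m - 1 by ring, hΦm,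
            show 2 * (d:ℤ) + m - 3 + 1 - 2 ^ 0 * m = 2 * d - 2 by ring]
        exact hHX
      · rw [hvan j hj0 h, map_zero, if_neg (by omega)]

end Vale.Agent.P263.LZ
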