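import Vale.Agent.P263.LZ.Step

namespace Vale.Agent.P263.LZ

/-- the parity set of an exponent function -/
structure Par (s : ℕ) (ε : ℕ → ℕ) (U : Finset ℕ) : Prop where
  sub : U ⊆ Finset.Icc 1 (s+1)
  odd : ∀ i ∈ Finset.Ico 1 (s+1), (i ∈ U ↔ ε i % 2 = 1)
  par : (ε 0 + U.card) % 2 = 0

lemma exists_Par (s : ℕ) (ε : ℕ → ℕ) : ∃ U, Par s ε U := by
  set U0 := (Finset.Ico 1 (s+1)).filter (fun i => ε i % 2 = 1) with hU0
  have hnot : s + 1 ∉ U0 := by simp [hU0]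
  by_cases h : (ε 0 + U0.card) % 2 = 0
  · refine ⟨U0, ?_, ?_, h⟩
    · intro i hi; simp [hU0] at hi ⊢; omega
    · intro i hi; simp [hU0] at hi ⊢; omega
  · refine ⟨insert (s+1) U0, ?_, ?_, ?_⟩
    · intro i hi; simp [hU0] at hi ⊢; omega
    · intro i hi; simp [hU0] at hi ⊢; omega
    · rw [Finset.card_insert_of_notMem hnot]; omega

lemma Par.M1 {s : ℕ} {ε : ℕ → ℕ} {U : Finset ℕ} (h : Par s ε U) :
    (∏ i ∈ U, q (s+1) i) * (∏ i ∈ Finset.Ico 1 (s+1), q (s+1) i ^ (ε i / 2)) ^ 2 =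
      ∏ i ∈ Finset.Ico 1 (s+1), q (s+1) i ^ ε i := by
  have h1 : (∏ i ∈ U, q (s+1) i) = ∏ i ∈ Finset.Ico 1 (s+1), (if i ∈ U then q (s+1) i else 1) := by
    have h2 : (∏ i ∈ U, q (s+1) i) = ∏ i ∈ Finset.Icc 1 (s+1), (if i ∈ U then q (s+1) i else 1) := by
      rw [Finset.prod_ite_mem, Finset.inter_eq_right.mpr h.sub]
    have h3 : Finset.Icc 1 (s+1) = insert (s+1) (Finset.Ico 1 (s+1)) := by ext; simp
    rw [h2, h3, Finset.prod_insert (by simp), q_self]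
    simp
  rw [h1, ← Finset.prod_pow, ← Finset.prod_mul_distrib]
  refine Finset.prod_congr rfl (fun i hi => ?_)
  have ho := h.odd i hi
  by_cases hiU : i ∈ U
  · rw [if_pos hiU, ← pow_mul, ← pow_succ']
    congr 1
    have := ho.mp hiU
    omega
  · rw [if_neg hiU, one_mul, ← pow_mul]
    congr 1
    have : ¬ ε i % 2 = 1 := fun h => hiU (ho.mpr h)
    omega

/-- the exponents of `q_0^{-1} F` -/
def e1 (ε : ℕ → ℕ) (c : ℕ) : ℕ → ℕ := fun i => if i = 0 then (ε 0 + c) / 2 - 1 else ε i / 2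

lemma Par.D1 {s : ℕ} {ε : ℕ → ℕ} {U : Finset ℕ} (h : Par s ε U) (hf : 1 ≤ (ε 0 + U.card) / 2) :
    dg (s+1) ε = 2 * dg (s+1) (e1 ε U.card) + U.card +
      2 * (2 ^ (s+1) - 1 - ∑ i ∈ U, (2:ℤ) ^ (i-1)) := by
  have h1 : ∑ i ∈ U, ((2:ℤ) ^ (s+1) - 2 ^ i) =
      ∑ i ∈ Finset.Ico 1 (s+1), (if i ∈ U then ((2:ℤ) ^ (s+1) - 2 ^ i) else 0) := by
    have h2 : ∑ i ∈ U, ((2:ℤ) ^ (s+1) - 2 ^ i) =
      ∑ i ∈ Finset.Icc 1 (s+1), (if i ∈ U then ((2:ℤ) ^ (s+1) - 2 ^ i) else 0) := by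
      rw [Finset.sum_ite_mem, Finset.inter_eq_right.mpr h.sub]
    have h3 : Finset.Icc 1 (s+1) = insert (s+1) (Finset.Ico 1 (s+1)) := by ext; simp
    rw [h2, h3, Finset.sum_insert (by simp)]
    simp
  have h4 : ∑ i ∈ U, ((2:ℤ) ^ (s+1) - 2 ^ i) = U.card * 2 ^ (s+1) - 2 * ∑ i ∈ U, (2:ℤ) ^ (i-1) := by
    rw [Finset.sum_sub_distrib, Finset.sum_const, nsmul_eq_mul, Finset.mul_sum]
    congr 1
    refine Finset.sum_congr rfl (fun i hi => ?_)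
    have := h.sub hi
    rw [Finset.mem_Icc] at this
    rw [← pow_succ', Nat.sub_add_cancel this.1]
  have h5 : ∑ i ∈ Finset.Ico 1 (s+1), (ε i : ℤ) * (2 ^ (s+1) - 2 ^ i) =
      2 * ∑ i ∈ Finset.Ico 1 (s+1), (e1 ε U.card i : ℤ) * (2 ^ (s+1) - 2 ^ i) +
      ∑ i ∈ Finset.Ico 1 (s+1), (if i ∈ U then ((2:ℤ) ^ (s+1) - 2 ^ i) else 0) := by
    rw [Finset.mul_sum, ← Finset.sum_add_distrib]
    refine Finset.sum_congr rfl (fun i hi => ?_)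
    have ho := h.odd i hi
    have hi0 : i ≠ 0 := by simp at hi; omega
    have he : e1 ε U.card i = ε i / 2 := by simp [e1, hi0]
    rw [he]
    by_cases hiU : i ∈ U
    · rw [if_pos hiU]
      have h6 := ho.mp hiU
      have h7 : (ε i : ℤ) = 2 * ((ε i / 2 : ℕ) : ℤ) + 1 := by omega
      rw [h7]; ring
    · rw [if_neg hiU]
      have h6 : ¬ ε i % 2 = 1 := fun h => hiU (ho.mpr h)
      have h7 : (ε i : ℤ) = 2 * ((ε i / 2 : ℕ) : ℤ) := by omega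
      rw [h7]; ring
  have h8 : (e1 ε U.card 0 : ℤ) = (ε 0 + U.card) / 2 - 1 := by
    have : e1 ε U.card 0 = (ε 0 + U.card) / 2 - 1 := by simp [e1]
    rw [this, Nat.cast_sub hf]; push_cast; ring
  have h9 : 2 * (((ε 0 : ℤ) + U.card) / 2) = ε 0 + U.card := by
    have := h.par
    omega
  rw [dg, dg, h5, ← h1, h4, h8]
  linear_combination (-((2:ℤ) ^ (s+1) - 1)) * h9

lemma sum_full (s : ℕ) : ∑ i ∈ Finset.Icc 1 (s+1), (2:ℤ) ^ (i-1) = 2 ^ (s+1) - 1 := by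
  induction s with
  | zero => simp
  | succ s ih =>
    rw [Finset.sum_Icc_succ_top (by omega), ih, Nat.add_sub_cancel]
    rw [pow_succ (2:ℤ) (s+1)]; ring

lemma Par.z_lt {s : ℕ} {ε : ℕ → ℕ} {U : Finset ℕ} (h : Par s ε U) (hne : U ≠ Finset.Icc 1 (s+1)) :
    ∑ i ∈ U, (2:ℤ) ^ (i-1) < 2 ^ (s+1) - 1 := by
  rw [← sum_full]
  obtain ⟨i, hi1, hi2⟩ := Finset.exists_of_ssubset (Finset.ssubset_iff_subset_ne.mpr ⟨h.sub, hne⟩)
  exact Finset.sum_lt_sum_of_subset h.sub hi1 hi2 (by positivity) (fun i _ _ => by positivity)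

lemma dg_ge (s : ℕ) (ε : ℕ → ℕ) : (ε 0 : ℤ) * (2 ^ (s+1) - 1) ≤ dg (s+1) ε := by
  rw [dg]
  have : 0 ≤ ∑ i ∈ Finset.Ico 1 (s+1), (ε i : ℤ) * (2 ^ (s+1) - 2 ^ i) := by
    refine Finset.sum_nonneg (fun i hi => mul_nonneg (by positivity) ?_)
    have : (2:ℤ) ^ i ≤ 2 ^ (s+1) := pow_le_pow_right₀ (by norm_num) (by simp at hi; omega)
    linarith
  linarith

lemma Fix2 (s L : ℕ) (hL : s + 1 < 2 ^ L) (hL2 : L < s) (ε : ℕ → ℕ) (d : ℕ)
    (hdg : dg (s+1) ε = d) (hd : 0 < d) (hpar : (d + ε 0) % 2 = 0) (Y : D (s+1))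
    (Φ : D (s+2)) (hΦ : Ng (s+2) (d - 1) Φ)
    (hv : ∀ j : ℕ, j ≤ ε 0 → e (s+1) ((d:ℤ) - 2 + j) Φ =
      (if j = 0 then q (s+1) 0 ^ d * mon (s+1) ε else 0) + (if j = ε 0 then Y ^ 2 else 0)) :
    ∃ Φ' : D (s+2), Ng (s+2) (d - 1) Φ' ∧
      ∀ j : ℕ, j ≤ ε 0 → e (s+1) ((d:ℤ) - 2 + j) Φ' =
        if j = 0 then q (s+1) 0 ^ d * mon (s+1) ε else 0 := by
  have hge := dg_ge s ε
  rw [hdg] at hge
  have hLs : (2:ℤ) ^ L < 2 ^ s := pow_lt_pow_right₀ (by norm_num) hL2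
  have hs2 : (2:ℤ) ^ (s+1) = 2 * 2 ^ s := by rw [pow_succ]; ring
  have hL1 : (1:ℤ) ≤ 2 ^ L := one_le_pow₀ (by norm_num)
  have hε : (0:ℤ) ≤ ε 0 := by positivity
  have hle : (ε 0 : ℤ) ≤ d := by nlinarith
  have hle' : ε 0 ≤ d := by exact_mod_cast hle
  obtain ⟨K, hK⟩ : ∃ K, d = 2 * K + ε 0 := ⟨(d - ε 0) / 2, by omega⟩
  have hKz : (d:ℤ) = 2 * K + ε 0 := by rw [hK]; push_cast; ring
  have hK1 : (ε 0 : ℤ) * (2 ^ s - 1) ≤ K := by
    rw [hKz, hs2] at hge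
    linarith
  have hK0 : 0 < K := by
    rcases Nat.eq_zero_or_pos (ε 0) with h | h
    · omega
    · have h1 : (1:ℤ) ≤ ε 0 := by exact_mod_cast h
      have : (0:ℤ) < K := by nlinarith
      exact_mod_cast this
  have hcond : ((ε 0 : ℕ) : ℤ) * (2 ^ L - 1) < K := by
    rcases Nat.eq_zero_or_pos (ε 0) with h | h
    · rw [h]; simp; exact hK0
    · have h1 : (1:ℤ) ≤ ε 0 := by exact_mod_cast h
      nlinarith
  have hG : Ng (s+1) d (q (s+1) 0 ^ d * mon (s+1) ε) := by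
    refine (((Hom.q (s+1) 0).pow d).mul (Hom.mon (s+1) ε)).congr ?_
    rw [hdg]; ring
  exact Fix s L (ε 0) K d hL hK0 hK hcond _ Y hG Φ hΦ hv

/-- exponent identity -/
lemma Par.M2 {s : ℕ} {ε : ℕ → ℕ} {U : Finset ℕ} (h : Par s ε U) (hf : 1 ≤ (ε 0 + U.card) / 2)
    (a b c d : ℕ) (hab : 2 * b + 2 * c + ε 0 + U.card = d + ε 0 + 2) :
    q (s+1) 0 ^ (2 * b) * ((∏ i ∈ U, q (s+1) i) *
      (q (s+1) 0 ^ c * mon (s+1) (e1 ε U.card)) ^ 2) = q (s+1) 0 ^ d * mon (s+1) ε := by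
  have h1 : ∏ i ∈ Finset.Ico 1 (s+1), q (s+1) i ^ (e1 ε U.card i) =
      ∏ i ∈ Finset.Ico 1 (s+1), q (s+1) i ^ (ε i / 2) := by
    refine Finset.prod_congr rfl (fun i hi => ?_)
    have hi0 : i ≠ 0 := by simp at hi; omega
    simp [e1, hi0]
  have h2 : e1 ε U.card 0 = (ε 0 + U.card) / 2 - 1 := by simp [e1]
  rw [mon, mon, h1, h2, ← h.M1]
  set R := ∏ i ∈ Finset.Ico 1 (s+1), q (s+1) i ^ (ε i / 2)
  set V := ∏ i ∈ U, q (s+1) i
  have h3 : q (s+1) 0 ^ (2 * b) * (V * (q (s+1) 0 ^ c * (q (s+1) 0 ^ ((ε 0 + U.card) / 2 - 1) * R)) ^ 2) =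
      q (s+1) 0 ^ (2 * b + 2 * c + 2 * ((ε 0 + U.card) / 2 - 1)) * (V * R ^ 2) := by
    rw [pow_add, pow_add]; ring
  have h4 : 2 * b + 2 * c + 2 * ((ε 0 + U.card) / 2 - 1) = d + ε 0 := by
    have := h.par
    omega
  rw [h3, h4, pow_add, mul_assoc]

/-- square case -/
lemma caseC (s L : ℕ) (hL : s + 1 < 2 ^ L) (hL2 : L < s) (ε : ℕ → ℕ) (d : ℕ)
    (hdg : dg (s+1) ε = d) (hd : 0 < d) (h0 : ε 0 = 0) (h : Par s ε ∅) :
    ∃ Φ' : D (s+2), Ng (s+2) (d - 1) Φ' ∧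
      ∀ j : ℕ, j ≤ ε 0 → e (s+1) ((d:ℤ) - 2 + j) Φ' =
        if j = 0 then q (s+1) 0 ^ d * mon (s+1) ε else 0 := by
  have hM := h.M1
  rw [Finset.prod_empty, one_mul] at hM
  have hdeven : ∃ K, d = 2 * K := by
    have h1 : (d:ℤ) = 2 * ∑ i ∈ Finset.Ico 1 (s+1), ((ε i / 2 : ℕ) : ℤ) * (2 ^ (s+1) - 2 ^ i) := by
      rw [← hdg, dg, h0, Finset.mul_sum]
      simp only [Nat.cast_zero, zero_mul, zero_add]
      refine Finset.sum_congr rfl (fun i hi => ?_)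
      have ho := h.odd i hi
      have h6 : ¬ ε i % 2 = 1 := fun h => by simpa using ho.mpr h
      have h7 : (ε i : ℤ) = 2 * ((ε i / 2 : ℕ) : ℤ) := by omega
      rw [h7]; ring
    exact ⟨d / 2, by omega⟩
  obtain ⟨K, hK⟩ := hdeven
  refine Fix2 s L hL hL2 ε d hdg hd (by rw [h0]; omega)
    (q (s+1) 0 ^ K * ∏ i ∈ Finset.Ico 1 (s+1), q (s+1) i ^ (ε i / 2)) 0 (Ng.zero _ _) ?_
  intro j hj
  have hj0 : j = 0 := by omega
  rw [map_zero, if_pos hj0, if_pos (by omega), mul_pow, hM, mon, h0, pow_zero, one_mul, ← pow_mul,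
    mul_comm K 2, ← hK, CharTwo.add_self_eq_zero]

/-- nonfull case -/
lemma caseA (s L : ℕ) (hL : s + 1 < 2 ^ L) (hL2 : L < s) (ε : ℕ → ℕ) (d : ℕ)
    (hdg : dg (s+1) ε = d) (hd : 0 < d) (U : Finset ℕ) (h : Par s ε U)
    (hf : 1 ≤ (ε 0 + U.card) / 2) (hU : U ≠ Finset.Icc 1 (s+1)) :
    ∃ Φ' : D (s+2), Ng (s+2) (d - 1) Φ' ∧
      ∀ j : ℕ, j ≤ ε 0 → e (s+1) ((d:ℤ) - 2 + j) Φ' =
        if j = 0 then q (s+1) 0 ^ d * mon (s+1) ε else 0 := by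
  have hD1 := h.D1 hf
  have hz := h.z_lt hU
  rw [hdg] at hD1
  set z : ℤ := ∑ i ∈ U, (2:ℤ) ^ (i-1) with hzdef
  obtain ⟨b, hb⟩ : ∃ b : ℕ, (b:ℤ) = 2 ^ (s+1) - 2 - z := ⟨((2:ℤ) ^ (s+1) - 2 - z).toNat, by
    rw [Int.toNat_of_nonneg (by linarith)]⟩
  have hdge := dg_ge s (e1 ε U.card)
  have h2s : (1:ℤ) ≤ 2 ^ (s+1) := one_le_pow₀ (by norm_num)
  have hd1nn : 0 ≤ dg (s+1) (e1 ε U.card) := le_trans (mul_nonneg (by positivity) (by linarith)) hdge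
  obtain ⟨d1, hd1⟩ : ∃ d1 : ℕ, dg (s+1) (e1 ε U.card) = d1 :=
    ⟨(dg (s+1) (e1 ε U.card)).toNat, by rw [Int.toNat_of_nonneg hd1nn]⟩
  rw [hd1] at hD1
  have hdd : d = 2 * d1 + U.card + 2 * b + 2 := by
    have : (d:ℤ) = 2 * d1 + U.card + 2 * b + 2 := by rw [hD1, hb]; ring
    exact_mod_cast this
  set f := (ε 0 + U.card) / 2 with hfdef
  have hf2 : 2 * f = ε 0 + U.card := by have := h.par; omega
  have he10 : e1 ε U.card 0 = f - 1 := by simp [e1, hfdef]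
  set F := q (s+1) 0 ^ (d1+2) * mon (s+1) (e1 ε U.card) with hF
  set τ := tM (s+1) 1 F with hτ
  have hFN : Hom (s+1) ((d1+2) * (2 ^ (s+1) - 1) + d1) F := by
    refine (((Hom.q (s+1) 0).pow (d1+2)).mul (Hom.mon (s+1) _)).congr ?_
    rw [hd1]; push_cast; ring
  have hpos : (0:ℤ) < 2 ^ (s+1) := by positivity
  have hτi : ∀ i : ℕ, i < f → e (s+1) ((d1:ℤ) + i) τ = if i = 0 then F else 0 := by
    intro i hi
    have hMD : ((1:ℕ):ℤ) + ((d1+2) * (2 ^ (s+1) - 1) + d1) + 1 = 2 ^ (s+1) * (d1 + 2) := by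
      push_cast; ring
    have hst := star s 1 (d1 + i) le_rfl F _ hFN
      (by rw [hMD]; exact mul_le_mul_of_nonneg_left (by push_cast; linarith [Int.natCast_nonneg i]) hpos.le)
    rw [hMD] at hst
    have hz1 : e s (((d1 + i : ℕ) : ℤ) + 1) F = 0 := by
      rw [hF, mon, he10, ← mul_assoc, ← pow_add, e_q0_pow_mul, e_neg _ (by push_cast; omega), mul_zero]
    rw [hz1, map_zero, zero_add] at hst
    rw [show (d1:ℤ) + i = ((d1 + i : ℕ) : ℤ) by push_cast; ring, hτ, hst]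
    by_cases hi0 : i = 0
    · rw [if_pos hi0, if_pos (by rw [hi0]; push_cast; ring)]
    · rw [if_neg hi0, if_neg]
      intro h3
      have := mul_left_cancel₀ hpos.ne' h3
      apply hi0
      push_cast at this
      omega
  have hτN : Hom (s+2) (2 ^ (s+2) * (d1 + 1) - 2) τ := by
    refine (Hom.tM (s+1) 1 hFN).congr ?_
    rw [pow_succ (2:ℤ) (s+1)]; push_cast; ring
  refine Fix2 s L hL hL2 ε d hdg hd (by omega)
    (q (s+1) 0 ^ b * ((∏ i ∈ U, qm (s+1) i) * e (s+1) ((d1:ℤ) + f) τ))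
    (q (s+2) 0 ^ (2 * b) * ((∏ i ∈ U, q (s+2) i) * τ ^ 2)) ?_ ?_
  · -- degree
    have hP : Hom (s+2) (∑ i ∈ U, ((2:ℤ) ^ (s+2) - 2 ^ i)) (∏ i ∈ U, q (s+2) i) :=
      Hom.prod _ _ _ (fun i _ => Hom.q (s+2) i)
    refine (((Hom.q (s+2) 0).pow (2 * b)).mul (hP.mul (hτN.pow 2))).congr ?_
    have h4 : ∑ i ∈ U, ((2:ℤ) ^ (s+2) - 2 ^ i) = U.card * 2 ^ (s+2) - 2 * z := by
      rw [Finset.sum_sub_distrib, Finset.sum_const, nsmul_eq_mul, hzdef, Finset.mul_sum]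
      congr 1
      refine Finset.sum_congr rfl (fun i hi => ?_)
      have := h.sub hi
      rw [Finset.mem_Icc] at this
      rw [← pow_succ', Nat.sub_add_cancel this.1]
    have hz' : z = 2 ^ (s+1) - 2 - b := by rw [hb]; ring
    rw [h4, hdd, hz', pow_succ (2:ℤ) (s+1)]
    push_cast; ring
  · intro j hj
    have h5 := S2 (s+1) U τ d1 f b hf (fun i hi1 hi2 => by
      rw [hτi i hi2, if_neg (by omega)]) (2 * d1 + U.card + j) (by omega) (by omega)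
    have h6 := hτi 0 (by omega)
    rw [if_pos rfl, Nat.cast_zero, add_zero] at h6
    rw [show ((2 * d1 + U.card + j : ℕ) : ℤ) + 2 * b = (d:ℤ) - 2 + j by rw [hdd]; push_cast; ring,
      h6, hF, h.M2 hf 0 b (d1+2) d (by omega)] at h5
    rw [h5]
    congr 1
    · by_cases hj0 : j = 0
      · rw [if_pos (by omega), if_pos hj0]
      · rw [if_neg (by omega), if_neg hj0]
    · by_cases hj0 : j = ε 0
      · rw [if_pos (by omega), if_pos hj0]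
      · rw [if_neg (by omega), if_neg hj0]

/-- full case -/
lemma caseB (s L : ℕ) (hs : 2 ≤ s) (hL : s + 1 < 2 ^ L) (hL2 : L < s) (ε : ℕ → ℕ) (d : ℕ)
    (hdg : dg (s+1) ε = d) (hd : 0 < d) (h : Par s ε (Finset.Icc 1 (s+1)))
    (IH : ∀ d1 : ℕ, d1 < d → ∀ ε' : ℕ → ℕ, dg (s+1) ε' = d1 → 0 < d1 →
      ∃ Φ' : D (s+2), Ng (s+2) (d1 - 1) Φ' ∧
      ∀ j : ℕ, j ≤ ε' 0 → e (s+1) ((d1:ℤ) - 2 + j) Φ' =
        if j = 0 then q (s+1) 0 ^ d1 * mon (s+1) ε' else 0) :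
    ∃ Φ' : D (s+2), Ng (s+2) (d - 1) Φ' ∧
      ∀ j : ℕ, j ≤ ε 0 → e (s+1) ((d:ℤ) - 2 + j) Φ' =
        if j = 0 then q (s+1) 0 ^ d * mon (s+1) ε else 0 := by
  set U := Finset.Icc 1 (s+1) with hUdef
  have hcard : U.card = s + 1 := by simp [hUdef]
  have hf : 1 ≤ (ε 0 + U.card) / 2 := by rw [hcard]; omega
  have hD1 := h.D1 hf
  rw [hdg, sum_full, sub_self, mul_zero, add_zero] at hD1
  set f := (ε 0 + U.card) / 2 with hfdef
  have hf2 : 2 * f = ε 0 + U.card := by have := h.par; omega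
  have he10 : e1 ε U.card 0 = f - 1 := by simp [e1, hfdef]
  have hf3 : 2 ≤ f := by omega
  have hdge := dg_ge s (e1 ε U.card)
  have h2s : (2:ℤ) ≤ 2 ^ (s+1) := by
    calc (2:ℤ) = 2 ^ 1 := by norm_num
      _ ≤ 2 ^ (s+1) := pow_le_pow_right₀ (by norm_num) (by omega)
  have hd1pos : 0 < dg (s+1) (e1 ε U.card) := by
    refine lt_of_lt_of_le ?_ hdge
    rw [he10]
    refine mul_pos ?_ (by linarith)
    have : 0 < f - 1 := by omega
    exact_mod_cast this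
  obtain ⟨d1, hd1⟩ : ∃ d1 : ℕ, dg (s+1) (e1 ε U.card) = d1 :=
    ⟨(dg (s+1) (e1 ε U.card)).toNat, by rw [Int.toNat_of_nonneg hd1pos.le]⟩
  rw [hd1] at hD1 hd1pos
  have hdd : d = 2 * d1 + U.card := by exact_mod_cast hD1
  obtain ⟨τ, hτN, hτ⟩ := IH d1 (by omega) (e1 ε U.card) hd1 (by exact_mod_cast hd1pos)
  set F := q (s+1) 0 ^ d1 * mon (s+1) (e1 ε U.card) with hF
  -- `d1 ≥ 2`
  have hd12 : 2 ≤ d1 := by
    by_contra hcon
    have hd11 : d1 = 1 := by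
      have : 0 < d1 := by exact_mod_cast hd1pos
      omega
    have h7 := hτ 0 (by omega)
    rw [if_pos rfl, hd11, e_neg _ (by norm_num)] at h7
    have h8 : F ≠ 0 := by
      rw [hF]
      refine mul_ne_zero (pow_ne_zero _ (q0_ne_zero _)) (mul_ne_zero (pow_ne_zero _ (q0_ne_zero _)) ?_)
      refine Finset.prod_ne_zero_iff.mpr (fun i hi => pow_ne_zero _ ?_)
      rw [q_lt (by simp at hi; omega)]
      exact MvPolynomial.X_ne_zero (R := ZMod 2) _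
    exact h8 h7.symm
  obtain ⟨a, rfl⟩ : ∃ a, d1 = a + 2 := ⟨d1 - 2, by omega⟩
  refine Fix2 s L hL hL2 ε d hdg hd (by omega)
    (q (s+1) 0 ^ 1 * ((∏ i ∈ U, qm (s+1) i) * e (s+1) ((a:ℤ) + f) τ))
    (q (s+2) 0 ^ (2 * 1) * ((∏ i ∈ U, q (s+2) i) * τ ^ 2)) ?_ ?_
  · -- degree
    have hP : Hom (s+2) (∑ i ∈ U, ((2:ℤ) ^ (s+2) - 2 ^ i)) (∏ i ∈ U, q (s+2) i) :=
      Hom.prod _ _ _ (fun i _ => Hom.q (s+2) i)
    refine (((Hom.q (s+2) 0).pow (2 * 1)).mul (hP.mul (Hom.pow hτN 2))).congr ?_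
    have h4 : ∑ i ∈ U, ((2:ℤ) ^ (s+2) - 2 ^ i) = U.card * 2 ^ (s+2) - 2 * (2 ^ (s+1) - 1) := by
      rw [Finset.sum_sub_distrib, Finset.sum_const, nsmul_eq_mul, ← sum_full, Finset.mul_sum]
      congr 1
      refine Finset.sum_congr rfl (fun i hi => ?_)
      have := h.sub hi
      rw [Finset.mem_Icc] at this
      rw [← pow_succ', Nat.sub_add_cancel this.1]
    rw [h4, hdd, pow_succ (2:ℤ) (s+1)]
    push_cast; ring
  · intro j hj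
    have h5 := S2 (s+1) U τ a f 1 hf (fun i hi1 hi2 => by
      have := hτ i (by omega)
      rw [if_neg (by omega)] at this
      rw [← this]; congr 2; push_cast; ring) (2 * a + U.card + j) (by omega) (by omega)
    have h6 := hτ 0 (by omega)
    rw [if_pos rfl, Nat.cast_zero, add_zero,
      show (((a + 2 : ℕ)) : ℤ) - 2 = a by push_cast; ring] at h6
    rw [show ((2 * a + U.card + j : ℕ) : ℤ) + 2 * ((1:ℕ):ℤ) = (d:ℤ) - 2 + j by
        rw [hdd]; push_cast; ring,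
      h6, hF, h.M2 hf 0 1 (a+2) d (by omega)] at h5
    rw [h5]
    congr 1
    · by_cases hj0 : j = 0
      · rw [if_pos (by omega), if_pos hj0]
      · rw [if_neg (by omega), if_neg hj0]
    · by_cases hj0 : j = ε 0
      · rw [if_pos (by omega), if_pos hj0]
      · rw [if_neg (by omega), if_neg hj0]

/-- the main induction, on monomials -/
theorem main (s L : ℕ) (hs : 2 ≤ s) (hL : s + 1 < 2 ^ L) (hL2 : L < s) (d : ℕ) : ∀ ε : ℕ → ℕ,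
    dg (s+1) ε = d → 0 < d →
      ∃ Φ' : D (s+2), Ng (s+2) (d - 1) Φ' ∧
      ∀ j : ℕ, j ≤ ε 0 → e (s+1) ((d:ℤ) - 2 + j) Φ' =
        if j = 0 then q (s+1) 0 ^ d * mon (s+1) ε else 0 := by
  induction d using Nat.strong_induction_on with
  | _ d IH =>
  intro ε hdg hd
  obtain ⟨U, hU⟩ := exists_Par s ε
  by_cases hf : 1 ≤ (ε 0 + U.card) / 2
  · by_cases hfull : U = Finset.Icc 1 (s+1)
    · rw [hfull] at hU
      exact caseB s L hs hL hL2 ε d hdg hd hU IH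
    · exact caseA s L hL hL2 ε d hdg hd U hU hf hfull
  · have := hU.par
    have h0 : ε 0 = 0 := by omega
    have hc : U.card = 0 := by omega
    rw [Finset.card_eq_zero] at hc
    rw [hc] at hU
    exact caseC s L hL hL2 ε d hdg hd h0 hU

end Vale.Agent.P263.LZ
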