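import Vale.Agent.P263.LZ.CertData

/-!
Ranks 3 and 4.
-/

namespace Vale.Agent.P263.LZ

/-- the statement proved by induction, with a level `m` -/
def Goal (s d m : ℕ) (ε : ℕ → ℕ) : Prop :=
  ∃ Φ : D (s+2), Ng (s+2) (d - 1) Φ ∧
    ∀ j : ℕ, j ≤ m → e (s+1) ((d:ℤ) - 2 + j) Φ = if j = 0 then q (s+1) 0 ^ d * mon (s+1) ε else 0

/-- the statement up to a square error at level `t` -/
def PreGoal (s d m t : ℕ) (ε : ℕ → ℕ) : Prop :=
  ∃ (Y : D (s+1)) (Φ : D (s+2)), Ng (s+2) (d - 1) Φ ∧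
    ∀ j : ℕ, j ≤ m → e (s+1) ((d:ℤ) - 2 + j) Φ =
      (if j = 0 then q (s+1) 0 ^ d * mon (s+1) ε else 0) + (if j = t then Y ^ 2 else 0)

lemma Goal.mono {s d m m' : ℕ} {ε : ℕ → ℕ} (h : Goal s d m ε) (hm : m' ≤ m) : Goal s d m' ε := by
  obtain ⟨Φ, h1, h2⟩ := h
  exact ⟨Φ, h1, fun j hj => h2 j (by omega)⟩

lemma PreGoal.goal_of_lt {s d m t : ℕ} {ε : ℕ → ℕ} (h : PreGoal s d m t ε) (hm : m < t) :
    Goal s d m ε := by
  obtain ⟨Y, Φ, h1, h2⟩ := h
  exact ⟨Φ, h1, fun j hj => by rw [h2 j hj, if_neg (show ¬ j = t by omega), add_zero]⟩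

lemma PreGoal.goal {s d m K : ℕ} {ε : ℕ → ℕ} (h : PreGoal s d m m ε) (L : ℕ) (hL : s + 1 < 2 ^ L)
    (hdg : dg (s+1) ε = d) (hK : 0 < K) (hd : d = 2 * K + m) (hcond : (m:ℤ) * (2 ^ L - 1) < K) :
    Goal s d m ε := by
  obtain ⟨Y, Φ, h1, h2⟩ := h
  have hG : Ng (s+1) d (q (s+1) 0 ^ d * mon (s+1) ε) := by
    refine (((Hom.q (s+1) 0).pow d).mul (Hom.mon (s+1) ε)).congr ?_
    rw [hdg]; ring
  exact Fix s L m K d hL hK hd hcond _ Y hG Φ h1 h2

lemma preC (s : ℕ) (ε : ℕ → ℕ) (d : ℕ)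
    (hdg : dg (s+1) ε = d) (h0 : ε 0 = 0) (h : Par s ε ∅) :
    PreGoal s d 0 0 ε ∧ ∃ K, d = 2 * K + 0 := by
  have hM := h.M1
  rw [Finset.prod_empty, one_mul] at hM
  have hdeven : ∃ K, d = 2 * K := by
    have h1 : (d:ℤ) = 2 * ∑ i ∈ Finset.Ico 1 (s+1), ((ε i / 2 : ℕ) : ℤ) * (2 ^ (s+1) - 2 ^ i) := by
      rw [← hdg, dg, h0, Finset.mul_sum]
      simp only [Nat.cast_zero, zero_mul, zero_add]
      refine Finset.sum_congr rfl (fun i hi => ?_)
      have ho := h.odd i hi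
      have h6 : ¬ ε i % 2 = 1 := fun h => by simpa using ho.mpr h
      have h7 : (ε i : ℤ) = 2 * ((ε i / 2 : ℕ) : ℤ) := by omega
      rw [h7]; ring
    exact ⟨d / 2, by omega⟩
  obtain ⟨K, hK⟩ := hdeven
  refine ⟨⟨q (s+1) 0 ^ K * ∏ i ∈ Finset.Ico 1 (s+1), q (s+1) i ^ (ε i / 2), 0, Ng.zero _ _, ?_⟩,
    K, by omega⟩
  intro j hj
  have hj0 : j = 0 := by omega
  rw [map_zero, if_pos hj0, if_pos (by omega), mul_pow, hM, mon, h0, pow_zero, one_mul, ← pow_mul,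
    mul_comm K 2, ← hK, CharTwo.add_self_eq_zero]

/-- nonfull case -/
lemma preA (s : ℕ) (ε : ℕ → ℕ) (d : ℕ)
    (hdg : dg (s+1) ε = d) (U : Finset ℕ) (h : Par s ε U)
    (hf : 1 ≤ (ε 0 + U.card) / 2) (hU : U ≠ Finset.Icc 1 (s+1)) :
    PreGoal s d (ε 0) (ε 0) ε ∧ (d + ε 0) % 2 = 0 := by
  have hD1 := h.D1 hf
  have hz := h.z_lt hU
  rw [hdg] at hD1
  set z : ℤ := ∑ i ∈ U, (2:ℤ) ^ (i-1) with hzdef
  obtain ⟨b, hb⟩ : ∃ b : ℕ, (b:ℤ) = 2 ^ (s+1) - 2 - z := ⟨((2:ℤ) ^ (s+1) - 2 - z).toNat, by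
    rw [Int.toNat_of_nonneg (by linarith)]⟩
  have hdge := dg_ge s (e1 ε U.card)
  have h2s : (1:ℤ) ≤ 2 ^ (s+1) := one_le_pow₀ (by norm_num)
  have hd1nn : 0 ≤ dg (s+1) (e1 ε U.card) := le_trans (mul_nonneg (by positivity) (by linarith)) hdge
  obtain ⟨d1, hd1⟩ : ∃ d1 : ℕ, dg (s+1) (e1 ε U.card) = d1 :=
    ⟨(dg (s+1) (e1 ε U.card)).toNat, by rw [Int.toNat_of_nonneg hd1nn]⟩
  rw [hd1] at hD1
  have hdd : d = 2 * d1 + U.card + 2 * b + 2 := by
    have : (d:ℤ) = 2 * d1 + U.card + 2 * b + 2 := by rw [hD1, hb]; ring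
    exact_mod_cast this
  set f := (ε 0 + U.card) / 2 with hfdef
  have hf2 : 2 * f = ε 0 + U.card := by have := h.par; omega
  have he10 : e1 ε U.card 0 = f - 1 := by simp [e1, hfdef]
  set F := q (s+1) 0 ^ (d1+2) * mon (s+1) (e1 ε U.card) with hF
  set τ := tM (s+1) 1 F with hτ
  have hFN : Hom (s+1) ((d1+2) * (2 ^ (s+1) - 1) + d1) F := by
    refine (((Hom.q (s+1) 0).pow (d1+2)).mul (Hom.mon (s+1) _)).congr ?_
    rw [hd1]; push_cast; ring
  have hpos : (0:ℤ) < 2 ^ (s+1) := by positivity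
  have hτi : ∀ i : ℕ, i < f → e (s+1) ((d1:ℤ) + i) τ = if i = 0 then F else 0 := by
    intro i hi
    have hMD : ((1:ℕ):ℤ) + ((d1+2) * (2 ^ (s+1) - 1) + d1) + 1 = 2 ^ (s+1) * (d1 + 2) := by
      push_cast; ring
    have hst := star s 1 (d1 + i) le_rfl F _ hFN
      (by rw [hMD]; exact mul_le_mul_of_nonneg_left (by push_cast; linarith [Int.natCast_nonneg i]) hpos.le)
    rw [hMD] at hst
    have hz1 : e s (((d1 + i : ℕ) : ℤ) + 1) F = 0 := by
      rw [hF, mon, he10, ← mul_assoc, ← pow_add, e_q0_pow_mul, e_neg _ (by push_cast; omega), mul_zero]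
    rw [hz1, map_zero, zero_add] at hst
    rw [show (d1:ℤ) + i = ((d1 + i : ℕ) : ℤ) by push_cast; ring, hτ, hst]
    by_cases hi0 : i = 0
    · rw [if_pos hi0, if_pos (by rw [hi0]; push_cast; ring)]
    · rw [if_neg hi0, if_neg]
      intro h3
      have := mul_left_cancel₀ hpos.ne' h3
      apply hi0
      push_cast at this
      omega
  have hτN : Hom (s+2) (2 ^ (s+2) * (d1 + 1) - 2) τ := by
    refine (Hom.tM (s+1) 1 hFN).congr ?_
    rw [pow_succ (2:ℤ) (s+1)]; push_cast; ring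
  refine ⟨⟨q (s+1) 0 ^ b * ((∏ i ∈ U, qm (s+1) i) * e (s+1) ((d1:ℤ) + f) τ),
    q (s+2) 0 ^ (2 * b) * ((∏ i ∈ U, q (s+2) i) * τ ^ 2), ?_, ?_⟩, by omega⟩
  · -- degree
    have hP : Hom (s+2) (∑ i ∈ U, ((2:ℤ) ^ (s+2) - 2 ^ i)) (∏ i ∈ U, q (s+2) i) :=
      Hom.prod _ _ _ (fun i _ => Hom.q (s+2) i)
    refine (((Hom.q (s+2) 0).pow (2 * b)).mul (hP.mul (hτN.pow 2))).congr ?_
    have h4 : ∑ i ∈ U, ((2:ℤ) ^ (s+2) - 2 ^ i) = U.card * 2 ^ (s+2) - 2 * z := by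
      rw [Finset.sum_sub_distrib, Finset.sum_const, nsmul_eq_mul, hzdef, Finset.mul_sum]
      congr 1
      refine Finset.sum_congr rfl (fun i hi => ?_)
      have := h.sub hi
      rw [Finset.mem_Icc] at this
      rw [← pow_succ', Nat.sub_add_cancel this.1]
    have hz' : z = 2 ^ (s+1) - 2 - b := by rw [hb]; ring
    rw [h4, hdd, hz', pow_succ (2:ℤ) (s+1)]
    push_cast; ring
  · intro j hj
    have h5 := S2 (s+1) U τ d1 f b hf (fun i hi1 hi2 => by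
      rw [hτi i hi2, if_neg (by omega)]) (2 * d1 + U.card + j) (by omega) (by omega)
    have h6 := hτi 0 (by omega)
    rw [if_pos rfl, Nat.cast_zero, add_zero] at h6
    rw [show ((2 * d1 + U.card + j : ℕ) : ℤ) + 2 * b = (d:ℤ) - 2 + j by rw [hdd]; push_cast; ring,
      h6, hF, h.M2 hf 0 b (d1+2) d (by omega)] at h5
    rw [h5]
    congr 1
    · by_cases hj0 : j = 0
      · rw [if_pos (by omega), if_pos hj0]
      · rw [if_neg (by omega), if_neg hj0]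
    · by_cases hj0 : j = ε 0
      · rw [if_pos (by omega), if_pos hj0]
      · rw [if_neg (by omega), if_neg hj0]

/-- full case; `μ` is the level of the induction hypothesis -/
lemma preB (s : ℕ) (ε : ℕ → ℕ) (d d1 μ m t : ℕ)
    (hdg : dg (s+1) ε = d) (h : Par s ε (Finset.Icc 1 (s+1)))
    (hd1 : dg (s+1) (e1 ε (s+1)) = d1) (hd1pos : 0 < d1)
    (ht : t + (s + 1) = 2 * (μ + 1)) (hmt : m ≤ t) (hf : 1 ≤ (ε 0 + (s+1)) / 2)
    (IH : Goal s d1 μ (e1 ε (s+1))) : PreGoal s d m t ε := by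
  set U := Finset.Icc 1 (s+1) with hUdef
  have hcard : U.card = s + 1 := by simp [hUdef]
  have hd1' : dg (s+1) (e1 ε U.card) = d1 := by rw [hcard]; exact hd1
  have IH' : Goal s d1 μ (e1 ε U.card) := by rw [hcard]; exact IH
  rw [← hcard] at hf ht
  have hD1 := h.D1 hf
  rw [hdg, sum_full, sub_self, mul_zero, add_zero, hd1'] at hD1
  have hf2 : 2 * ((ε 0 + U.card) / 2) = ε 0 + U.card := by have := h.par; omega
  have hdd : d = 2 * d1 + U.card := by exact_mod_cast hD1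
  obtain ⟨τ, hτN, hτ⟩ := IH'
  set F := q (s+1) 0 ^ d1 * mon (s+1) (e1 ε U.card) with hF
  have hd12 : 2 ≤ d1 := by
    by_contra hcon
    have hd11 : d1 = 1 := by omega
    have h7 := hτ 0 (by omega)
    rw [if_pos rfl, hd11, e_neg _ (by norm_num)] at h7
    have h8 : F ≠ 0 := by
      rw [hF]
      refine mul_ne_zero (pow_ne_zero _ (q0_ne_zero _)) (mul_ne_zero (pow_ne_zero _ (q0_ne_zero _)) ?_)
      refine Finset.prod_ne_zero_iff.mpr (fun i hi => pow_ne_zero _ ?_)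
      rw [q_lt (by simp at hi; omega)]
      exact MvPolynomial.X_ne_zero (R := ZMod 2) _
    exact h8 h7.symm
  obtain ⟨a, rfl⟩ : ∃ a, d1 = a + 2 := ⟨d1 - 2, by omega⟩
  refine ⟨q (s+1) 0 ^ 1 * ((∏ i ∈ U, qm (s+1) i) * e (s+1) ((a:ℤ) + ((μ+1 : ℕ) : ℤ)) τ),
    q (s+2) 0 ^ (2 * 1) * ((∏ i ∈ U, q (s+2) i) * τ ^ 2), ?_, ?_⟩
  · -- degree
    have hP : Hom (s+2) (∑ i ∈ U, ((2:ℤ) ^ (s+2) - 2 ^ i)) (∏ i ∈ U, q (s+2) i) :=
      Hom.prod _ _ _ (fun i _ => Hom.q (s+2) i)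
    refine (((Hom.q (s+2) 0).pow (2 * 1)).mul (hP.mul (Hom.pow hτN 2))).congr ?_
    have h4 : ∑ i ∈ U, ((2:ℤ) ^ (s+2) - 2 ^ i) = U.card * 2 ^ (s+2) - 2 * (2 ^ (s+1) - 1) := by
      rw [Finset.sum_sub_distrib, Finset.sum_const, nsmul_eq_mul, ← sum_full, Finset.mul_sum]
      congr 1
      refine Finset.sum_congr rfl (fun i hi => ?_)
      have := h.sub hi
      rw [Finset.mem_Icc] at this
      rw [← pow_succ', Nat.sub_add_cancel this.1]
    rw [h4, hdd, pow_succ (2:ℤ) (s+1)]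
    push_cast; ring
  · intro j hj
    have h5 := S2 (s+1) U τ a (μ+1) 1 (by omega) (fun i hi1 hi2 => by
      have := hτ i (by omega)
      rw [if_neg (by omega)] at this
      rw [← this]; congr 2; push_cast; ring) (2 * a + U.card + j) (by omega) (by omega)
    have h6 := hτ 0 (by omega)
    rw [if_pos rfl, Nat.cast_zero, add_zero,
      show (((a + 2 : ℕ)) : ℤ) - 2 = a by push_cast; ring] at h6
    rw [show ((2 * a + U.card + j : ℕ) : ℤ) + 2 * ((1:ℕ):ℤ) = (d:ℤ) - 2 + j by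
        rw [hdd]; push_cast; ring,
      h6, hF, h.M2 hf 0 1 (a+2) d (by omega)] at h5
    rw [h5]
    congr 1
    · by_cases hj0 : j = 0
      · rw [if_pos (by omega), if_pos hj0]
      · rw [if_neg (by omega), if_neg hj0]
    · by_cases hj0 : j = t
      · rw [if_pos (by omega), if_pos hj0]
      · rw [if_neg (by omega), if_neg hj0]

/-! ### the explicit base cases -/

lemma goal_cert (s W W0 : ℕ) (d : ℕ) (hd : 2 ≤ d) (cert : List (List (ℕ × ℕ))) (tgt : List ℕ)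
    (ε : ℕ → ℕ) (m : ℕ) (hwf : wf (s+1) W cert = true) (hW : W = (d - 1) * 2 ^ (s+2))
    (h0 : check (s+1) (d-2) W0 cert [tgt] = true)
    (ht : pmL (s+1) 0 tgt = q (s+1) 0 ^ d * mon (s+1) ε)
    (hj : ∀ j : ℕ, 1 ≤ j → j ≤ m → ∃ Wj, check (s+1) (d-2+j) Wj cert [] = true) :
    Goal s d m ε := by
  refine ⟨certPoly (s+1) cert, ?_, ?_⟩
  · refine (Hom.certPoly (s+1) W cert hwf).congr ?_
    rw [hW, Nat.cast_mul, Nat.cast_sub (by omega)]; push_cast; ring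
  · intro j hjm
    rw [show (d:ℤ) - 2 + j = ((d - 2 + j : ℕ) : ℤ) by push_cast [hd]; ring]
    rcases Nat.eq_zero_or_pos j with h | h
    · subst h
      rw [if_pos rfl, add_zero, check_sound (s+1) (d-2) W0 W cert [tgt] hwf h0]
      simp [ht]
    · obtain ⟨Wj, hWj⟩ := hj j h hjm
      rw [if_neg (by omega), check_sound (s+1) (d-2+j) Wj W cert [] hwf hWj]
      simp

lemma goal3 (ε : ℕ → ℕ) (h0 : ε 0 = 1) (h1 : ε 1 = 1) (h2 : ε 2 = 1) : Goal 2 17 1 ε := by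
  refine goal_cert 2 256 136 17 (by norm_num) cert3 [18, 1, 1] ε 1 cert3_wf (by norm_num) cert3_0 ?_ ?_
  · rw [mon, Finset.prod_Ico_succ_top (by norm_num), Finset.prod_Ico_succ_top (by norm_num)]
    simp [pmL, h0, h1, h2]; ring
  · intro j hj1 hj2
    have : j = 1 := by omega
    subst this
    exact ⟨128, cert3_1⟩

lemma goal4a (ε : ℕ → ℕ) (h0 : ε 0 = 1) (h1 : ε 1 = 0) (h2 : ε 2 = 0) (h3 : ε 3 = 0) :
    Goal 3 15 1 ε := by
  refine goal_cert 3 448 240 15 (by norm_num) cert4a [16, 0, 0, 0] ε 1 cert4a_wf (by norm_num)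
    cert4a_0 ?_ ?_
  · rw [mon, Finset.prod_Ico_succ_top (by norm_num), Finset.prod_Ico_succ_top (by norm_num),
      Finset.prod_Ico_succ_top (by norm_num)]
    simp [pmL, h0, h1, h2, h3]; ring
  · intro j hj1 hj2
    have : j = 1 := by omega
    subst this
    exact ⟨224, cert4a_1⟩

lemma goal4b (ε : ℕ → ℕ) (h0 : ε 0 = 2) (h1 : ε 1 = 0) (h2 : ε 2 = 0) (h3 : ε 3 = 0) :
    Goal 3 30 2 ε := by
  refine goal_cert 3 928 480 30 (by norm_num) cert4b [32, 0, 0, 0] ε 2 cert4b_wf (by norm_num)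
    cert4b_0 ?_ ?_
  · rw [mon, Finset.prod_Ico_succ_top (by norm_num), Finset.prod_Ico_succ_top (by norm_num),
      Finset.prod_Ico_succ_top (by norm_num)]
    simp [pmL, h0, h1, h2, h3]; ring
  · intro j hj1 hj2
    have : j = 1 ∨ j = 2 := by omega
    rcases this with rfl | rfl
    · exact ⟨464, cert4b_1⟩
    · exact ⟨448, cert4b_2⟩

lemma dg3 (ε : ℕ → ℕ) : dg (2+1) ε = 7 * ε 0 + 6 * ε 1 + 4 * ε 2 := by
  rw [dg, Finset.sum_Ico_succ_top (by norm_num), Finset.sum_Ico_succ_top (by norm_num)]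
  simp; ring

lemma dg4 (ε : ℕ → ℕ) : dg (3+1) ε = 15 * ε 0 + 14 * ε 1 + 12 * ε 2 + 8 * ε 3 := by
  rw [dg, Finset.sum_Ico_succ_top (by norm_num), Finset.sum_Ico_succ_top (by norm_num),
    Finset.sum_Ico_succ_top (by norm_num)]
  simp; ring

theorem main3 (d : ℕ) : ∀ (ε : ℕ → ℕ) (m : ℕ), m ≤ 1 → m ≤ ε 0 → dg (2+1) ε = d → 0 < d →
    ¬ (m = 1 ∧ ε 0 = 1 ∧ ε 1 = 0 ∧ ε 2 = 0) → Goal 2 d m ε := by
  induction d using Nat.strong_induction_on with
  | _ d IH =>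
  intro ε m hm hmε hdg hd hne
  have hdg' := hdg
  rw [dg3] at hdg'
  obtain ⟨U, hU⟩ := exists_Par 2 ε
  by_cases hf : 1 ≤ (ε 0 + U.card) / 2
  · by_cases hfull : U = Finset.Icc 1 (2+1)
    · rw [hfull] at hU
      have h1 : ε 1 % 2 = 1 := (hU.odd 1 (by simp)).mp (by simp)
      have h2 : ε 2 % 2 = 1 := (hU.odd 2 (by simp)).mp (by simp)
      have h0 : ε 0 % 2 = 1 := by have := hU.par; simp at this; omega
      by_cases hb : ε 0 = 1 ∧ ε 1 = 1 ∧ ε 2 = 1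
      · have hd17 : d = 17 := by
          rw [hb.1, hb.2.1, hb.2.2] at hdg'; push_cast at hdg'; omega
        rw [hd17]
        exact (goal3 ε hb.1 hb.2.1 hb.2.2).mono hm
      · have he0 : e1 ε (2+1) 0 = (ε 0 + 3) / 2 - 1 := by simp [e1]
        have he1 : e1 ε (2+1) 1 = ε 1 / 2 := by simp [e1]
        have he2 : e1 ε (2+1) 2 = ε 2 / 2 := by simp [e1]
        obtain ⟨d1, hd1⟩ : ∃ d1 : ℕ, dg (2+1) (e1 ε (2+1)) = d1 := by
          refine ⟨7 * e1 ε (2+1) 0 + 6 * e1 ε (2+1) 1 + 4 * e1 ε (2+1) 2, ?_⟩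
          rw [dg3]; push_cast; ring
        have hd1' := hd1
        rw [dg3, he0, he1, he2] at hd1'
        have hd1pos : 0 < d1 := by omega
        have hg := IH d1 (by omega) (e1 ε (2+1)) 1 le_rfl (by rw [he0]; omega) hd1 hd1pos (by
          rw [he0, he1, he2]; omega)
        have hpre := preB 2 ε d d1 1 m 1 hdg hU hd1 hd1pos (by norm_num) hm (by omega) hg
        rcases Nat.lt_or_ge m 1 with h | h
        · exact hpre.goal_of_lt h
        · have hm1 : m = 1 := by omega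
          subst hm1
          obtain ⟨K, hK⟩ : ∃ K, d = 2 * K + 1 := ⟨(d-1)/2, by omega⟩
          exact hpre.goal 2 (by norm_num) hdg (by omega) hK (by push_cast; omega)
    · obtain ⟨hpre, hpar⟩ := preA 2 ε d hdg U hU hf hfull
      rcases Nat.lt_or_ge m (ε 0) with h | h
      · have hpre' : PreGoal 2 d m (ε 0) ε := by
          obtain ⟨Y, Φ, a1, a2⟩ := hpre
          exact ⟨Y, Φ, a1, fun j hj => a2 j (by omega)⟩
        exact hpre'.goal_of_lt h
      · have hm0 : m = ε 0 := by omega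
        rw [hm0]
        obtain ⟨K, hK⟩ : ∃ K, d = 2 * K + ε 0 := ⟨(d - ε 0)/2, by omega⟩
        refine hpre.goal 2 (by norm_num) hdg ?_ hK ?_
        · omega
        · have : ε 0 = 0 ∨ ε 0 = 1 := by omega
          rcases this with h' | h'
          · rw [h']; push_cast; omega
          · rw [h']; push_cast; omega
  · have := hU.par
    have h0 : ε 0 = 0 := by omega
    have hc : U.card = 0 := by omega
    rw [Finset.card_eq_zero] at hc
    rw [hc] at hU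
    obtain ⟨hpre, K, hK⟩ := preC 2 ε d hdg h0 hU
    have hm0 : m = 0 := by omega
    subst hm0
    exact hpre.goal 2 (by norm_num) hdg (by omega) hK (by push_cast; omega)

theorem main4 (d : ℕ) : ∀ (ε : ℕ → ℕ) (m : ℕ), m ≤ 2 → m ≤ ε 0 → dg (3+1) ε = d → 0 < d →
    Goal 3 d m ε := by
  induction d using Nat.strong_induction_on with
  | _ d IH =>
  intro ε m hm hmε hdg hd
  have hdg' := hdg
  rw [dg4] at hdg'
  obtain ⟨U, hU⟩ := exists_Par 3 ε
  by_cases hf : 1 ≤ (ε 0 + U.card) / 2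
  · by_cases hfull : U = Finset.Icc 1 (3+1)
    · rw [hfull] at hU
      have h1 : ε 1 % 2 = 1 := (hU.odd 1 (by simp)).mp (by simp)
      have h2 : ε 2 % 2 = 1 := (hU.odd 2 (by simp)).mp (by simp)
      have h3 : ε 3 % 2 = 1 := (hU.odd 3 (by simp)).mp (by simp)
      have h0 : ε 0 % 2 = 0 := by have := hU.par; simp at this; omega
      have he0 : e1 ε (3+1) 0 = (ε 0 + 4) / 2 - 1 := by simp [e1]
      have he1 : e1 ε (3+1) 1 = ε 1 / 2 := by simp [e1]
      have he2 : e1 ε (3+1) 2 = ε 2 / 2 := by simp [e1]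
      have he3 : e1 ε (3+1) 3 = ε 3 / 2 := by simp [e1]
      obtain ⟨d1, hd1⟩ : ∃ d1 : ℕ, dg (3+1) (e1 ε (3+1)) = d1 := by
        refine ⟨15 * e1 ε (3+1) 0 + 14 * e1 ε (3+1) 1 + 12 * e1 ε (3+1) 2 + 8 * e1 ε (3+1) 3, ?_⟩
        rw [dg4]; push_cast; ring
      have hd1' := hd1
      rw [dg4, he0, he1, he2, he3] at hd1'
      have hd1pos : 0 < d1 := by omega
      have hm3 : m = 0 ∨ m = 1 ∨ m = 2 := by omega
      rcases hm3 with rfl | rfl | rfl
      · have hg := IH d1 (by omega) (e1 ε (3+1)) 1 (by norm_num) (by rw [he0]; omega) hd1 hd1pos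
        have hpre := preB 3 ε d d1 1 0 0 hdg hU hd1 hd1pos (by norm_num) le_rfl (by omega) hg
        obtain ⟨K, hK⟩ : ∃ K, d = 2 * K + 0 := ⟨d/2, by omega⟩
        exact hpre.goal 3 (by norm_num) hdg (by omega) hK (by push_cast; omega)
      · have hg := IH d1 (by omega) (e1 ε (3+1)) 2 le_rfl (by rw [he0]; omega) hd1 hd1pos
        have hpre := preB 3 ε d d1 2 1 2 hdg hU hd1 hd1pos (by norm_num) (by norm_num) (by omega) hg
        exact hpre.goal_of_lt (by norm_num)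
      · have hg := IH d1 (by omega) (e1 ε (3+1)) 2 le_rfl (by rw [he0]; omega) hd1 hd1pos
        have hpre := preB 3 ε d d1 2 2 2 hdg hU hd1 hd1pos (by norm_num) le_rfl (by omega) hg
        obtain ⟨K, hK⟩ : ∃ K, d = 2 * K + 2 := ⟨(d-2)/2, by omega⟩
        exact hpre.goal 3 (by norm_num) hdg (by omega) hK (by push_cast; omega)
    · obtain ⟨hpre, hpar⟩ := preA 3 ε d hdg U hU hf hfull
      rcases Nat.lt_or_ge m (ε 0) with h | h
      · have hpre' : PreGoal 3 d m (ε 0) ε := by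
          obtain ⟨Y, Φ, a1, a2⟩ := hpre
          exact ⟨Y, Φ, a1, fun j hj => a2 j (by omega)⟩
        exact hpre'.goal_of_lt h
      · have hm0 : m = ε 0 := by omega
        by_cases hb1 : ε 0 = 1 ∧ ε 1 = 0 ∧ ε 2 = 0 ∧ ε 3 = 0
        · have hd15 : d = 15 := by
            rw [hb1.1, hb1.2.1, hb1.2.2.1, hb1.2.2.2] at hdg'; push_cast at hdg'; omega
          rw [hd15, hm0, hb1.1]
          exact goal4a ε hb1.1 hb1.2.1 hb1.2.2.1 hb1.2.2.2
        · by_cases hb2 : ε 0 = 2 ∧ ε 1 = 0 ∧ ε 2 = 0 ∧ ε 3 = 0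
          · have hd30 : d = 30 := by
              rw [hb2.1, hb2.2.1, hb2.2.2.1, hb2.2.2.2] at hdg'; push_cast at hdg'; omega
            rw [hd30, hm0, hb2.1]
            exact goal4b ε hb2.1 hb2.2.1 hb2.2.2.1 hb2.2.2.2
          · rw [hm0]
            obtain ⟨K, hK⟩ : ∃ K, d = 2 * K + ε 0 := ⟨(d - ε 0)/2, by omega⟩
            refine hpre.goal 3 (by norm_num) hdg ?_ hK ?_
            · omega
            · have : ε 0 = 0 ∨ ε 0 = 1 ∨ ε 0 = 2 := by omega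
              rcases this with h' | h' | h'
              · rw [h']; push_cast; omega
              · rw [h']; push_cast; omega
              · rw [h']; push_cast; omega
  · have := hU.par
    have h0 : ε 0 = 0 := by omega
    have hc : U.card = 0 := by omega
    rw [Finset.card_eq_zero] at hc
    rw [hc] at hU
    obtain ⟨hpre, K, hK⟩ := preC 3 ε d hdg h0 hU
    have hm0 : m = 0 := by omega
    subst hm0
    exact hpre.goal 3 (by norm_num) hdg (by omega) hK (by push_cast; omega)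

/-- all ranks `≥ 3` -/
theorem main_all (s : ℕ) (hs : 2 ≤ s) (ε : ℕ → ℕ) (d : ℕ) (hdg : dg (s+1) ε = d) (hd : 0 < d) :
    Goal s d 0 ε := by
  have h : s = 2 ∨ s = 3 ∨ 4 ≤ s := by omega
  rcases h with rfl | rfl | h
  · exact main3 d ε 0 (by norm_num) (by omega) hdg hd (by omega)
  · exact main4 d ε 0 (by norm_num) (by omega) hdg hd
  · have hL : s + 1 < 2 ^ (s - 1) := by
      obtain ⟨t, rfl⟩ : ∃ t, s = t + 4 := ⟨s - 4, by omega⟩
      rw [show t + 4 - 1 = t + 3 by omega, pow_succ, pow_succ, pow_succ]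
      have : t < 2 ^ t := Nat.lt_two_pow_self
      omega
    obtain ⟨Φ, h1, h2⟩ := main s (s-1) hs hL (by omega) d ε hdg hd
    exact ⟨Φ, h1, fun j hj => h2 j (by omega)⟩

end Vale.Agent.P263.LZ
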