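import Vale.Agent.P263.LZ.Rel

namespace Vale.Agent.P263.LZ

open Polynomial

lemma coeff_sq {R : Type*} [CommRing R] [CharP R 2] (P : R[X]) (n : ℕ) :
    (P ^ 2).coeff n = if 2 ∣ n then P.coeff (n / 2) ^ 2 else 0 := by
  have : ExpChar R 2 := ExpChar.prime Nat.prime_two
  rw [← map_frobenius_expand (R := R) (p := 2) (f := P), coeff_map, coeff_expand (by norm_num)]
  split_ifs with h
  · rfl
  · simp

lemma zc_sq_even {R : Type*} [CommRing R] [CharP R 2] (P : R[X]) (m : ℤ) :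
    zc (P ^ 2) (2 * m) = zc P m ^ 2 := by
  rcases lt_or_ge m 0 with h | h
  · rw [zc_neg _ h, zc_neg _ (by omega)]; simp
  · obtain ⟨n, rfl⟩ : ∃ n : ℕ, m = n := ⟨m.toNat, by omega⟩
    rw [show 2 * (n:ℤ) = ((2 * n : ℕ) : ℤ) by push_cast; ring, zc_nat, zc_nat, coeff_sq,
      if_pos (dvd_mul_right 2 n), Nat.mul_div_cancel_left n (by norm_num)]

lemma zc_sq_odd {R : Type*} [CommRing R] [CharP R 2] (P : R[X]) (m : ℤ) :
    zc (P ^ 2) (2 * m + 1) = 0 := by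
  rcases lt_or_ge m 0 with h | h
  · rw [zc_neg _ (by omega)]
  · obtain ⟨n, rfl⟩ : ∃ n : ℕ, m = n := ⟨m.toNat, by omega⟩
    rw [show 2 * (n:ℤ) + 1 = ((2 * n + 1 : ℕ) : ℤ) by push_cast; ring, zc_nat, coeff_sq,
      if_neg (by omega)]

lemma e_sq_even (s : ℕ) (m : ℤ) (B : D (s+1)) : e s (2 * m) (B ^ 2) = e s m B ^ 2 := by
  rw [e_apply, map_pow, zc_sq_even]; rfl

lemma e_sq_odd (s : ℕ) (m : ℤ) (B : D (s+1)) : e s (2 * m + 1) (B ^ 2) = 0 := by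
  rw [e_apply, map_pow, zc_sq_odd]

lemma e_q_mul (s i : ℕ) (m : ℤ) (B : D (s+1)) :
    e s m (q (s+1) i * B) = qm s i ^ 2 * e s m B + q s i * e s (m-1) B := by
  rw [e_apply, map_mul, rho_q, add_mul, zc_add, mul_assoc, zc_C_mul, zc_X_mul, zc_C_mul]; rfl

lemma e_q0_mul (s : ℕ) (m : ℤ) (B : D (s+1)) :
    e s m (q (s+1) 0 * B) = q s 0 * e s (m-1) B := by
  rw [e_q_mul]; simp

lemma e_one (s : ℕ) (m : ℤ) : e s m 1 = if m = 0 then 1 else 0 := by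
  rw [e_apply, map_one]
  rcases lt_or_ge m 0 with h | h
  · rw [zc_neg _ h, if_neg (by omega)]
  · obtain ⟨c, rfl⟩ : ∃ c : ℕ, m = c := ⟨m.toNat, by omega⟩
    rw [zc_nat, coeff_one]; simp

lemma q0_ne_zero (s : ℕ) : q s 0 ≠ 0 := by
  rcases Nat.eq_zero_or_pos s with h | h
  · subst h; rw [q_self]; exact one_ne_zero
  · rw [q_lt h]
    exact MvPolynomial.X_ne_zero (R := ZMod 2) _

/-! ### identities for `t_M` -/

lemma tM_even (s M : ℕ) (B : D s) : tM s (2 * M) (B ^ 2) = q (s+1) 0 * tM s M B ^ 2 := by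
  rw [tM_apply, tM_apply, ← T_sq, map_pow]; congr 1; ring

lemma tM_odd (s M : ℕ) (B : D s) : tM s (2 * M + 1) (B ^ 2) =
    ∑ i ∈ Finset.range (s+1), q (s+1) (i+1) * tM s (M + 2 ^ i) B ^ 2 := by
  apply mul_left_cancel₀ (q0_ne_zero (s+1))
  have h1 : X ^ (2 * M + 1) * un s (B ^ 2) = X * (X ^ M * un s B) ^ 2 := by
    rw [map_pow]; ring
  rw [tM_apply, h1, T_F1, Finset.mul_sum]
  refine Finset.sum_congr rfl (fun i _ => ?_)
  have h2 : X ^ 2 ^ (i+1) * (X ^ M * un s B) ^ 2 = (X ^ (M + 2 ^ i) * un s B) ^ 2 := by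
    rw [pow_succ 2 i]; ring
  rw [h2, T_sq, tM_apply]; ring

lemma tM_q (s M i : ℕ) (B : D s) : tM s M (q s i * B) =
    ∑ a ∈ Finset.Ioc i (s+1), q (s+1) a * tM s (M + (2 ^ a - 2 ^ (i+1))) B := by
  rw [tM_apply, map_mul, un_q, uq, Finset.sum_mul, Finset.mul_sum, T_sum]
  refine Finset.sum_congr rfl (fun a _ => ?_)
  have h : X ^ M * (C (q (s+1) a) * X ^ (2 ^ a - 2 ^ (i+1)) * un s B) =
      C (q (s+1) a) * (X ^ (M + (2 ^ a - 2 ^ (i+1))) * un s B) := by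
    rw [pow_add]; ring
  rw [tM_apply, ← T_C_mul, h]

lemma sq_uq_zero (s : ℕ) : X ^ 2 * uq s 0 = f (s+1) + C (q (s+1) 0) * X := by
  have h1 : f (s+1) = C (q (s+1) 0) * X + ∑ a ∈ Finset.Ioc 0 (s+1), C (q (s+1) a) * X ^ 2 ^ a := by
    have h0 : Finset.Ico (0+1) (s+1+1) = Finset.Ioc 0 (s+1) := by ext; simp; omega
    rw [f, Finset.range_eq_Ico, Finset.sum_eq_sum_Ico_succ_bot (by omega), h0, pow_zero, pow_one]
  have h2 : X ^ 2 * uq s 0 = ∑ a ∈ Finset.Ioc 0 (s+1), C (q (s+1) a) * X ^ 2 ^ a := by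
    rw [uq, Finset.mul_sum]
    refine Finset.sum_congr rfl (fun a ha => ?_)
    have ha' : 2 ^ 1 ≤ 2 ^ a := Nat.pow_le_pow_right (by norm_num) (by simp at ha; omega)
    have : (X : (D (s+1))[X]) ^ 2 ^ a = X ^ 2 * X ^ (2 ^ a - 2 ^ (0+1)) := by
      rw [← pow_add]; congr 1; omega
    rw [this]; ring
  rw [h2, h1]
  have h3 : C (q (s+1) 0) * X + C (q (s+1) 0) * X = (0 : (D (s+1))[X]) := CharTwo.add_self_eq_zero _
  linear_combination (-1 : (D (s+1))[X]) * h3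

lemma tM_q0 (s M : ℕ) (hM : 1 ≤ M) (B : D s) :
    tM s (M+1) (q s 0 * B) = q (s+1) 0 * tM s M B := by
  obtain ⟨m, rfl⟩ : ∃ m, M = m + 1 := ⟨M - 1, by omega⟩
  rw [tM_apply, map_mul, un_q]
  have h : X ^ (m+1+1) * (uq s 0 * un s B) =
      f (s+1) * (X ^ m * un s B) + C (q (s+1) 0) * (X ^ (m+1) * un s B) := by
    have := sq_uq_zero s
    linear_combination (X ^ m * un s B) * this
  rw [h, T_add, T_f_mul, zero_add, T_C_mul, tM_apply]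

lemma PHom.un (s : ℕ) {n : ℤ} {F : D s} (hF : Hom s n F) : PHom (s+1) 1 (2 * n) (un s F) := by
  refine hom_map (fun n P => PHom (s+1) 1 (2 * n) P) (fun _ => PHom.zero _ _ _)
    (fun _ _ _ hx hy => hx.add hy) (by simpa using PHom.one (s+1) 1)
    (fun n m x y hx hy => (hx.mul hy).congr (by ring)) (LZ.un s : D s →+* (D (s+1))[X]) ?_ F n hF
  intro i
  have h2 : (gen i : D s) = q s i := by rw [q_lt i.2]
  show PHom (s+1) 1 _ (LZ.un s (gen i))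
  rw [h2, un_q, uq]
  refine PHom.sum _ _ (fun a ha => ?_)
  have ha' : 2 ^ ((i:ℕ)+1) ≤ 2 ^ a := Nat.pow_le_pow_right (by norm_num) (by simp at ha; omega)
  refine ((PHom.C (Hom.q (s+1) a)).mul ((PHom.X (s+1) 1).pow (2 ^ a - 2 ^ ((i:ℕ)+1)))).congr ?_
  rw [Nat.cast_sub ha', w]; push_cast; ring

lemma Hom.tM (s M : ℕ) {n : ℤ} {F : D s} (hF : Hom s n F) :
    Hom (s+1) (M + 2 * n - (2 ^ (s+1) - 1)) (tM s M F) := by
  rw [tM_apply]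
  have h1 : PHom (s+1) 1 (M + 2 * n) (Polynomial.X ^ M * LZ.un s F) :=
    (((PHom.X (s+1) 1).pow M).mul (PHom.un s hF)).congr (by push_cast; ring)
  exact Hom.T h1

/-! ### normalised degrees -/

/-- `Ng s d`: the part `N_s(d)` of degree `d 2^s` -/
def Ng (s : ℕ) (d : ℤ) (F : D s) : Prop := Hom s (d * 2 ^ s) F

lemma Ng.zero (s : ℕ) (d : ℤ) : Ng s d 0 := Hom.zero _ _
lemma Ng.add {s : ℕ} {d : ℤ} {F G : D s} (hF : Ng s d F) (hG : Ng s d G) : Ng s d (F + G) :=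
  Hom.add hF hG
lemma Ng.congr {s : ℕ} {d d' : ℤ} {F : D s} (hF : Ng s d F) (h : d = d') : Ng s d' F := h ▸ hF
lemma Ng.eq_zero_of_neg {s : ℕ} {d : ℤ} {F : D s} (hF : Ng s d F) (h : d < 0) : F = 0 :=
  Hom.eq_zero_of_neg hF (mul_neg_of_neg_of_pos h (by positivity))
lemma Ng.const {s : ℕ} {F : D s} (hF : Ng s 0 F) : F = 0 ∨ F = 1 :=
  Hom.const (Hom.congr hF (by ring))
lemma Ng.e {s : ℕ} {d : ℤ} {F : D (s+1)} (hF : Ng (s+1) d F) (m : ℤ) :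
    Ng s (2 * d - m) (e s m F) := by
  refine (Hom.e hF m).congr ?_
  rw [pow_succ]; ring

/-- the operators `K_b` -/
noncomputable def Kb (s b : ℕ) : D s →+ D (s+1) := tM s ((b+1) * 2 ^ (s+1) - 1)

lemma Kb_M (s b : ℕ) : (((b+1) * 2 ^ (s+1) - 1 : ℕ) : ℤ) = (b+1) * 2 ^ (s+1) - 1 := by
  have : 1 ≤ (b+1) * 2 ^ (s+1) := Nat.one_le_iff_ne_zero.mpr (by positivity)
  rw [Nat.cast_sub this]; push_cast; ring

lemma Ng.Kb {s : ℕ} {d : ℤ} {E : D s} (hE : Ng s d E) (b : ℕ) : Ng (s+1) (d + b) (Kb s b E) := by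
  refine (Hom.tM s _ hE).congr ?_
  rw [Kb_M]; rw [pow_succ]; ring

lemma e_Kb (s b : ℕ) {d : ℤ} {E : D (s+1)} (hE : Ng (s+1) d E) (κ : ℤ) (h : d + 2 * b ≤ κ) :
    e (s+1) κ (Kb (s+1) b E) = Kb s (2 * b + 1) (e s (κ+1) E) + if κ = d + 2 * b then E else 0 := by
  rcases lt_or_ge d 0 with hd | hd
  · rw [hE.eq_zero_of_neg hd]; simp
  obtain ⟨k, rfl⟩ : ∃ k : ℕ, κ = k := ⟨κ.toNat, by omega⟩
  have hM : 1 ≤ (b+1) * 2 ^ (s+1+1) - 1 := by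
    have : 1 * 2 ^ 1 ≤ (b+1) * 2 ^ (s+1+1) := Nat.mul_le_mul (by omega)
      (Nat.pow_le_pow_right (by norm_num) (by omega))
    omega
  have hpos : (0:ℤ) < 2 ^ (s+1) := by positivity
  have hMD : (((b+1) * 2 ^ (s+1+1) - 1 : ℕ) : ℤ) + d * 2 ^ (s+1) + 1 =
      2 ^ (s+1) * (d + 2 * b + 2) := by
    rw [Kb_M]; rw [pow_succ (2:ℤ) (s+1)]; ring
  have hst := star s ((b+1) * 2 ^ (s+1+1) - 1) k hM E _ hE
    (by rw [hMD]; exact mul_le_mul_of_nonneg_left (by omega) hpos.le)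
  rw [hMD] at hst
  rw [Kb, hst, Kb]
  have hMM : (b+1) * 2 ^ (s+1+1) - 1 = (2 * b + 1 + 1) * 2 ^ (s+1) - 1 := by
    rw [pow_succ 2 (s+1)]; congr 1; ring
  rw [← hMM]
  congr 1
  by_cases h1 : (k:ℤ) = d + 2 * b
  · rw [if_pos h1, if_pos (by rw [h1])]
  · rw [if_neg h1, if_neg]
    intro h2
    apply h1
    have := mul_left_cancel₀ hpos.ne' h2
    omega

/-- the operator `N_0` -/
noncomputable def N0 (s : ℕ) : D s →+ D (s+1) where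
  toFun F := tM s 1 (q s 0 * F)
  map_zero' := by simp
  map_add' := by intro x y; rw [mul_add, map_add]

lemma N0_apply (s : ℕ) (F : D s) : N0 s F = tM s 1 (q s 0 * F) := rfl

lemma Ng.N0 {s : ℕ} {d : ℤ} {F : D s} (hF : Ng s d F) : Ng (s+1) d (N0 s F) := by
  rw [N0_apply]
  refine (Hom.tM s 1 ((Hom.q s 0).mul hF)).congr ?_
  rw [pow_succ]; push_cast; ring

lemma e_N0 (s : ℕ) {d : ℤ} {F : D (s+1)} (hF : Ng (s+1) d F) (κ : ℤ) (h : d ≤ κ) :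
    e (s+1) κ (N0 (s+1) F) = N0 s (e s κ F) := by
  rcases lt_or_ge d 0 with hd | hd
  · rw [hF.eq_zero_of_neg hd]; simp
  obtain ⟨k, rfl⟩ : ∃ k : ℕ, κ = k := ⟨κ.toNat, by omega⟩
  have hpos : (0:ℤ) < 2 ^ (s+1) := by positivity
  have hle : (2:ℤ) ^ (s+1) * (d + 2) ≤ 2 ^ (s+1) * (k + 2) :=
    mul_le_mul_of_nonneg_left (by omega) hpos.le
  have hst := star s 1 k le_rfl (q (s+1) 0 * F) _ ((Hom.q (s+1) 0).mul hF) (by
    push_cast
    nlinarith)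
  rw [N0_apply, hst, if_neg, add_zero, e_q0_mul, N0_apply]
  · congr 2; ring_nf
  · intro h2
    have h3 : (2:ℤ) ^ (s+1) = 2 * 2 ^ s := by rw [pow_succ]; ring
    rw [h3] at h2
    push_cast at h2
    have : (2:ℤ) * (2 ^ s * (k + 2) - 2 ^ s - d * 2 ^ s) = 1 := by linarith
    omega

lemma N0_one (s : ℕ) : N0 s 1 = 1 := by
  rw [N0_apply, mul_one, tM_apply, un_q, uq, Finset.mul_sum, T_sum]
  rw [Finset.sum_eq_single (s+1)]
  · rw [q_self, C_1, one_mul, ← pow_add, T_X_pow_lt]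
    · rw [if_pos]
      have : 2 ^ (0+1) ≤ 2 ^ (s+1) := Nat.pow_le_pow_right (by norm_num) (by omega)
      omega
    · have : 2 ^ (0+1) ≤ 2 ^ (s+1) := Nat.pow_le_pow_right (by norm_num) (by omega)
      omega
  · intro a ha ha2
    simp only [Finset.mem_Ioc] at ha
    have h1 : 2 ^ (0+1) ≤ 2 ^ a := Nat.pow_le_pow_right (by norm_num) (by omega)
    have h2 : 2 ^ a < 2 ^ (s+1) := Nat.pow_lt_pow_right (by norm_num) (by omega)
    have : X ^ 1 * (C (q (s+1) a) * X ^ (2 ^ a - 2 ^ (0+1))) =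
      C (q (s+1) a) * X ^ (1 + (2 ^ a - 2 ^ (0+1))) := by rw [pow_add]; ring
    rw [this, T_C_mul, T_X_pow_lt _ (by omega), if_neg (by omega), mul_zero]
  · intro h; simp at h

/-- the operator `Θ` -/
noncomputable def Th (s : ℕ) (Z : D s) : D (s+1) :=
  ∑ i ∈ Finset.range s, q (s+1) (i+2) * tM s (2 ^ (i+1) - 1) Z ^ 2

lemma Th_eq (s : ℕ) (Z : D s) : q (s+1) 0 ^ 2 * Th s Z =
    tM s 1 ((q s 0 * Z) ^ 2) + q (s+1) 1 * N0 s Z ^ 2 := by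
  have h := tM_odd s 0 (q s 0 * Z)
  rw [mul_zero, zero_add, Finset.sum_range_succ'] at h
  simp only [zero_add, pow_zero] at h
  rw [h, ← N0_apply, add_assoc, CharTwo.add_self_eq_zero, add_zero, Th, Finset.mul_sum]
  refine Finset.sum_congr rfl (fun i _ => ?_)
  have h1 : 2 ^ 1 ≤ 2 ^ (i+1) := Nat.pow_le_pow_right (by norm_num) (by omega)
  have h2 : tM s (2 ^ (i+1)) (q s 0 * Z) = q (s+1) 0 * tM s (2 ^ (i+1) - 1) Z := by
    rw [← tM_q0 s (2 ^ (i+1) - 1) (by omega), Nat.sub_add_cancel (by omega)]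
  rw [h2]; ring

lemma Ng.Th {s : ℕ} {d : ℤ} {Z : D s} (hZ : Ng s d Z) : Ng (s+1) (2 * d - 1) (Th s Z) := by
  rw [LZ.Th]
  refine Hom.sum _ _ (fun i hi => ?_)
  have h1 : 1 ≤ 2 ^ (i+1) := Nat.one_le_two_pow
  refine ((Hom.q (s+1) (i+2)).mul ((Hom.tM s (2 ^ (i+1) - 1) hZ).pow 2)).congr ?_
  rw [Nat.cast_sub h1, pow_succ (2:ℤ) s, pow_succ (2:ℤ) (i+1)]; push_cast; ring

lemma e_Th (s : ℕ) {d : ℤ} {Z : D (s+1)} (hZ : Ng (s+1) d Z) (κ : ℤ) (hκ : 0 ≤ κ) (h : d - 1 ≤ κ) :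
    e (s+1) (2 * κ) (Th (s+1) Z) = (if κ = d - 1 then Z ^ 2 else 0) + N0 s (e s (κ+1) Z) ^ 2 := by
  obtain ⟨k, rfl⟩ : ∃ k : ℕ, κ = k := ⟨κ.toNat, by omega⟩
  apply mul_left_cancel₀ (pow_ne_zero 2 (q0_ne_zero (s+1)))
  have h1 : q (s+1) 0 ^ 2 * e (s+1) (2 * (k:ℤ)) (Th (s+1) Z) =
      e (s+1) (2 * (k:ℤ) + 2) (q (s+2) 0 ^ 2 * Th (s+1) Z) := by
    rw [sq, sq, mul_assoc, mul_assoc, e_q0_mul, e_q0_mul,
      show 2 * (k:ℤ) + 2 - 1 - 1 = 2 * k by ring]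
  have hpos : (0:ℤ) < 2 ^ (s+1) := by positivity
  have hMD : ((1:ℕ):ℤ) + (2:ℕ) * ((2 ^ (s+1) - 2 ^ 0) + d * 2 ^ (s+1)) + 1 = 2 ^ (s+1) * (2 * d + 2) := by
    push_cast; ring
  have hk2 : ((2 * k + 2 : ℕ) : ℤ) + 2 = 2 * k + 4 := by push_cast; ring
  have hst := star s 1 (2 * k + 2) le_rfl ((q (s+1) 0 * Z) ^ 2) _
    (((Hom.q (s+1) 0).mul hZ).pow 2)
    (by rw [hMD, hk2]; exact mul_le_mul_of_nonneg_left (by omega) hpos.le)
  rw [hMD, hk2, show ((2 * k + 2 : ℕ) : ℤ) = 2 * (k:ℤ) + 2 by push_cast; ring] at hst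
  rw [h1, Th_eq, map_add, hst, show 2 * (k:ℤ) + 2 + 1 = 2 * (k+1) + 1 by ring, e_sq_odd, map_zero,
    zero_add, e_q_mul, qm_succ, show 2 * (k:ℤ) + 2 = 2 * (k + 1) by ring, e_sq_even,
    show 2 * ((k:ℤ) + 1) - 1 = 2 * k + 1 by ring, e_sq_odd, mul_zero, add_zero,
    e_N0 s hZ _ (by omega), mul_add]
  congr 1
  by_cases h2 : (k:ℤ) = d - 1
  · rw [if_pos h2, if_pos (by rw [h2]; ring)]; ring
  · rw [if_neg h2, if_neg, zero_add, zero_add]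
    intro h3
    apply h2
    have h4 : (2:ℤ) ^ (s+1) * (2 * d + 2) = 2 ^ (s+1) * (2 * k + 4) := by linarith
    have := mul_left_cancel₀ hpos.ne' h4
    omega

end Vale.Agent.P263.LZ
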