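import Vale.Agent.P263.LZ.Star2

namespace Vale.Agent.P263.LZ

open Polynomial

/-- binomial coefficient with integer lower index -/
def cb (k : ℕ) (j : ℤ) : ℕ := if 0 ≤ j then k.choose j.toNat else 0

lemma cb_neg {k : ℕ} {j : ℤ} (h : j < 0) : cb k j = 0 := by simp [cb, not_le.mpr h]
lemma cb_nat (k j : ℕ) : cb k (j : ℤ) = k.choose j := by simp [cb]
lemma cb_gt {k : ℕ} {j : ℤ} (h : (k:ℤ) < j) : cb k j = 0 := by
  unfold cb
  rw [if_pos (by omega)]
  exact Nat.choose_eq_zero_of_lt (by omega)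
lemma cb_zero {j : ℤ} : cb 0 j = if j = 0 then 1 else 0 := by
  rcases lt_trichotomy j 0 with h | h | h
  · rw [cb_neg h, if_neg (by omega)]
  · subst h; simp [cb]
  · rw [cb_gt (by simpa using h), if_neg (by omega)]
lemma cb_succ (k : ℕ) (j : ℤ) : cb (k+1) j = cb k j + cb k (j-1) := by
  rcases lt_trichotomy j 0 with h | h | h
  · rw [cb_neg h, cb_neg h, cb_neg (by omega)]
  · subst h; rw [cb_neg (show (0:ℤ) - 1 < 0 by omega)]; simp [cb]
  · obtain ⟨n, rfl⟩ : ∃ n : ℕ, j = (n+1 : ℕ) := ⟨(j-1).toNat, by omega⟩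
    rw [show (((n+1 : ℕ) : ℤ) - 1) = (n : ℤ) by push_cast; ring, cb_nat, cb_nat, cb_nat,
      Nat.choose_succ_succ, add_comm]

section rows
variable {R : Type*} [CommRing R]

/-- double coefficient: `V_2^m V_1^n` (outer variable `V_1`) -/
noncomputable def tc (g : R[X][X]) (m n : ℤ) : R := zc (zc g n) m

lemma tc_add (g h : R[X][X]) (m n : ℤ) : tc (g + h) m n = tc g m n + tc h m n := by
  unfold tc; rw [zc_add, zc_add]
lemma tc_CC_mul (a : R) (g : R[X][X]) (m n : ℤ) : tc (C (C a) * g) m n = a * tc g m n := by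
  unfold tc; rw [zc_C_mul, zc_C_mul]
lemma tc_X_mul (g : R[X][X]) (m n : ℤ) : tc (X * g) m n = tc g m (n-1) := by
  unfold tc; rw [zc_X_mul]
lemma tc_CX_mul (g : R[X][X]) (m n : ℤ) : tc (C X * g) m n = tc g (m-1) n := by
  unfold tc; rw [zc_C_mul, zc_X_mul]
lemma tc_one (m n : ℤ) : tc (1 : R[X][X]) m n = if m = 0 ∧ n = 0 then 1 else 0 := by
  have h1 : ∀ (S : Type _) [CommRing S] (k : ℤ), zc (1 : S[X]) k = if k = 0 then 1 else 0 := by
    intro S _ k
    rcases lt_or_ge k 0 with h | h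
    · rw [zc_neg _ h, if_neg (by omega)]
    · obtain ⟨c, rfl⟩ : ∃ c : ℕ, k = c := ⟨k.toNat, by omega⟩
      rw [zc_nat, coeff_one]; simp
  unfold tc
  rw [h1]
  by_cases hn : n = 0
  · simp only [hn, if_true, and_true]; exact h1 R m
  · simp only [hn, if_false, and_false]; exact zc_zero _

/-- the system of linear relations between the double coefficients -/
def Rows (g : R[X][X]) : Prop := ∀ (n ν : ℤ) (K : ℕ), -1 ≤ ν → ν < K →
  tc g (n + 2 + ν) n = ∑ k ∈ Finset.range K, (cb k (ν - k) : R) * tc g (n + ν - 2 * k) (n + 1 + k)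

lemma Rows.one : Rows (1 : R[X][X]) := by
  intro n ν K h1 h2
  rw [tc_one, if_neg (by omega)]
  symm
  refine Finset.sum_eq_zero (fun k _ => ?_)
  rw [tc_one]
  split_ifs with h
  · rw [cb_gt (by omega)]; simp
  · simp

lemma Rows.zero : Rows (0 : R[X][X]) := by
  intro n ν K h1 h2
  simp [tc]

lemma Rows.add {g h : R[X][X]} (hg : Rows g) (hh : Rows h) : Rows (g + h) := by
  intro n ν K h1 h2
  rw [tc_add, hg n ν K h1 h2, hh n ν K h1 h2, ← Finset.sum_add_distrib]
  exact Finset.sum_congr rfl (fun k _ => by rw [tc_add]; ring)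

lemma Rows.CC_mul {g : R[X][X]} (a : R) (hg : Rows g) : Rows (C (C a) * g) := by
  intro n ν K h1 h2
  rw [tc_CC_mul, hg n ν K h1 h2, Finset.mul_sum]
  exact Finset.sum_congr rfl (fun k _ => by rw [tc_CC_mul]; ring)

lemma Rows.tau {g : R[X][X]} (hg : Rows g) : Rows (X * (C X * g)) := by
  intro n ν K h1 h2
  have := hg (n-1) ν K h1 h2
  rw [tc_X_mul, tc_CX_mul, show n + 2 + ν - 1 = n - 1 + 2 + ν by ring, this]
  refine Finset.sum_congr rfl (fun k _ => ?_)
  rw [tc_X_mul, tc_CX_mul]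
  congr 2 <;> ring

lemma Rows.sigma [CharP R 2] {g : R[X][X]} (hg : Rows g) : Rows (X * g + C X * (C X * g)) := by
  intro n ν K h1 h2
  set A : ℕ → R := fun k => tc g (n + ν - 2 * k) (n + k) with hA
  have hT : ∀ m k, tc (X * g + C X * (C X * g)) m k = tc g m (k-1) + tc g (m-2) k := by
    intro m k
    rw [tc_add, tc_X_mul, tc_CX_mul, tc_CX_mul]; congr 2; ring
  have hR : ∑ k ∈ Finset.range K, (cb k (ν - k) : R) *
      tc (X * g + C X * (C X * g)) (n + ν - 2 * k) (n + 1 + k) =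
      ∑ k ∈ Finset.range K, (cb k (ν - k) : R) * A k +
      ∑ k ∈ Finset.range K, (cb k (ν - k) : R) * A (k+1) := by
    rw [← Finset.sum_add_distrib]
    refine Finset.sum_congr rfl (fun k _ => ?_)
    rw [hT, mul_add]
    simp only [hA]
    congr 3 <;> push_cast <;> ring
  have hR1 : ∑ k ∈ Finset.range K, (cb k (ν - k) : R) * A k =
      (cb 0 ν : R) * A 0 + ∑ k ∈ Finset.range K, (cb (k+1) (ν - k - 1) : R) * A (k+1) := by
    have : ∑ k ∈ Finset.range (K+1), (cb k (ν - k) : R) * A k =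
        ∑ k ∈ Finset.range K, (cb k (ν - k) : R) * A k := by
      rw [Finset.sum_range_succ, cb_neg (by omega : ν - (K:ℤ) < 0)]; simp
    rw [← this, Finset.sum_range_succ']
    simp only [Nat.cast_zero, sub_zero]
    rw [add_comm]
    congr 1
    exact Finset.sum_congr rfl (fun k _ => by
      rw [show ν - ((k+1 : ℕ) : ℤ) = ν - k - 1 by push_cast; ring])
  have hL1 : tc g (n + 2 + ν) (n - 1) =
      (cb 0 (ν+1) : R) * A 0 + ∑ k ∈ Finset.range K, (cb (k+1) (ν - k) : R) * A (k+1) := by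
    have := hg (n-1) (ν+1) (K+1) (by omega) (by push_cast; omega)
    rw [show n + 2 + ν = n - 1 + 2 + (ν + 1) by ring, this, Finset.sum_range_succ', add_comm]
    simp only [hA]
    congr 1
    · congr 2
      · simp
      · push_cast; ring
      · push_cast; ring
    · refine Finset.sum_congr rfl (fun k _ => ?_)
      congr 2
      · congr 1; push_cast; ring
      · push_cast; ring
      · push_cast; ring
  rw [hT, hR, hR1, hL1]
  rcases lt_trichotomy ν 0 with hν | hν | hν
  · have hν' : ν = -1 := by omega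
    subst hν'
    have e1 : tc g (n + 2 + -1 - 2) n = A 0 := by simp only [hA]; congr 1 <;> push_cast <;> ring
    have z1 : ∀ k ∈ Finset.range K, (cb (k+1) (-1 - k) : R) * A (k+1) = 0 := by
      intro k _; rw [cb_neg (by omega)]; simp
    have z2 : ∀ k ∈ Finset.range K, (cb (k+1) (-1 - k - 1) : R) * A (k+1) = 0 := by
      intro k _; rw [cb_neg (by omega)]; simp
    have z3 : ∀ k ∈ Finset.range K, (cb k (-1 - k) : R) * A (k+1) = 0 := by
      intro k _; rw [cb_neg (by omega)]; simp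
    rw [e1, Finset.sum_eq_zero z1, Finset.sum_eq_zero z2, Finset.sum_eq_zero z3, cb_zero, cb_zero]
    have : A 0 + A 0 = 0 := CharTwo.add_self_eq_zero _
    simp [this]
  · subst hν
    have e1 : tc g (n + 2 + 0 - 2) n = A 0 := by simp only [hA]; congr 1 <;> push_cast <;> ring
    rw [e1, cb_zero, cb_zero]
    have e2 : ∀ k ∈ Finset.range K, (cb (k+1) (0 - k) : R) * A (k+1) =
      (cb (k+1) (0 - k - 1) : R) * A (k+1) + (cb k (0-k) : R) * A (k+1) := by
      intro k _
      rw [cb_succ k (0 - k), cb_succ k (0 - k - 1), cb_neg (show (0:ℤ) - k - 1 < 0 by omega),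
        cb_neg (show (0:ℤ) - k - 1 - 1 < 0 by omega)]
      push_cast; ring
    rw [Finset.sum_congr rfl e2, Finset.sum_add_distrib]
    simp; ring
  · have e1 : tc g (n + 2 + ν - 2) n = ∑ k ∈ Finset.range K, (cb k (ν - 2 - k) : R) * A (k+1) := by
      have := hg n (ν - 2) K (by omega) (by omega)
      rw [show n + 2 + ν - 2 = n + 2 + (ν - 2) by ring, this]
      refine Finset.sum_congr rfl (fun k _ => ?_)
      simp only [hA]
      congr 2 <;> push_cast <;> ring
    rw [e1, cb_zero, cb_zero, if_neg (by omega), if_neg (by omega)]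
    simp only [Nat.cast_zero, zero_mul, zero_add]
    rw [← Finset.sum_add_distrib, ← Finset.sum_add_distrib]
    refine Finset.sum_congr rfl (fun k _ => ?_)
    rw [cb_succ k (ν - k), cb_succ k (ν - k - 1), show ν - k - 1 - 1 = ν - 2 - (k:ℤ) by ring]
    push_cast; ring

end rows

/-- the double substitution `D_{s+2} → D_s[V_2][V_1]` -/
noncomputable def rr (s : ℕ) : D (s+2) →+* (D s)[X][X] :=
  (mapRingHom (rhoR s)).comp (rhoR (s+1))

lemma rr_apply (s : ℕ) (G : D (s+2)) : rr s G = (rho (s+1) G).map (rhoR s) := rfl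

lemma zc_map {R S : Type*} [CommRing R] [CommRing S] (φ : R →+* S) (P : R[X]) (m : ℤ) :
    zc (P.map φ) m = φ (zc P m) := by
  unfold zc; split_ifs
  · rw [coeff_map]
  · rw [map_zero]

lemma tc_rr (s : ℕ) (m n : ℤ) (G : D (s+2)) : tc (rr s G) m n = e s m (e (s+1) n G) := by
  rw [tc, rr_apply, zc_map]; rfl

lemma rr_q_zero (s : ℕ) : rr s (q (s+2) 0) = C (C (q s 0)) * (X * C X) := by
  rw [rr_apply, rho_q, Polynomial.map_add, Polynomial.map_mul, Polynomial.map_C, Polynomial.map_C,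
    map_X, rhoR_apply, rhoR_apply, rho_q]
  simp only [qm_zero, C_add, C_mul, C_pow, map_zero, map_pow]
  ring

lemma rr_q_succ (s j : ℕ) : rr s (q (s+2) (j+1)) = C (C (qm s j ^ 4)) +
    C (C (q s j ^ 2)) * (X + C X * C X) + C (C (q s (j+1))) * (X * C X) := by
  rw [rr_apply, rho_q, Polynomial.map_add, Polynomial.map_mul, Polynomial.map_C, Polynomial.map_C,
    map_X, rhoR_apply, rhoR_apply, qm_succ, map_pow, rho_q, rho_q, CharTwo.add_sq, qm_succ]
  simp only [C_add, C_mul, C_pow]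
  ring

theorem rows_rr (s : ℕ) (G : D (s+2)) : Rows (rr s G) := by
  induction G using D_induction with
  | h0 => rw [map_zero]; exact Rows.zero
  | h1 => rw [map_one]; exact Rows.one
  | hadd x y hx hy => rw [map_add]; exact hx.add hy
  | hmul x i hx =>
    have hi : (gen i : D (s+2)) = q (s+2) i := by rw [q_lt i.2]
    rw [map_mul, hi]
    rcases i with ⟨i, hi⟩
    rcases i with _ | j
    · have : rr s x * rr s (q (s+2) 0) = C (C (q s 0)) * (X * (C X * rr s x)) := by
        rw [rr_q_zero]; ring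
      show Rows (rr s x * rr s (q (s+2) 0))
      rw [this]
      exact (hx.tau).CC_mul _
    · have : rr s x * rr s (q (s+2) (j+1)) = C (C (qm s j ^ 4)) * rr s x +
        C (C (q s j ^ 2)) * (X * rr s x + C X * (C X * rr s x)) +
        C (C (q s (j+1))) * (X * (C X * rr s x)) := by
        rw [rr_q_succ]; ring
      show Rows (rr s x * rr s (q (s+2) (j+1)))
      rw [this]
      exact ((hx.CC_mul _).add (hx.sigma.CC_mul _)).add (hx.tau.CC_mul _)

/-- the relations between the operators `e_m e_n` -/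
theorem rel (s : ℕ) (G : D (s+2)) (n ν : ℤ) (K : ℕ) (h1 : -1 ≤ ν) (h2 : ν < K) :
    e s (n + 2 + ν) (e (s+1) n G) = ∑ k ∈ Finset.range K,
      (cb k (ν - k) : D s) * e s (n + ν - 2 * k) (e (s+1) (n + 1 + k) G) := by
  have := rows_rr s G n ν K h1 h2
  simpa only [tc_rr] using this

theorem rel_zero (s : ℕ) (G : D (s+2)) (n : ℤ) : e s (n + 1) (e (s+1) n G) = 0 := by
  have := rel s G n (-1) 0 (by norm_num) (by norm_num)
  rw [show n + 1 = n + 2 + -1 by ring, this]; simp

/-- lacunarity of the binomial coefficients -/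
lemma choose_even_of_not_dvd (r k l : ℕ) (h : 2 ^ r ∣ k + l + 1) (h2 : ¬ 2 ^ r ∣ k + 1) :
    2 ∣ k.choose l := by
  induction r generalizing k l with
  | zero => simp at h2
  | succ r ih =>
    have h3 : 2 ∣ k + l + 1 := (dvd_pow_self 2 (Nat.succ_ne_zero r)).trans h
    have hL := Choose.choose_modEq_choose_mod_mul_choose_div_nat (n := k) (k := l) (p := 2)
    rcases Nat.mod_two_eq_zero_or_one k with hk | hk
    · have hl : l % 2 = 1 := by omega
      rw [hk, hl] at hL
      simp at hL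
      exact (Nat.modEq_zero_iff_dvd.mp hL)
    · have hl : l % 2 = 0 := by omega
      rw [hk, hl] at hL
      have h4 : 2 ∣ (k/2).choose (l/2) := by
        apply ih (k/2) (l/2)
        · have : k + l + 1 = 2 * (k/2 + l/2 + 1) := by omega
          rw [this, pow_succ, mul_comm (2 ^ r) 2] at h
          exact Nat.dvd_of_mul_dvd_mul_left (by norm_num) h
        · intro h5
          apply h2
          have : k + 1 = 2 * (k/2 + 1) := by omega
          rw [this, pow_succ, mul_comm (2 ^ r) 2]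
          exact Nat.mul_dvd_mul_left 2 h5
      refine (Nat.modEq_zero_iff_dvd.mp (hL.trans ?_))
      simp only [Nat.choose_zero_right, one_mul]
      exact (Nat.modEq_zero_iff_dvd.mpr h4)

/-- only letters divisible by `2^r` occur -/
theorem rel_pow (s r κ : ℕ) (hκ : 1 ≤ κ) (n : ℤ) (G : D (s+2))
    (h : ∀ k : ℕ, 1 ≤ k → k < κ →
      e s (n + 1 + 2 ^ r * (κ - 2 * k)) (e (s+1) (n + 2 ^ r * k) G) = 0) :
    e s (n + 1 + 2 ^ r * κ) (e (s+1) n G) = e s (n + 1 - 2 ^ r * κ) (e (s+1) (n + 2 ^ r * κ) G) := by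
  have hp : 1 ≤ 2 ^ r * κ := Nat.one_le_iff_ne_zero.mpr (by positivity)
  have hc : ((2 ^ r * κ : ℕ) : ℤ) = 2 ^ r * κ := by push_cast; ring
  have := rel s G n (2 ^ r * κ - 1) (2 ^ r * κ) (by rw [← hc]; omega) (by rw [← hc]; omega)
  rw [show n + 1 + 2 ^ r * (κ:ℤ) = n + 2 + (2 ^ r * κ - 1) by ring, this]
  rw [Finset.sum_eq_single (2 ^ r * κ - 1)]
  · have h1 : (((2 ^ r * κ - 1 : ℕ)) : ℤ) = 2 ^ r * κ - 1 := by rw [← hc]; omega
    rw [h1, show (2 ^ r * (κ:ℤ) - 1 - (2 ^ r * κ - 1)) = ((0:ℕ) : ℤ) by push_cast; ring, cb_nat,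
      Nat.choose_zero_right, Nat.cast_one, one_mul,
      show n + (2 ^ r * (κ:ℤ) - 1) - 2 * (2 ^ r * κ - 1) = n + 1 - 2 ^ r * κ by ring,
      show n + 1 + (2 ^ r * (κ:ℤ) - 1) = n + 2 ^ r * κ by ring]
  · intro k hk hk2
    rw [Finset.mem_range] at hk
    have hl : (2 ^ r * (κ:ℤ) - 1 - k) = ((2 ^ r * κ - 1 - k : ℕ) : ℤ) := by rw [← hc]; omega
    by_cases hd : 2 ^ r ∣ k + 1
    · obtain ⟨j, hj⟩ := hd
      have hj0 : 1 ≤ j := by
        rcases Nat.eq_zero_or_pos j with h0 | h0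
        · subst h0; omega
        · exact h0
      have hjκ : j < κ := by
        by_contra hcon
        have : 2 ^ r * κ ≤ 2 ^ r * j := Nat.mul_le_mul_left _ (not_lt.mp hcon)
        omega
      have hkj : (k : ℤ) = 2 ^ r * j - 1 := by
        have : ((k + 1 : ℕ) : ℤ) = ((2 ^ r * j : ℕ) : ℤ) := by rw [hj]
        push_cast at this; linarith
      have h5 := h j hj0 hjκ
      rw [hkj, show n + (2 ^ r * (κ:ℤ) - 1) - 2 * (2 ^ r * j - 1) = n + 1 + 2 ^ r * (κ - 2 * j) by ring,
        show n + 1 + (2 ^ r * (j:ℤ) - 1) = n + 2 ^ r * j by ring, h5, mul_zero]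
    · have h6 : 2 ∣ k.choose (2 ^ r * κ - 1 - k) := by
        refine choose_even_of_not_dvd r k _ ⟨κ, by omega⟩ hd
      rw [hl, cb_nat]
      have h7 : ((k.choose (2 ^ r * κ - 1 - k) : ℕ) : D s) = 0 :=
        (CharP.cast_eq_zero_iff (D s) 2 _).mpr h6
      rw [h7, zero_mul]
  · intro h8
    exact absurd (Finset.mem_range.mpr (by omega)) h8

end Vale.Agent.P263.LZ
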