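import Vale.Agent.P263.LZ.Top

namespace Vale.Agent.P263.LZ

open Polynomial

/-- `uq s i = ∑_{i < a ≤ s+1} q_a x^{2^a - 2^{i+1}}` -/
noncomputable def uq (s i : ℕ) : (D (s+1))[X] :=
  ∑ a ∈ Finset.Ioc i (s+1), C (q (s+1) a) * X ^ (2 ^ a - 2 ^ (i+1))

/-- `un s : D_s → D_{s+1}[x]`, `q_i ↦ uq s i` -/
noncomputable def un (s : ℕ) : D s →ₐ[ZMod 2] (D (s+1))[X] :=
  lift (fun i : Fin s => uq s i)

lemma un_q (s i : ℕ) : un s (q s i) = uq s i := by
  rcases lt_trichotomy i s with h | h | h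
  · rw [q_lt h, un, lift_gen]
  · subst h
    rw [q_self, map_one, uq, show Finset.Ioc i (i+1) = {i+1} by ext; simp,
      Finset.sum_singleton, q_self]; simp
  · rw [q_gt h, map_zero, uq, Finset.Ioc_eq_empty (by omega), Finset.sum_empty]

/-- the operator `t_M : D_s → D_{s+1}` -/
noncomputable def tM (s M : ℕ) : D s →+ D (s+1) where
  toFun F := T (s+1) (X ^ M * un s F)
  map_zero' := by simp
  map_add' := by intro x y; rw [map_add, mul_add, T_add]

lemma tM_apply (s M : ℕ) (F : D s) : tM s M F = T (s+1) (X ^ M * un s F) := rfl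

/-! ### the map `φ♭` and its leading coefficients -/

/-- `n` is the rank. -/
noncomputable def fq (n i : ℕ) : (D n)[X] :=
  ∑ a ∈ Finset.Ioc i (n+1), (C (qm n a ^ 2) + f n * C (q n a)) * X ^ (2 ^ a - 2 ^ (i+1))

/-- `φ♭ : D_n → D_n[x]` -/
noncomputable def fb (n : ℕ) : D n →ₐ[ZMod 2] (D n)[X] :=
  lift (fun i : Fin n => fq n i)

/-- degree at most `n` with `n`-th coefficient `F` -/
def Lead {R : Type*} [CommRing R] (n : ℤ) (x : R[X] × R) : Prop :=
  (∀ k : ℤ, n < k → zc x.1 k = 0) ∧ zc x.1 n = x.2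

lemma Lead.natDegree_le {R : Type*} [CommRing R] {n : ℤ} {x : R[X] × R} (h : Lead n x)
    (hn : 0 ≤ n) : x.1.natDegree ≤ n.toNat := by
  rw [natDegree_le_iff_coeff_eq_zero]
  intro k hk
  have := h.1 k (by omega)
  simpa using this

lemma Lead.mul {R : Type*} [CommRing R] {n m : ℤ} {x y : R[X] × R} (hx : Lead n x)
    (hy : Lead m y) : Lead (n + m) (x * y) := by
  rcases lt_or_ge n 0 with hn | hn
  · have h1 : x.1 = 0 := by
      ext k; have := hx.1 k (by omega); simpa using this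
    have h2 : x.2 = 0 := by rw [← hx.2, h1, zc_zero]
    exact ⟨fun k _ => by simp [h1], by simp [h1, h2]⟩
  rcases lt_or_ge m 0 with hm | hm
  · have h1 : y.1 = 0 := by
      ext k; have := hy.1 k (by omega); simpa using this
    have h2 : y.2 = 0 := by rw [← hy.2, h1, zc_zero]
    exact ⟨fun k _ => by simp [h1], by simp [h1, h2]⟩
  obtain ⟨a, rfl⟩ : ∃ a : ℕ, n = a := ⟨n.toNat, by omega⟩
  obtain ⟨b, rfl⟩ : ∃ b : ℕ, m = b := ⟨m.toNat, by omega⟩
  have h1 : x.1.natDegree ≤ a := by simpa using hx.natDegree_le hn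
  have h2 : y.1.natDegree ≤ b := by simpa using hy.natDegree_le hm
  refine ⟨fun k hk => ?_, ?_⟩
  · obtain ⟨c, rfl⟩ : ∃ c : ℕ, k = c := ⟨k.toNat, by omega⟩
    rw [zc_nat]
    exact coeff_eq_zero_of_natDegree_lt
      (lt_of_le_of_lt (natDegree_mul_le_of_le h1 h2) (by exact_mod_cast hk))
  · have h3 : (a : ℤ) + b = ((a + b : ℕ) : ℤ) := by push_cast; ring
    rw [h3, zc_nat]
    show (x.1 * y.1).coeff (a + b) = x.2 * y.2
    rw [coeff_mul_add_eq_of_natDegree_le h1 h2, ← hx.2, ← hy.2, zc_nat, zc_nat]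

lemma fq_lead (n i : ℕ) (hi : i < n) : Lead ((2:ℤ) ^ n - 2 ^ i) (fq n i, q n i) := by
  have hi2 : 2 ^ i < 2 ^ n := Nat.pow_lt_pow_right (by norm_num) hi
  have hp1 : 2 ^ (i+1) = 2 * 2 ^ i := by rw [pow_succ]; ring
  set h : (D n)[X] := ∑ a ∈ Finset.Icc i n, C (q n a) * X ^ 2 ^ a with hh
  set t : (D n)[X] := ∑ a ∈ Finset.range i, C (q n a) * X ^ 2 ^ a with ht
  have hf : f n = t + h := by
    rw [f, hh, ht, ← Finset.sum_union]
    · congr 1; ext a; simp; omega
    · rw [Finset.disjoint_left]; intro a; simp; omega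
  have h1 : (∑ a ∈ Finset.Ioc i (n+1), C (qm n a ^ 2) * X ^ 2 ^ a : (D n)[X]) = h ^ 2 := by
    rw [hh, CharTwo.sum_sq]
    symm
    refine Finset.sum_bij (fun a _ => a + 1) ?_ ?_ ?_ ?_
    · intro a ha; simp at ha ⊢; omega
    · intro a _ b _ hab; simpa using hab
    · intro b hb; simp at hb; exact ⟨b - 1, by simp; omega, by show b - 1 + 1 = b; omega⟩
    · intro a _; rw [qm_succ, mul_pow, ← C_pow, ← pow_mul, pow_succ 2 a]
  have h2 : (∑ a ∈ Finset.Ioc i (n+1), C (q n a) * X ^ 2 ^ a : (D n)[X])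
      + C (q n i) * X ^ 2 ^ i = h := by
    rw [hh]
    have e1 : Finset.Icc i n = insert i (Finset.Ioc i n) := by ext; simp; omega
    have e2 : Finset.Ioc i (n+1) = insert (n+1) (Finset.Ioc i n) := by ext; simp; omega
    rw [e1, e2, Finset.sum_insert (by simp), Finset.sum_insert (by simp), q_gt (Nat.lt_succ_self n)]
    simp [add_comm]
  have key : X ^ 2 ^ (i+1) * fq n i = t * h + C (q n i) * (f n * X ^ 2 ^ i) := by
    have h3 : X ^ 2 ^ (i+1) * fq n i =
        (∑ a ∈ Finset.Ioc i (n+1), C (qm n a ^ 2) * X ^ 2 ^ a : (D n)[X]) +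
        f n * ∑ a ∈ Finset.Ioc i (n+1), C (q n a) * X ^ 2 ^ a := by
      rw [fq, Finset.mul_sum, Finset.mul_sum, ← Finset.sum_add_distrib]
      refine Finset.sum_congr rfl (fun a ha => ?_)
      have ha' : 2 ^ (i+1) ≤ 2 ^ a := Nat.pow_le_pow_right (by norm_num) (by simp at ha; omega)
      have : (X : (D n)[X]) ^ 2 ^ a = X ^ 2 ^ (i+1) * X ^ (2 ^ a - 2 ^ (i+1)) := by
        rw [← pow_add]; congr 1; omega
      rw [this]; ring
    rw [h3, h1]
    have h4 : (∑ a ∈ Finset.Ioc i (n+1), C (q n a) * X ^ 2 ^ a : (D n)[X]) = h + C (q n i) * X ^ 2 ^ i := by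
      rw [← h2, add_assoc, CharTwo.add_self_eq_zero, add_zero]
    rw [h4, hf]
    have : h ^ 2 + h ^ 2 = 0 := CharTwo.add_self_eq_zero _
    linear_combination this
  have htd : t = 0 ∨ t.natDegree < 2 ^ i := by
    rcases Nat.eq_zero_or_pos i with h0 | h0
    · left; rw [ht, h0]; simp
    · right
      rw [ht]
      refine lt_of_le_of_lt (natDegree_sum_le_of_forall_le (n := 2 ^ (i-1)) _ _ ?_)
        (Nat.pow_lt_pow_right (by norm_num) (by omega))
      intro a ha
      refine (natDegree_C_mul_X_pow_le _ _).trans (Nat.pow_le_pow_right (by norm_num) ?_)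
      simp at ha; omega
  have hhd : h.natDegree ≤ 2 ^ n := by
    rw [hh]
    refine natDegree_sum_le_of_forall_le _ _ ?_
    intro a ha
    exact (natDegree_C_mul_X_pow_le _ _).trans (Nat.pow_le_pow_right (by norm_num) (by simp at ha; omega))
  have hth : ∀ k, 2 ^ n + 2 ^ i ≤ k → (t * h).coeff k = 0 := by
    intro k hk
    rcases htd with h0 | h0
    · rw [h0]; simp
    · refine coeff_eq_zero_of_natDegree_lt (lt_of_le_of_lt (natDegree_mul_le) ?_)
      omega
  have hco : ∀ k, (fq n i).coeff k = (t * h).coeff (k + 2 ^ (i+1)) +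
      q n i * (f n * X ^ 2 ^ i).coeff (k + 2 ^ (i+1)) := by
    intro k
    have := congrArg (fun P => P.coeff (k + 2 ^ (i+1))) key
    simpa [coeff_X_pow_mul, coeff_C_mul] using this
  refine ⟨?_, ?_⟩
  · intro k hk
    have hk0 : 0 ≤ k := by
      have : (2:ℤ) ^ i < 2 ^ n := by exact_mod_cast hi2
      omega
    obtain ⟨c, rfl⟩ : ∃ c : ℕ, k = c := ⟨k.toNat, by omega⟩
    have hc : 2 ^ n - 2 ^ i < c := by
      zify [hi2.le]; exact hk
    rw [zc_nat, hco, hth _ (by omega), zero_add, coeff_eq_zero_of_natDegree_lt, mul_zero]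
    refine lt_of_le_of_lt natDegree_mul_le ?_
    rw [f_natDegree, natDegree_X_pow]; omega
  · have hc : (2:ℤ) ^ n - 2 ^ i = ((2 ^ n - 2 ^ i : ℕ) : ℤ) := by
      push_cast [hi2.le]; ring
    rw [hc, zc_nat, hco, hth _ (by omega), zero_add,
      show 2 ^ n - 2 ^ i + 2 ^ (i+1) = 2 ^ n + 2 ^ i by omega, coeff_mul_X_pow]
    have : (f n).coeff (2 ^ n) = 1 := by
      have := (f_monic n).coeff_natDegree
      rwa [f_natDegree] at this
    rw [this, mul_one]

lemma fb_lead {n : ℕ} {F : D n} {d : ℤ} (hF : Hom n d F) : Lead d (fb n F, F) := by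
  have := hom_map (B := (D n)[X] × D n) Lead
    (fun m => ⟨fun k _ => zc_zero _, zc_zero _⟩)
    (fun m x y hx hy => ⟨fun k hk => by
        show zc (x.1 + y.1) k = 0
        rw [zc_add, hx.1 k hk, hy.1 k hk, add_zero], by
        show zc (x.1 + y.1) m = x.2 + y.2
        rw [zc_add, hx.2, hy.2]⟩)
    ⟨fun k hk => by
        obtain ⟨c, rfl⟩ : ∃ c : ℕ, k = c := ⟨k.toNat, by omega⟩
        show zc 1 (c:ℤ) = 0
        rw [zc_nat, coeff_one, if_neg (by omega)], by
        show zc 1 (0:ℤ) = 1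
        simp [zc]⟩
    (fun m k x y hx hy => hx.mul hy)
    (RingHom.prod (fb n : D n →+* (D n)[X]) (RingHom.id (D n))) ?_ F d hF
  · exact this
  · intro i
    have h1 : fb n (gen i) = fq n i := by rw [fb, lift_gen]
    have h2 : (gen i : D n) = q n i := by rw [q_lt i.2]
    show Lead _ (fb n (gen i), gen i)
    rw [h1, h2]
    exact fq_lead n i i.2

/-! ### reduction modulo `f + V` -/

/-- the polynomial `f n` over `D_n[V]` -/
noncomputable def fV (n : ℕ) : (D n)[X][X] := (f n).map C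

lemma fV_monic (n : ℕ) : (fV n).Monic := (f_monic n).map _
lemma fV_natDegree (n : ℕ) : (fV n).natDegree = 2 ^ n := by
  rw [fV, (f_monic n).natDegree_map, f_natDegree]

lemma degree_CX_lt (n : ℕ) : (C (X : (D n)[X]) : (D n)[X][X]).degree < (fV n).degree := by
  refine lt_of_le_of_lt degree_C_le ?_
  rw [degree_eq_natDegree (fV_monic n).ne_zero, fV_natDegree]
  exact_mod_cast Nat.pos_of_ne_zero (by positivity)

lemma fVV_monic (n : ℕ) : (fV n + C X).Monic := (fV_monic n).add_of_left (degree_CX_lt n)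
lemma fVV_natDegree (n : ℕ) : (fV n + C X).natDegree = 2 ^ n := by
  rw [natDegree_add_eq_left_of_degree_lt (degree_CX_lt n), fV_natDegree]

lemma topV_lt (n m : ℕ) (hm : m < 2 ^ n) :
    top (fV n + C X) (X ^ m) = if m = 2 ^ n - 1 then 1 else 0 := by
  rw [top_of_lt (fVV_monic n) (by rw [natDegree_X_pow, fVV_natDegree]; exact hm), fVV_natDegree,
    coeff_X_pow]
  simp [eq_comm]

lemma aux_rec {R : Type*} [CommRing R] [CharP R 2] (S xm xN v : R) :
    xm * xN = (S + xN + v) * xm + v * xm + S * xm := by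
  have h3 : S * xm + S * xm = 0 := CharTwo.add_self_eq_zero _
  have h4 : v * xm + v * xm = 0 := CharTwo.add_self_eq_zero _
  linear_combination (-1 : R) * h3 - h4

lemma topV_rec (n m : ℕ) :
    top (fV n + C X) (X ^ (m + 2 ^ n)) = X * top (fV n + C X) (X ^ m) +
      ∑ a ∈ Finset.range n, C (q n a) * top (fV n + C X) (X ^ (m + 2 ^ a)) := by
  have h : (X : (D n)[X][X]) ^ (m + 2 ^ n) = (fV n + C X) * X ^ m + C X * X ^ m +
      ∑ a ∈ Finset.range n, C (C (q n a)) * X ^ (m + 2 ^ a) := by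
    have h1 : fV n = (∑ a ∈ Finset.range n, C (C (q n a)) * X ^ 2 ^ a) + X ^ 2 ^ n := by
      rw [fV, f_eq, fl, Polynomial.map_add, Polynomial.map_sum]; simp
    have h2 : (∑ a ∈ Finset.range n, C (C (q n a)) * X ^ (m + 2 ^ a) : (D n)[X][X]) =
      (∑ a ∈ Finset.range n, C (C (q n a)) * X ^ 2 ^ a) * X ^ m := by
      rw [Finset.sum_mul]; exact Finset.sum_congr rfl (fun a _ => by ring)
    rw [h2, h1]
    rw [pow_add]
    exact aux_rec (R := (D n)[X][X]) _ _ _ _
  rw [h, top_add, top_add, top_self_mul (fVV_monic n), zero_add, top_C_mul, top_sum]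
  congr 1
  exact Finset.sum_congr rfl (fun a _ => top_C_mul _ _ _)

lemma topV_coeff (n : ℕ) (m k : ℕ) (h : m + 1 ≤ 2 ^ n * (k+1)) :
    (top (fV n + C X) (X ^ m)).coeff k = if m + 1 = 2 ^ n * (k+1) then 1 else 0 := by
  induction m using Nat.strong_induction_on generalizing k with
  | _ m ih =>
  have hN1 : 1 ≤ 2 ^ n := Nat.one_le_two_pow
  rcases lt_or_ge m (2 ^ n) with hm | hm
  · rw [topV_lt n m hm]
    rcases Nat.eq_zero_or_pos k with hk | hk
    · subst hk
      by_cases h1 : m = 2 ^ n - 1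
      · rw [if_pos h1, if_pos (by omega)]; simp
      · rw [if_neg h1, if_neg (by omega)]; simp
    · have : 2 ^ n * 2 ≤ 2 ^ n * (k+1) := Nat.mul_le_mul_left _ (by omega)
      rw [if_neg (by omega : ¬ (m + 1 = 2 ^ n * (k+1)))]
      split_ifs
      · rw [coeff_one, if_neg (by omega)]
      · simp
  · obtain ⟨j, rfl⟩ : ∃ j, m = j + 2 ^ n := ⟨m - 2 ^ n, by omega⟩
    rcases Nat.eq_zero_or_pos k with hk | hk
    · subst hk; omega
    obtain ⟨l, rfl⟩ : ∃ l, k = l + 1 := ⟨k - 1, by omega⟩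
    have hl : 2 ^ n * (l + 1 + 1) = 2 ^ n * (l + 1) + 2 ^ n := by ring
    rw [topV_rec, coeff_add, coeff_X_mul, ih j (by omega) l (by omega), finsetSum_coeff,
      Finset.sum_eq_zero, add_zero]
    · by_cases h1 : j + 1 = 2 ^ n * (l+1)
      · rw [if_pos h1, if_pos (by omega)]
      · rw [if_neg h1, if_neg (by omega)]
    · intro a ha
      have ha' : 2 ^ a < 2 ^ n := Nat.pow_lt_pow_right (by norm_num) (by simpa using ha)
      rw [coeff_C_mul, ih (j + 2 ^ a) (by omega) (l+1) (by omega), if_neg (by omega), mul_zero]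

lemma topV_map (n : ℕ) (B : (D n)[X]) (d k : ℕ) (hd : B.natDegree ≤ d)
    (h : d + 1 ≤ 2 ^ n * (k+1)) :
    (top (fV n + C X) (B.map C)).coeff k = if d + 1 = 2 ^ n * (k+1) then B.coeff d else 0 := by
  have h1 : B.map C = ∑ j ∈ Finset.range (d + 1), C (C (B.coeff j)) * X ^ j := by
    conv_lhs => rw [B.as_sum_range' (d+1) (by omega), Polynomial.map_sum]
    refine Finset.sum_congr rfl (fun j _ => ?_)
    rw [Polynomial.map_monomial, ← C_mul_X_pow_eq_monomial]
  rw [h1, top_sum, finsetSum_coeff]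
  have h2 : ∀ j ∈ Finset.range (d+1),
      (top (fV n + C X) (C (C (B.coeff j)) * X ^ j)).coeff k =
        if j = d then (if d + 1 = 2 ^ n * (k+1) then B.coeff d else 0) else 0 := by
    intro j hj
    simp only [Finset.mem_range] at hj
    rw [top_C_mul, coeff_C_mul, topV_coeff n j k (by omega)]
    by_cases h3 : j = d
    · subst h3; simp
    · rw [if_neg (by omega), if_neg h3, mul_zero]
  rw [Finset.sum_congr rfl h2, Finset.sum_ite_eq' (Finset.range (d+1)) d]
  simp

end Vale.Agent.P263.LZ
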