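import Vale.Agent.P263.LZ.Star

namespace Vale.Agent.P263.LZ

open Polynomial

lemma ideal_diff {n : ℕ} {B : Type*} [CommRing B] (φ ψ : D n →+* B) (I : Ideal B)
    (h : ∀ i < n, φ (q n i) - ψ (q n i) ∈ I) (F : D n) : φ F - ψ F ∈ I := by
  induction F using D_induction with
  | h0 => rw [map_zero, map_zero, sub_zero]; exact I.zero_mem
  | h1 => rw [map_one, map_one, sub_self]; exact I.zero_mem
  | hadd p r hp hr =>
    have : φ (p + r) - ψ (p + r) = (φ p - ψ p) + (φ r - ψ r) := by rw [map_add, map_add]; ring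
    rw [this]; exact I.add_mem hp hr
  | hmul p i hp =>
    have h1 := h i i.2
    rw [q_lt i.2] at h1
    have : φ (p * gen i) - ψ (p * gen i) =
        (φ p - ψ p) * φ (gen i) + ψ p * (φ (gen i) - ψ (gen i)) := by
      rw [map_mul, map_mul]; ring
    rw [this]
    exact I.add_mem (I.mul_mem_right _ hp) (I.mul_mem_left _ h1)

/-- the ring map `ρ` applied to the coefficients -/
noncomputable def rhoR (s : ℕ) : D (s+1) →+* (D s)[X] := (rho s : D (s+1) →+* (D s)[X])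

lemma rhoR_apply (s : ℕ) (F : D (s+1)) : rhoR s F = rho s F := rfl

lemma map_f (s : ℕ) : (f (s+1)).map (rhoR s) = fV s * (fV s + C X) := by
  have h1 : (f (s+1)).map (rhoR s) = (∑ a ∈ Finset.range (s+2), C (C (qm s a)) ^ 2 * X ^ 2 ^ a) +
      C X * ∑ a ∈ Finset.range (s+2), C (C (q s a)) * X ^ 2 ^ a := by
    rw [f, Polynomial.map_sum, Finset.mul_sum, ← Finset.sum_add_distrib]
    refine Finset.sum_congr rfl (fun a _ => ?_)
    rw [Polynomial.map_mul, Polynomial.map_C, rhoR_apply, rho_q, Polynomial.map_pow, map_X]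
    simp only [C_add, C_mul, C_pow]
    ring
  have h2 : (∑ a ∈ Finset.range (s+2), C (C (q s a)) * X ^ 2 ^ a : (D s)[X][X]) = fV s := by
    rw [Finset.sum_range_succ, q_gt (Nat.lt_succ_self s), fV, f, Polynomial.map_sum]
    simp
  have h3 : (∑ a ∈ Finset.range (s+2), C (C (qm s a)) ^ 2 * X ^ 2 ^ a : (D s)[X][X]) = fV s ^ 2 := by
    rw [Finset.sum_range_succ', fV, f, Polynomial.map_sum, CharTwo.sum_sq]
    simp only [qm_zero, qm_succ, C_0, ne_eq, OfNat.ofNat_ne_zero, not_false_eq_true, zero_pow,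
      zero_mul, add_zero]
    refine Finset.sum_congr rfl (fun a _ => ?_)
    rw [Polynomial.map_mul, Polynomial.map_C, Polynomial.map_pow, map_X, mul_pow, ← pow_mul,
      pow_succ 2 a]
  rw [h1, h2, h3]; ring

/-- `F ↦ F^♯`, the image of `un F` under `ρ` -/
noncomputable def sh (s : ℕ) : D (s+1) →+* (D (s+1))[X][X] :=
  (mapRingHom (rhoR (s+1))).comp (un (s+1) : D (s+1) →+* (D (s+2))[X])

lemma sh_apply (s : ℕ) (F : D (s+1)) : sh s F = (un (s+1) F).map (rhoR (s+1)) := rfl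

lemma sh_q (s i : ℕ) : sh s (q (s+1) i) =
    ∑ a ∈ Finset.Ioc i (s+2), (C (C (qm (s+1) a ^ 2)) + C X * C (C (q (s+1) a))) *
      X ^ (2 ^ a - 2 ^ (i+1)) := by
  rw [sh_apply, un_q, uq, Polynomial.map_sum]
  refine Finset.sum_congr rfl (fun a _ => ?_)
  rw [Polynomial.map_mul, Polynomial.map_C, rhoR_apply, rho_q, Polynomial.map_pow, map_X]
  simp only [C_add, C_mul]

/-- first comparison map -/
noncomputable def g1 (s : ℕ) : D s →+* (D (s+1))[X][X] :=
  (mapRingHom C).comp (un s : D s →+* (D (s+1))[X])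

lemma g1_apply (s : ℕ) (F : D s) : g1 s F = (un s F).map C := rfl

noncomputable def ph1 (s : ℕ) : D (s+1) →+* (D (s+1))[X][X] :=
  (eval₂RingHom (g1 s) (C X)).comp (rhoR s)

lemma ph1_apply (s : ℕ) (F : D (s+1)) : ph1 s F = (rho s F).eval₂ (g1 s) (C X) := rfl

lemma g1_q (s j : ℕ) : g1 s (q s j) =
    ∑ a ∈ Finset.Ioc j (s+1), C (C (q (s+1) a)) * X ^ (2 ^ a - 2 ^ (j+1)) := by
  rw [g1_apply, un_q, uq, Polynomial.map_sum]
  refine Finset.sum_congr rfl (fun a _ => ?_)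
  simp

/-- `h = f / x` -/
noncomputable def hh (n : ℕ) : (D n)[X][X] := ∑ a ∈ Finset.range (n+1), C (C (q n a)) * X ^ (2 ^ a - 1)

lemma X_mul_hh (n : ℕ) : X * hh n = fV n := by
  rw [hh, fV, f, Polynomial.map_sum, Finset.mul_sum]
  refine Finset.sum_congr rfl (fun a _ => ?_)
  have h : 2 ^ a = 2 ^ a - 1 + 1 := by have := Nat.one_le_two_pow (n := a); omega
  rw [Polynomial.map_mul, Polynomial.map_C, Polynomial.map_pow, map_X]
  conv_rhs => rw [h, pow_succ]
  ring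

lemma ph1_q (s i : ℕ) : ph1 s (q (s+1) i) = g1 s (qm s i) ^ 2 + C X * g1 s (q s i) := by
  rw [ph1_apply, rho_q, eval₂_add, eval₂_mul, eval₂_C, eval₂_C, eval₂_X, map_pow]

lemma sh_sub_ph1 (s : ℕ) (F : D (s+1)) :
    sh s F - ph1 s F ∈ Ideal.span {hh (s+1) ^ 2} := by
  refine ideal_diff _ _ _ (fun i hi => ?_) F
  have hA : (∑ a ∈ Finset.Ioc i (s+2), C X * C (C (q (s+1) a)) * X ^ (2 ^ a - 2 ^ (i+1)) :
      (D (s+1))[X][X]) = C X * g1 s (q s i) := by
    rw [g1_q, Finset.mul_sum]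
    have e2 : Finset.Ioc i (s+2) = insert (s+2) (Finset.Ioc i (s+1)) := by ext; simp; omega
    rw [e2, Finset.sum_insert (by simp), q_gt (Nat.lt_succ_self (s+1))]
    simp [mul_assoc]
  have hB : sh s (q (s+1) i) = (∑ a ∈ Finset.Ioc i (s+2), C (C (qm (s+1) a ^ 2)) *
      X ^ (2 ^ a - 2 ^ (i+1))) + C X * g1 s (q s i) := by
    rw [sh_q, ← hA, ← Finset.sum_add_distrib]
    exact Finset.sum_congr rfl (fun a _ => by ring)
  rw [hB, ph1_q]
  rcases i with _ | j
  · have hC : (∑ a ∈ Finset.Ioc 0 (s+2), C (C (qm (s+1) a ^ 2)) *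
      X ^ (2 ^ a - 2 ^ (0+1)) : (D (s+1))[X][X]) = hh (s+1) ^ 2 := by
      rw [hh, CharTwo.sum_sq]
      symm
      refine Finset.sum_bij (fun a _ => a + 1) ?_ ?_ ?_ ?_
      · intro a ha; simp at ha ⊢; omega
      · intro a _ b _ hab; simpa using hab
      · intro b hb; simp at hb; exact ⟨b - 1, by simp; omega, by show b - 1 + 1 = b; omega⟩
      · intro a _
        rw [qm_succ, mul_pow, C_pow, C_pow, ← pow_mul]
        congr 2
        have := Nat.one_le_two_pow (n := a)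
        rw [pow_succ 2 a]; omega
    rw [hC, qm_zero, map_zero]
    have : hh (s+1) ^ 2 + C X * g1 s (q s 0) - (0 ^ 2 + C X * g1 s (q s 0)) = hh (s+1) ^ 2 := by ring
    rw [this]
    exact Ideal.mem_span_singleton_self _
  · have hC : (∑ a ∈ Finset.Ioc (j+1) (s+2), C (C (qm (s+1) a ^ 2)) *
      X ^ (2 ^ a - 2 ^ (j+1+1)) : (D (s+1))[X][X]) = g1 s (q s j) ^ 2 := by
      rw [g1_q, CharTwo.sum_sq]
      symm
      refine Finset.sum_bij (fun a _ => a + 1) ?_ ?_ ?_ ?_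
      · intro a ha; simp at ha ⊢; omega
      · intro a _ b _ hab; simpa using hab
      · intro b hb; simp at hb; exact ⟨b - 1, by simp; omega, by show b - 1 + 1 = b; omega⟩
      · intro a ha
        rw [qm_succ, mul_pow, C_pow, C_pow, ← pow_mul]
        congr 2
        rw [pow_succ 2 a, pow_succ 2 (j+1)]; omega
    rw [hC, qm_succ, sub_self]
    exact Ideal.zero_mem _

lemma top_sh_eq (s M : ℕ) (hM : 1 ≤ M) (F : D (s+1)) :
    top (fV (s+1)) (X ^ M * sh s F) = top (fV (s+1)) (X ^ M * ph1 s F) := by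
  refine top_congr (fV_monic _) ?_
  obtain ⟨c, hc⟩ := Ideal.mem_span_singleton'.mp (sh_sub_ph1 s F)
  obtain ⟨m, rfl⟩ : ∃ m, M = m + 1 := ⟨M - 1, by omega⟩
  refine ⟨X ^ m * hh (s+1) * c, ?_⟩
  rw [← X_mul_hh, ← mul_sub, ← hc]
  ring

lemma top_ph1_coeff (s M k : ℕ) (F : D (s+1)) :
    (top (fV (s+1)) (X ^ M * ph1 s F)).coeff k = tM s M ((rho s F).coeff k) := by
  set P := rho s F with hP
  have h1 : X ^ M * ph1 s F = ∑ j ∈ Finset.range (P.natDegree + 1),
      C (X ^ j) * (X ^ M * un s (P.coeff j)).map C := by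
    rw [ph1_apply, ← hP, eval₂_eq_sum_range, Finset.mul_sum]
    refine Finset.sum_congr rfl (fun j _ => ?_)
    rw [g1_apply, Polynomial.map_mul, Polynomial.map_pow, map_X, C_pow]; ring
  rw [h1, top_sum, finsetSum_coeff]
  have h2 : ∀ j ∈ Finset.range (P.natDegree + 1),
      (top (fV (s+1)) (C (X ^ j) * (X ^ M * un s (P.coeff j)).map C)).coeff k =
        if j = k then tM s M (P.coeff k) else 0 := by
    intro j _
    rw [top_C_mul, fV, top_map C (f_monic (s+1)), ← T_def, ← tM_apply, coeff_X_pow_mul',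
      coeff_C]
    by_cases hjk : j = k
    · subst hjk; simp
    · rw [if_neg hjk]
      split_ifs
      · omega
      · rfl
      · rfl
  rw [Finset.sum_congr rfl h2, Finset.sum_ite_eq']
  split_ifs with h3
  · rfl
  · rw [coeff_eq_zero_of_natDegree_lt (by simpa using h3), map_zero]

lemma sh_sub_fb (s : ℕ) (F : D (s+1)) :
    sh s F - ((mapRingHom C).comp (fb (s+1) : D (s+1) →+* (D (s+1))[X])) F ∈
      Ideal.span {fV (s+1) + C X} := by
  refine ideal_diff _ _ _ (fun i hi => ?_) F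
  have h1 : ((mapRingHom C).comp (fb (s+1) : D (s+1) →+* (D (s+1))[X])) (q (s+1) i) =
      (fq (s+1) i).map C := by
    show (fb (s+1) (q (s+1) i)).map C = _
    rw [q_lt hi, fb, lift_gen]
  rw [h1, sh_q, fq, Polynomial.map_sum, ← Finset.sum_sub_distrib]
  refine Ideal.sum_mem _ (fun a _ => ?_)
  have h2 : (C (C (qm (s+1) a ^ 2)) + C X * C (C (q (s+1) a))) * X ^ (2 ^ a - 2 ^ (i+1)) -
      ((C (qm (s+1) a ^ 2) + f (s+1) * C (q (s+1) a)) * X ^ (2 ^ a - 2 ^ (i+1))).map C =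
      (C (C (q (s+1) a)) * X ^ (2 ^ a - 2 ^ (i+1))) * (fV (s+1) + C X) := by
    have h3 : fV (s+1) + fV (s+1) = 0 := CharTwo.add_self_eq_zero _
    rw [Polynomial.map_mul, Polynomial.map_add, Polynomial.map_mul, Polynomial.map_C,
      Polynomial.map_C, Polynomial.map_pow, map_X, ← fV]
    linear_combination (-C (C (q (s+1) a)) * X ^ (2 ^ a - 2 ^ (i+1))) * h3
  rw [h2]
  exact Ideal.mul_mem_left _ _ (Ideal.mem_span_singleton_self _)

lemma top_sh_eq2 (s M : ℕ) (F : D (s+1)) :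
    top (fV (s+1) + C X) (X ^ M * sh s F) =
      top (fV (s+1) + C X) ((X ^ M * fb (s+1) F).map C) := by
  refine top_congr (fVV_monic _) ?_
  have h : (X ^ M * fb (s+1) F).map C =
      X ^ M * ((mapRingHom C).comp (fb (s+1) : D (s+1) →+* (D (s+1))[X])) F := by
    rw [Polynomial.map_mul, Polynomial.map_pow, map_X]; rfl
  rw [h, ← mul_sub]
  exact Dvd.dvd.mul_left (Ideal.mem_span_singleton.mp (sh_sub_fb s F)) _

/-- the basic recursion for `t_M` -/
theorem star (s M k : ℕ) (hM : 1 ≤ M) (F : D (s+1)) (d : ℤ) (hF : Hom (s+1) d F)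
    (hk : M + d + 1 ≤ 2 ^ (s+1) * (k+2)) :
    e (s+1) k (tM (s+1) M F) = tM s M (e s (k+1) F) +
      if M + d + 1 = 2 ^ (s+1) * (k+2) then F else 0 := by
  rcases lt_or_ge d 0 with hd | hd
  · rw [hF.eq_zero_of_neg hd]; simp
  obtain ⟨d, rfl⟩ : ∃ d' : ℕ, d = d' := ⟨d.toNat, by omega⟩
  have h1 : rho (s+1) (tM (s+1) M F) = top (fV (s+1) * (fV (s+1) + C X)) (X ^ M * sh s F) := by
    rw [tM_apply, T_def, ← rhoR_apply, ← top_map (rhoR (s+1)) (f_monic (s+2)), map_f,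
      Polynomial.map_mul, Polynomial.map_pow, map_X, ← sh_apply]
  have h2 := top_split (X : (D (s+1))[X]) (fV_monic (s+1))
    (by rw [fV_natDegree]; exact Nat.one_le_two_pow) (X ^ M * sh s F)
  rw [← h1] at h2
  have h3 : e (s+1) k (tM (s+1) M F) = (X * rho (s+1) (tM (s+1) M F)).coeff (k+1) := by
    rw [e_nat, coeff_X_mul]
  have h4 : ((k:ℤ) + 1) = ((k+1 : ℕ) : ℤ) := by push_cast; ring
  rw [h3, ← h2, coeff_add, top_sh_eq s M hM, top_ph1_coeff, h4, e_nat]
  congr 1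
  have hl := fb_lead hF
  have hl1 : (fb (s+1) F).natDegree ≤ d := by simpa using hl.natDegree_le (by simp)
  have hl2 : (fb (s+1) F).coeff d = F := by have := hl.2; rwa [zc_nat] at this
  have hk' : M + d + 1 ≤ 2 ^ (s+1) * (k+1+1) := by exact_mod_cast hk
  rw [top_sh_eq2, topV_map (s+1) (X ^ M * fb (s+1) F) (M + d) (k+1) ?_ hk']
  · rw [add_comm M d, coeff_X_pow_mul, hl2]
    by_cases h5 : d + M + 1 = 2 ^ (s+1) * (k+1+1)
    · rw [if_pos h5, if_pos]
      have : ((d + M + 1 : ℕ) : ℤ) = ((2 ^ (s+1) * (k+1+1) : ℕ) : ℤ) := by rw [h5]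
      push_cast at this; linarith
    · rw [if_neg h5, if_neg]
      intro h6; apply h5
      have : ((d + M + 1 : ℕ) : ℤ) = ((2 ^ (s+1) * (k+1+1) : ℕ) : ℤ) := by push_cast; linarith
      exact_mod_cast this
  · refine natDegree_mul_le_of_le ?_ hl1
    rw [natDegree_X_pow]

end Vale.Agent.P263.LZ
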