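import Vale.Agent.P263.LZ.Formal3

namespace Vale.Agent.P263.LZ

open Polynomial

lemma S1 {R : Type*} [CommRing R] [CharP R 2] (Q P : R[X]) (u a f : ℕ) (hQ : Q.natDegree ≤ u)
    (hf : 1 ≤ f) (hP : ∀ i, 1 ≤ i → i < f → P.coeff (a + i) = 0) (n : ℕ) (h1 : 2 * a + u ≤ n)
    (h2 : n ≤ 2 * a + 2 * f) :
    (Q * P ^ 2).coeff n = (if n = 2 * a + u then Q.coeff u * P.coeff a ^ 2 else 0) +
      (if n = 2 * a + 2 * f then Q.coeff 0 * P.coeff (a + f) ^ 2 else 0) := by
  rw [coeff_mul]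
  have hterm : ∀ x ∈ Finset.HasAntidiagonal.antidiagonal n, Q.coeff x.1 * (P ^ 2).coeff x.2 =
      (if x = (u, 2 * a) then Q.coeff u * P.coeff a ^ 2 else 0) +
      (if x = (0, 2 * a + 2 * f) then Q.coeff 0 * P.coeff (a + f) ^ 2 else 0) := by
    rintro ⟨x, y⟩ hxy
    rw [Finset.HasAntidiagonal.mem_antidiagonal] at hxy
    simp only at hxy
    simp only [Prod.mk.injEq]
    rw [coeff_sq]
    by_cases hy : 2 ∣ y
    · obtain ⟨c, rfl⟩ := hy
      rw [if_pos (dvd_mul_right 2 c), Nat.mul_div_cancel_left c (by norm_num)]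
      by_cases hx : x ≤ u
      · have hca : a ≤ c := by omega
        have hcf : c ≤ a + f := by omega
        obtain ⟨i, rfl⟩ : ∃ i, c = a + i := ⟨c - a, by omega⟩
        rcases Nat.eq_zero_or_pos i with hi | hi
        · subst hi
          rw [if_pos ⟨by omega, by omega⟩, if_neg (by omega), add_zero, add_zero]
          have : x = u := by omega
          rw [this]
        · rcases Nat.lt_or_ge i f with hif | hif
          · rw [hP i hi hif, if_neg (by omega), if_neg (by omega)]; simp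
          · have hif' : i = f := by omega
            subst hif'
            rw [if_neg (by omega), if_pos ⟨by omega, by omega⟩, zero_add]
            have : x = 0 := by omega
            rw [this]
      · rw [coeff_eq_zero_of_natDegree_lt (by omega), zero_mul, if_neg (by omega),
          if_neg (by omega), add_zero]
    · rw [if_neg hy, mul_zero, if_neg (by omega), if_neg (by omega), add_zero]
  rw [Finset.sum_congr rfl hterm, Finset.sum_add_distrib, Finset.sum_ite_eq', Finset.sum_ite_eq']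
  simp only [Finset.HasAntidiagonal.mem_antidiagonal]
  congr 1
  · by_cases h : n = 2 * a + u
    · rw [if_pos h, if_pos (by omega)]
    · rw [if_neg h, if_neg (by omega)]
  · by_cases h : n = 2 * a + 2 * f
    · rw [if_pos h, if_pos (by omega)]
    · rw [if_neg h, if_neg (by omega)]

lemma e_q0_pow_mul (s k : ℕ) (m : ℤ) (B : D (s+1)) :
    e s m (q (s+1) 0 ^ k * B) = q s 0 ^ k * e s (m - k) B := by
  induction k generalizing m with
  | zero => simp
  | succ k ih =>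
    rw [pow_succ', mul_assoc, e_q0_mul, ih, pow_succ']
    rw [mul_assoc]
    congr 3
    push_cast; ring_nf

lemma S2 (s : ℕ) (U : Finset ℕ) (τ : D (s+1)) (a f b : ℕ) (hf : 1 ≤ f)
    (hτ : ∀ i : ℕ, 1 ≤ i → i < f → e s ((a:ℤ) + i) τ = 0) (n : ℕ)
    (h1 : 2 * a + U.card ≤ n) (h2 : n ≤ 2 * a + 2 * f) :
    e s ((n:ℤ) + 2 * b) (q (s+1) 0 ^ (2 * b) * ((∏ i ∈ U, q (s+1) i) * τ ^ 2)) =
      (if n = 2 * a + U.card then q s 0 ^ (2 * b) * ((∏ i ∈ U, q s i) * e s a τ ^ 2) else 0) +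
      (if n = 2 * a + 2 * f then (q s 0 ^ b * ((∏ i ∈ U, qm s i) * e s ((a:ℤ) + f) τ)) ^ 2 else 0) := by
  rw [e_q0_pow_mul, show (n:ℤ) + 2 * b - ((2 * b : ℕ) : ℤ) = n by push_cast; ring, e_nat, map_mul,
    map_pow, map_prod]
  simp only [rho_q]
  set P := rho s τ with hP
  set Q : (D s)[X] := ∏ i ∈ U, (C (qm s i ^ 2) + X * C (q s i)) with hQ
  have hdeg : ∀ i ∈ U, (C (qm s i ^ 2) + X * C (q s i) : (D s)[X]).natDegree ≤ 1 := by
    intro i _
    refine (natDegree_add_le _ _).trans (max_le (by simp) ?_)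
    refine natDegree_mul_le.trans ?_
    simp [natDegree_X_le]
  have hQd : Q.natDegree ≤ U.card := by
    refine (natDegree_prod_le _ _).trans ?_
    refine (Finset.sum_le_card_nsmul _ _ 1 hdeg).trans (by simp)
  have hQu : Q.coeff U.card = ∏ i ∈ U, q s i := by
    have := coeff_prod_of_natDegree_le (s := U) (fun i => (C (qm s i ^ 2) + X * C (q s i) : (D s)[X])) 1 hdeg
    rw [mul_one] at this
    rw [hQ, this]
    refine Finset.prod_congr rfl (fun i _ => ?_)
    show (C (qm s i ^ 2) + X * C (q s i) : (D s)[X]).coeff (0+1) = q s i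
    rw [coeff_add, coeff_C, if_neg (by omega), zero_add, coeff_X_mul, coeff_C_zero]
  have hQ0 : Q.coeff 0 = (∏ i ∈ U, qm s i) ^ 2 := by
    rw [hQ, coeff_zero_prod, ← Finset.prod_pow]
    refine Finset.prod_congr rfl (fun i _ => ?_)
    rw [coeff_add, coeff_C_zero, mul_coeff_zero, coeff_X_zero, zero_mul, add_zero]
  have hP' : ∀ i, 1 ≤ i → i < f → P.coeff (a + i) = 0 := by
    intro i hi1 hi2
    have := hτ i hi1 hi2
    rw [show (a:ℤ) + i = ((a + i : ℕ) : ℤ) by push_cast; ring, e_nat] at this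
    exact this
  rw [S1 Q P U.card a f hQd hf hP' n h1 h2, hQu, hQ0, mul_add]
  have ha : e s (a:ℤ) τ = P.coeff a := e_nat _ _ _
  have haf : e s ((a:ℤ) + f) τ = P.coeff (a + f) := by
    rw [show (a:ℤ) + f = ((a + f : ℕ) : ℤ) by push_cast; ring, e_nat]
  rw [ha, haf]
  congr 1
  · split_ifs
    · rfl
    · rw [mul_zero]
  · split_ifs
    · ring
    · rw [mul_zero]

/-! ### monomials -/

/-- monomials in rank `n` -/
noncomputable def mon (n : ℕ) (ε : ℕ → ℕ) : D n := q n 0 ^ ε 0 * ∏ i ∈ Finset.Ico 1 n, q n i ^ ε i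

/-- their degree -/
def dg (n : ℕ) (ε : ℕ → ℕ) : ℤ :=
  ε 0 * (2 ^ n - 1) + ∑ i ∈ Finset.Ico 1 n, (ε i : ℤ) * (2 ^ n - 2 ^ i)

lemma Hom.prod {s : ℕ} {ι : Type*} (t : Finset ι) (F : ι → D s) (d : ι → ℤ)
    (h : ∀ i ∈ t, Hom s (d i) (F i)) : Hom s (∑ i ∈ t, d i) (∏ i ∈ t, F i) := by
  classical
  induction t using Finset.induction_on with
  | empty => simpa using Hom.one s
  | insert a t ha ih =>
    rw [Finset.sum_insert ha, Finset.prod_insert ha]
    exact (h a (Finset.mem_insert_self _ _)).mul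
      (ih (fun i hi => h i (Finset.mem_insert_of_mem hi)))

lemma Hom.mon (n : ℕ) (ε : ℕ → ℕ) : Hom n (dg n ε) (mon n ε) := by
  refine (((Hom.q n 0).pow (ε 0)).congr (by simp)).mul (Hom.prod _ _ _ (fun i _ => ?_))
  exact (Hom.q n i).pow (ε i)

/-- the correction step -/
lemma Fix (s L m K d : ℕ) (hL : s + 1 < 2 ^ L) (hK : 0 < K) (hd : d = 2 * K + m)
    (hcond : (m:ℤ) * (2 ^ L - 1) < K) (G Y : D (s+1)) (hG : Ng (s+1) d G)
    (Φ : D (s+2)) (hΦ : Ng (s+2) (d - 1) Φ)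
    (hv : ∀ j : ℕ, j ≤ m → e (s+1) ((d:ℤ) - 2 + j) Φ =
      (if j = 0 then G else 0) + (if j = m then Y ^ 2 else 0)) :
    ∃ Φ' : D (s+2), Ng (s+2) (d - 1) Φ' ∧
      ∀ j : ℕ, j ≤ m → e (s+1) ((d:ℤ) - 2 + j) Φ' = if j = 0 then G else 0 := by
  have hY2 : Ng (s+1) (2 * K) (Y ^ 2) := by
    have h1 : Ng (s+1) (2 * K) (e (s+1) ((d:ℤ) - 2 + m) Φ) := by
      refine (hΦ.e _).congr ?_
      rw [hd]; push_cast; ring
    rw [hv m le_rfl, if_pos rfl] at h1
    by_cases hm : m = 0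
    · rw [if_pos hm] at h1
      have h2 : Ng (s+1) (2 * K) G := hG.congr (by rw [hd, hm]; push_cast; ring)
      have h3 : Y ^ 2 = G + (G + Y ^ 2) := by
        rw [← add_assoc, CharTwo.add_self_eq_zero, zero_add]
      rw [h3]; exact h2.add h1
    · rw [if_neg hm, zero_add] at h1
      exact h1
  have hY : Ng (s+1) K Y := sqrt_Ng hY2
  obtain ⟨Θ, hΘN, hΘ⟩ := SQm s L m K hL hK Y hY hcond
  refine ⟨Φ + Θ, hΦ.add (hΘN.congr (by rw [hd]; push_cast; ring)), fun j hj => ?_⟩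
  have h4 := hΘ j hj
  rw [show 2 * (K:ℤ) + m - 2 + j = d - 2 + j by rw [hd]; push_cast; ring] at h4
  rw [map_add, hv j hj, h4, add_assoc]
  split_ifs
  · rw [CharTwo.add_self_eq_zero, add_zero]
  · simp
  · rw [CharTwo.add_self_eq_zero, add_zero]
  · simp

end Vale.Agent.P263.LZ
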