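import Vale.Agent.P263.LZ.Basic

namespace Vale.Agent.P263.LZ

open Polynomial

section top
variable {R : Type*} [CommRing R]

/-- the coefficient of `x^{deg p - 1}` in `b mod p` -/
noncomputable def top (p b : R[X]) : R := (b %ₘ p).coeff (p.natDegree - 1)

lemma top_add (p b c : R[X]) : top p (b + c) = top p b + top p c := by
  unfold top; rw [add_modByMonic, coeff_add]

@[simp] lemma top_zero (p : R[X]) : top p 0 = 0 := by
  unfold top; rw [zero_modByMonic, coeff_zero]

lemma top_C_mul (p b : R[X]) (a : R) : top p (C a * b) = a * top p b := by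
  unfold top; rw [← smul_eq_C_mul, smul_modByMonic, coeff_smul, smul_eq_mul]

lemma top_self_mul {p : R[X]} (hp : p.Monic) (b : R[X]) : top p (p * b) = 0 := by
  unfold top
  rw [(modByMonic_eq_zero_iff_dvd hp).mpr (dvd_mul_right p b), coeff_zero]

lemma top_sum {ι : Type*} (p : R[X]) (t : Finset ι) (b : ι → R[X]) :
    top p (∑ i ∈ t, b i) = ∑ i ∈ t, top p (b i) := by
  classical
  induction t using Finset.induction_on with
  | empty => simp
  | insert a t ha ih => rw [Finset.sum_insert ha, Finset.sum_insert ha, top_add, ih]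

lemma top_of_lt [Nontrivial R] {p b : R[X]} (hp : p.Monic) (hb : b.natDegree < p.natDegree) :
    top p b = b.coeff (p.natDegree - 1) := by
  unfold top
  rw [(modByMonic_eq_self_iff hp).mpr]
  exact degree_lt_degree hb

lemma top_map {S : Type*} [CommRing S] [Nontrivial S] (φ : R →+* S) {p : R[X]} (hp : p.Monic)
    (b : R[X]) : top (p.map φ) (b.map φ) = φ (top p b) := by
  unfold top
  rw [← map_modByMonic φ hp, coeff_map, hp.natDegree_map]

lemma top_congr {p b c : R[X]} (hp : p.Monic) (h : p ∣ b - c) : top p b = top p c := by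
  obtain ⟨d, hd⟩ := h
  have : b = c + p * d := by rw [← hd]; ring
  rw [this, top_add, top_self_mul hp, add_zero]

/-- the splitting identity in characteristic two -/
lemma top_split [Nontrivial R] [CharP R 2] {p : R[X]} (v : R) (hp : p.Monic)
    (hn : 1 ≤ p.natDegree) (b : R[X]) :
    top p b + top (p + C v) b = v * top (p * (p + C v)) b := by
  set n := p.natDegree with hn'
  have hdeg : (C v : R[X]).degree < p.degree := by
    refine lt_of_le_of_lt degree_C_le ?_
    rw [degree_eq_natDegree hp.ne_zero, ← hn']; exact_mod_cast hn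
  have hp2 : (p + C v).Monic := hp.add_of_left hdeg
  have hn2 : (p + C v).natDegree = n := natDegree_add_eq_left_of_degree_lt hdeg
  have hpp : (p * (p + C v)).Monic := hp.mul hp2
  have hnn : (p * (p + C v)).natDegree = n + n := by
    rw [hp.natDegree_mul hp2, hn2]
  set r := b %ₘ (p * (p + C v)) with hr
  have hb : b = r + (p * (p + C v)) * (b /ₘ (p * (p + C v))) := (modByMonic_add_div b _).symm
  have h1 : top p b = top p r := by
    conv_lhs => rw [hb, mul_assoc]
    rw [top_add, top_self_mul hp, add_zero]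
  have h2 : top (p + C v) b = top (p + C v) r := by
    conv_lhs => rw [hb, mul_comm p, mul_assoc]
    rw [top_add, top_self_mul hp2, add_zero]
  have h3 : top (p * (p + C v)) b = r.coeff (n + n - 1) := by
    unfold top; rw [hnn]
  have hrd : r.natDegree < n + n := by
    rw [← hnn]
    refine natDegree_modByMonic_lt _ hpp ?_
    intro h; rw [h, natDegree_one] at hnn; omega
  set a0 := r %ₘ p with ha0
  set a1 := r /ₘ p with ha1
  have hra : r = a0 + p * a1 := (modByMonic_add_div r p).symm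
  have ha0d : a0.natDegree < n := by
    refine natDegree_modByMonic_lt _ hp ?_
    intro h; rw [h, natDegree_one] at hn'; omega
  have ha1d : a1.natDegree < n := by
    rw [ha1, natDegree_divByMonic _ hp]; omega
  have h4 : top p r = a0.coeff (n - 1) := rfl
  have h5 : top (p + C v) r = a0.coeff (n - 1) + v * a1.coeff (n - 1) := by
    have : r = a0 + C v * a1 + (p + C v) * a1 := by
      rw [hra]
      have : C v * a1 + C v * a1 = 0 := CharTwo.add_self_eq_zero _
      linear_combination (-1 : R[X]) * this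
    rw [this, top_add, top_self_mul hp2, add_zero, top_of_lt hp2]
    · rw [hn2, coeff_add, coeff_C_mul]
    · rw [hn2]
      refine lt_of_le_of_lt (natDegree_add_le _ _) (max_lt ha0d ?_)
      exact lt_of_le_of_lt (natDegree_C_mul_le _ _) ha1d
  have h6 : r.coeff (n + n - 1) = a1.coeff (n - 1) := by
    rw [hra, coeff_add, coeff_eq_zero_of_natDegree_lt (by omega : a0.natDegree < n + n - 1), zero_add,
      show n + n - 1 = n + (n - 1) by omega,
      coeff_mul_add_eq_of_natDegree_le (le_refl n) (by omega : a1.natDegree ≤ n - 1), hp.coeff_natDegree, one_mul]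
  rw [h1, h2, h3, h4, h5, h6, ← add_assoc, CharTwo.add_self_eq_zero, zero_add]

end top

/-- `f s = ∑_{a ≤ s} q_a x^{2^a}` -/
noncomputable def f (s : ℕ) : (D s)[X] := ∑ a ∈ Finset.range (s+1), C (q s a) * X ^ 2 ^ a

/-- lower part of `f s` -/
noncomputable def fl (s : ℕ) : (D s)[X] := ∑ a ∈ Finset.range s, C (q s a) * X ^ 2 ^ a

lemma f_eq (s : ℕ) : f s = fl s + X ^ 2 ^ s := by
  rw [f, fl, Finset.sum_range_succ, q_self, C_1, one_mul]

lemma fl_degree_lt (s : ℕ) : (fl s).degree < (2 ^ s : ℕ) := by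
  rw [fl]
  refine (degree_sum_le _ _).trans_lt ?_
  rw [Finset.sup_lt_iff (WithBot.bot_lt_coe _)]
  intro a ha
  refine (degree_C_mul_X_pow_le _ _).trans_lt ?_
  exact_mod_cast Nat.pow_lt_pow_right (by norm_num) (Finset.mem_range.mp ha)

lemma f_monic (s : ℕ) : (f s).Monic := by
  rw [f_eq, add_comm]
  exact monic_X_pow_add (fl_degree_lt s)

lemma f_natDegree (s : ℕ) : (f s).natDegree = 2 ^ s := by
  rw [f_eq, add_comm, natDegree_add_eq_left_of_degree_lt, natDegree_X_pow]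
  rw [degree_X_pow]; exact fl_degree_lt s

/-- `T s b`: coefficient of `x^{2^s-1}` in `b mod f_s` -/
noncomputable def T (s : ℕ) (b : (D s)[X]) : D s := top (f s) b

lemma T_def (s : ℕ) (b : (D s)[X]) : T s b = top (f s) b := rfl
lemma T_add (s : ℕ) (b c : (D s)[X]) : T s (b + c) = T s b + T s c := top_add _ _ _
@[simp] lemma T_zero (s : ℕ) : T s 0 = 0 := top_zero _
lemma T_C_mul (s : ℕ) (a : D s) (b : (D s)[X]) : T s (C a * b) = a * T s b := top_C_mul _ _ _
lemma T_sum {ι : Type*} (s : ℕ) (t : Finset ι) (b : ι → (D s)[X]) :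
    T s (∑ i ∈ t, b i) = ∑ i ∈ t, T s (b i) := top_sum _ _ _
lemma T_f_mul (s : ℕ) (b : (D s)[X]) : T s (f s * b) = 0 := top_self_mul (f_monic s) b

lemma T_X_pow_lt (s : ℕ) {m : ℕ} (h : m < 2 ^ s) :
    T s (X ^ m) = if m = 2 ^ s - 1 then 1 else 0 := by
  rw [T, top_of_lt (f_monic s) (by rw [natDegree_X_pow, f_natDegree]; exact h), f_natDegree,
    coeff_X_pow]
  simp [eq_comm]

lemma T_rec (s m : ℕ) :
    T s (X ^ (m + 2 ^ s)) = ∑ a ∈ Finset.range s, q s a * T s (X ^ (m + 2 ^ a)) := by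
  have h : (X : (D s)[X]) ^ (m + 2 ^ s) = f s * X ^ m + fl s * X ^ m := by
    rw [f_eq, pow_add]
    have : fl s * X ^ m + fl s * X ^ m = 0 := CharTwo.add_self_eq_zero _
    linear_combination (-1 : (D s)[X]) * this
  rw [h, T_add, T_f_mul, zero_add, fl, Finset.sum_mul, T_sum]
  refine Finset.sum_congr rfl (fun a _ => ?_)
  rw [mul_assoc, T_C_mul, ← pow_add, add_comm (2 ^ a)]

lemma T_X_pow_sq (s j : ℕ) : T (s+1) (X ^ (2 * j)) = q (s+1) 0 * T (s+1) (X ^ j) ^ 2 := by
  induction j using Nat.strong_induction_on with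
  | _ j ih =>
  have hN : 2 ^ (s+1) = 2 * 2 ^ s := by rw [pow_succ]; ring
  have hN1 : 1 ≤ 2 ^ s := Nat.one_le_two_pow
  rcases lt_or_ge j (2 ^ (s+1)) with hj | hj
  · rw [T_X_pow_lt _ hj]
    rcases lt_or_ge (2 * j) (2 ^ (s+1)) with h2 | h2
    · rw [T_X_pow_lt _ h2, if_neg (by omega), if_neg (by omega)]; simp
    · obtain ⟨m, hm⟩ : ∃ m, 2 * j = m + 2 ^ (s+1) := ⟨2 * j - 2 ^ (s+1), by omega⟩
      rw [hm, T_rec, Finset.sum_range_succ', pow_zero, T_X_pow_lt _ (by omega)]
      have hz : ∀ k ∈ Finset.range s, q (s+1) (k+1) * T (s+1) (X ^ (m + 2 ^ (k+1))) = 0 := by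
        intro k hk
        have hk' : 2 ^ (k+1) ≤ 2 ^ s := Nat.pow_le_pow_right (by norm_num) (by simpa using hk)
        have hk2 : 2 ^ (k+1) = 2 * 2 ^ k := by rw [pow_succ]; ring
        obtain ⟨j', hj'⟩ : ∃ j', m + 2 ^ (k+1) = 2 * j' := ⟨j - 2 ^ s + 2 ^ k, by omega⟩
        rw [hj', ih j' (by omega), T_X_pow_lt _ (by omega), if_neg (by omega)]; simp
      rw [Finset.sum_eq_zero hz, zero_add]
      by_cases h3 : j = 2 ^ (s+1) - 1
      · rw [if_pos h3, if_pos (by omega)]; simp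
      · rw [if_neg h3, if_neg (by omega)]; simp
  · obtain ⟨m, rfl⟩ : ∃ m, j = m + 2 ^ (s+1) := ⟨j - 2 ^ (s+1), by omega⟩
    have h : ((X : (D (s+1))[X]) ^ (2 * (m + 2 ^ (s+1)))) =
        f (s+1) * (f (s+1) * X ^ (2 * m)) +
          ∑ a ∈ Finset.range (s+1), C (q (s+1) a ^ 2) * X ^ (2 * (m + 2 ^ a)) := by
      have h1 : (∑ a ∈ Finset.range (s+1), C (q (s+1) a ^ 2) * X ^ (2 * (m + 2 ^ a)) : (D (s+1))[X])
          = fl (s+1) ^ 2 * X ^ (2 * m) := by
        rw [fl, CharTwo.sum_sq, Finset.sum_mul]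
        refine Finset.sum_congr rfl (fun a _ => ?_)
        rw [mul_pow, ← C_pow]; ring
      rw [h1, f_eq]
      have h2 : (fl (s+1) + X ^ 2 ^ (s+1)) ^ 2 = fl (s+1) ^ 2 + (X ^ 2 ^ (s+1)) ^ 2 :=
        CharTwo.add_sq _ _
      have h3 : fl (s+1) ^ 2 * X ^ (2*m) + fl (s+1) ^ 2 * X ^ (2*m) = 0 := CharTwo.add_self_eq_zero _
      linear_combination (-1 : (D (s+1))[X]) * X ^ (2 * m) * h2 - h3
    rw [h, T_add, T_f_mul, zero_add, T_sum, T_rec, CharTwo.sum_sq, Finset.mul_sum]
    refine Finset.sum_congr rfl (fun a ha => ?_)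
    have ha' : 2 ^ a < 2 ^ (s+1) := Nat.pow_lt_pow_right (by norm_num) (by simpa using ha)
    rw [T_C_mul, ih (m + 2 ^ a) (by omega)]
    ring

/-- (F0): `t(b^2) = q_0 t(b)^2` -/
lemma T_sq (s : ℕ) (b : (D (s+1))[X]) : T (s+1) (b ^ 2) = q (s+1) 0 * T (s+1) b ^ 2 := by
  have h1 : b ^ 2 = ∑ j ∈ Finset.range (b.natDegree + 1), C (b.coeff j ^ 2) * X ^ (2 * j) := by
    conv_lhs => rw [b.as_sum_range_C_mul_X_pow]
    rw [CharTwo.sum_sq]
    refine Finset.sum_congr rfl (fun j _ => ?_)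
    rw [mul_pow, ← C_pow]; ring
  have h2 : T (s+1) b = ∑ j ∈ Finset.range (b.natDegree + 1), b.coeff j * T (s+1) (X ^ j) := by
    conv_lhs => rw [b.as_sum_range_C_mul_X_pow]
    rw [T_sum]
    exact Finset.sum_congr rfl (fun j _ => T_C_mul _ _ _)
  rw [h1, h2, T_sum, CharTwo.sum_sq, Finset.mul_sum]
  refine Finset.sum_congr rfl (fun j _ => ?_)
  rw [T_C_mul, T_X_pow_sq]; ring

/-- (F1): `q_0 x ≡ ∑_{i ≥ 1} q_i x^{2^i}` -/
lemma T_F1 (s : ℕ) (b : (D (s+1))[X]) :
    q (s+1) 0 * T (s+1) (X * b) = ∑ i ∈ Finset.range (s+1), q (s+1) (i+1) * T (s+1) (X ^ 2 ^ (i+1) * b) := by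
  have h : C (q (s+1) 0) * (X * b) = f (s+1) * b +
      ∑ i ∈ Finset.range (s+1), C (q (s+1) (i+1)) * (X ^ 2 ^ (i+1) * b) := by
    have h1 : (∑ i ∈ Finset.range (s+1), C (q (s+1) (i+1)) * (X ^ 2 ^ (i+1) * b) : (D (s+1))[X])
      = (∑ i ∈ Finset.range (s+1), C (q (s+1) (i+1)) * X ^ 2 ^ (i+1)) * b := by
      rw [Finset.sum_mul]; exact Finset.sum_congr rfl (fun i _ => by ring)
    rw [h1, f, Finset.sum_range_succ' _ (s+1)]
    set S := (∑ i ∈ Finset.range (s+1), C (q (s+1) (i+1)) * X ^ 2 ^ (i+1) : (D (s+1))[X])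
    have h2 : S * b + S * b = 0 := CharTwo.add_self_eq_zero _
    rw [pow_zero, pow_one]
    linear_combination (-1 : (D (s+1))[X]) * h2
  rw [← T_C_mul, h, T_add, T_f_mul, zero_add, T_sum]
  exact Finset.sum_congr rfl (fun i _ => T_C_mul _ _ _)

lemma PHom.f (s : ℕ) : PHom s 1 (2 ^ s) (f s) := by
  rw [LZ.f]
  refine PHom.sum _ _ (fun a _ => ?_)
  refine ((PHom.C (Hom.q s a)).mul ((PHom.X s 1).pow (2 ^ a))).congr ?_
  push_cast; ring

lemma Hom.T_X_pow (s m : ℕ) : Hom s (m - (2 ^ s - 1)) (T s (Polynomial.X ^ m)) := by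
  induction m using Nat.strong_induction_on with
  | _ m ih =>
  rcases lt_or_ge m (2 ^ s) with h | h
  · rw [T_X_pow_lt _ h]
    split_ifs with h1
    · refine (Hom.one s).congr ?_
      have : 1 ≤ 2 ^ s := Nat.one_le_two_pow
      rw [h1, Nat.cast_sub this]; push_cast; ring
    · exact Hom.zero _ _
  · obtain ⟨k, rfl⟩ : ∃ k, m = k + 2 ^ s := ⟨m - 2 ^ s, by omega⟩
    rw [T_rec]
    refine Hom.sum _ _ (fun a ha => ?_)
    have ha' : 2 ^ a < 2 ^ s := Nat.pow_lt_pow_right (by norm_num) (by simpa using ha)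
    refine ((Hom.q s a).mul (ih (k + 2 ^ a) (by omega))).congr ?_
    push_cast; ring

lemma Hom.T {s : ℕ} {n : ℤ} {b : (D s)[X]} (hb : PHom s 1 n b) : Hom s (n - (2 ^ s - 1)) (T s b) := by
  have h2 : LZ.T s b = ∑ j ∈ Finset.range (b.natDegree + 1), b.coeff j * LZ.T s (Polynomial.X ^ j) := by
    conv_lhs => rw [b.as_sum_range_C_mul_X_pow]
    rw [T_sum]
    exact Finset.sum_congr rfl (fun j _ => T_C_mul _ _ _)
  rw [h2]
  refine Hom.sum _ _ (fun j _ => ?_)
  refine ((hb j).mul (Hom.T_X_pow s j)).congr ?_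
  ring

end Vale.Agent.P263.LZ
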