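import Vale.Agent.P263.LZ.Complex
import Vale.Agent.P263.LZ.Main2

/-!
From the normalised polynomial form to Singer's complex.
-/

namespace Vale.Agent.P263.LZ

noncomputable section

instance : CharP Lau 2 := by
  have : (2 : Lau) = 0 := by
    have h : (2 : Lau) = algebraMap (ZMod 2) Lau 2 := (map_ofNat _ 2).symm
    rw [h, show (2 : ZMod 2) = 0 from rfl, map_zero]
  exact CharTwo.of_one_ne_zero_of_two_eq_zero one_ne_zero this

/-- `v_{i+1}^{-1}` -/
def tv (i : ℕ) : Lau := AddMonoidAlgebra.single (Finsupp.single i (-1)) 1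

lemma tv_mul_v (i : ℕ) : tv i * v i = 1 := by
  rw [tv, v, AddMonoidAlgebra.single_mul_single, ← Finsupp.single_add]
  simp [AddMonoidAlgebra.one_def]

/-- the inverse of `Q_{s,0}` -/
def Qi : ℕ → Lau
  | 0 => 1
  | s + 1 => tv s * Qi s ^ 2

lemma Q_mul_Qi (s : ℕ) : Q s 0 * Qi s = 1 := by
  induction s with
  | zero => simp [Q, Qi]
  | succ s ih =>
    rw [Qi, Q]
    calc v s * Q s 0 * Q s 0 * (tv s * Qi s ^ 2)
        = (tv s * v s) * (Q s 0 * Qi s) ^ 2 := by ring
      _ = 1 := by rw [tv_mul_v, ih]; ring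

lemma Q_gt : ∀ s j, s < j → Q s j = 0 := by
  intro s
  induction s with
  | zero => intro j hj; obtain ⟨k, rfl⟩ : ∃ k, j = k + 1 := ⟨j - 1, by omega⟩; rfl
  | succ s ih =>
    intro j hj
    obtain ⟨k, rfl⟩ : ∃ k, j = k + 1 := ⟨j - 1, by omega⟩
    rw [Q, ih k (by omega), ih (k+1) (by omega)]
    simp

lemma Q_top (s : ℕ) : Q s s = 1 := by
  induction s with
  | zero => rfl
  | succ s ih => rw [Q, ih, Q_gt _ _ (Nat.lt_succ_self s)]; simp

/-- evaluation of `D s` in Laurent polynomials -/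
def ev (s : ℕ) : D s →ₐ[ZMod 2] Lau := lift fun i => Q s i

lemma ev_q (s j : ℕ) : ev s (q s j) = Q s j := by
  rcases lt_trichotomy j s with h | h | h
  · rw [q_lt h, ev, lift_gen]
  · subst h; rw [q_self, map_one, Q_top]
  · rw [q_gt h, map_zero, Q_gt _ _ h]

lemma ev_succ (s : ℕ) (G : D (s+1)) :
    ev (s+1) G = (rho s G).eval₂ (ev s : D s →+* Lau) (v s * Q s 0) := by
  induction G using D_induction with
  | h0 => simp
  | h1 => simp
  | hadd x y hx hy => rw [map_add, map_add, Polynomial.eval₂_add, hx, hy]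
  | hmul x i hx =>
    have hi : (gen i : D (s+1)) = q (s+1) i := by rw [q_lt i.2]
    rw [map_mul, map_mul, Polynomial.eval₂_mul, hx, hi, ev_q, rho_q, Polynomial.eval₂_add,
      Polynomial.eval₂_mul, Polynomial.eval₂_C, Polynomial.eval₂_C, Polynomial.eval₂_X]
    congr 1
    rcases i with ⟨i, hi⟩
    rcases i with _ | j
    · show Q (s+1) 0 = (ev s : D s →+* Lau) (qm s 0 ^ 2) + v s * Q s 0 * ev s (q s 0)
      rw [qm_zero, ev_q, Q]; simp
    · show Q (s+1) (j+1) = (ev s : D s →+* Lau) (qm s (j+1) ^ 2) + v s * Q s 0 * ev s (q s (j+1))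
      rw [qm_succ, ev_q, Q, map_pow]
      show Q s j ^ 2 + v s * Q s 0 * Q s (j+1) = ev s (q s j) ^ 2 + _
      rw [ev_q]

/-- no variable `v_{i+1}`, `i ≥ s`, occurs -/
def Low (s : ℕ) (x : Lau) : Prop := ∀ e ∈ x.coeff.support, ∀ i, s ≤ i → e i = 0

lemma Low_zero (s : ℕ) : Low s 0 := by
  intro e he
  simp at he

lemma Low_single (s : ℕ) (e : ℕ →₀ ℤ) (c : ZMod 2) (h : ∀ i, s ≤ i → e i = 0) :
    Low s (AddMonoidAlgebra.single e c) := by
  intro e' he'
  rw [AddMonoidAlgebra.coeff_single] at he'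
  have := Finsupp.support_single_subset he'
  rw [Finset.mem_singleton] at this
  rw [this]
  exact h

lemma Low_one (s : ℕ) : Low s 1 := by
  rw [AddMonoidAlgebra.one_def]
  exact Low_single s 0 1 (fun i _ => rfl)

lemma Low_add {s : ℕ} {x y : Lau} (hx : Low s x) (hy : Low s y) : Low s (x + y) := by
  classical
  intro e he
  rw [AddMonoidAlgebra.coeff_add] at he
  rcases Finset.mem_union.1 (Finsupp.support_add he) with h | h
  · exact hx e h
  · exact hy e h

lemma Low_mul {s : ℕ} {x y : Lau} (hx : Low s x) (hy : Low s y) : Low s (x * y) := by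
  classical
  intro e he i hi
  obtain ⟨a, ha, b, hb, rfl⟩ := Finset.mem_add.1 (AddMonoidAlgebra.support_coeff_mul_subset x y he)
  rw [Finsupp.add_apply, hx a ha i hi, hy b hb i hi, add_zero]

lemma Low_pow {s : ℕ} {x : Lau} (hx : Low s x) (n : ℕ) : Low s (x ^ n) := by
  induction n with
  | zero => rw [pow_zero]; exact Low_one s
  | succ n ih => rw [pow_succ]; exact Low_mul ih hx

lemma Low_mono {s t : ℕ} {x : Lau} (h : s ≤ t) (hx : Low s x) : Low t x :=
  fun e he i hi => hx e he i (le_trans h hi)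

lemma Low_v (s : ℕ) : Low (s + 1) (v s) := by
  apply Low_single
  intro i hi
  rw [Finsupp.single_apply, if_neg (by omega)]

lemma Low_tv (s : ℕ) : Low (s + 1) (tv s) := by
  apply Low_single
  intro i hi
  rw [Finsupp.single_apply, if_neg (by omega)]

lemma Low_Qi (s : ℕ) : Low s (Qi s) := by
  induction s with
  | zero => exact Low_one 0
  | succ s ih =>
    rw [Qi]
    exact Low_mul (Low_tv s) (Low_pow (Low_mono (by omega) ih) 2)

lemma Low_Q (s : ℕ) : ∀ j, Low s (Q s j) := by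
  induction s with
  | zero => intro j; cases j with
    | zero => exact Low_one 0
    | succ j => exact Low_zero 0
  | succ s ih =>
    have ih' : ∀ j, Low (s + 1) (Q s j) := fun j => Low_mono (by omega) (ih j)
    intro j
    cases j with
    | zero =>
      rw [Q]
      exact Low_mul (Low_mul (Low_v s) (ih' 0)) (ih' 0)
    | succ j =>
      rw [Q]
      exact Low_add (Low_pow (ih' j) 2) (Low_mul (Low_mul (Low_v s) (ih' 0)) (ih' _))

lemma Low_ev (s : ℕ) (g : D s) : Low s (ev s g) := by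
  induction g using D_induction with
  | h0 => rw [map_zero]; exact Low_zero s
  | h1 => rw [map_one]; exact Low_one s
  | hadd p q hp hq => rw [map_add]; exact Low_add hp hq
  | hmul p i hp =>
    have hi : (gen i : D s) = q s i := by rw [q_lt i.2]
    rw [map_mul, hi, ev_q]
    exact Low_mul hp (Low_Q s _)

lemma bdry_add (s : ℕ) (x y : Lau) : bdry s (x + y) = bdry s x + bdry s y := by
  rw [bdry, bdry, bdry, AddMonoidAlgebra.coeff_add, Finsupp.sum_add_index']
  · intro e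
    split_ifs <;> simp
  · intro e c c'
    split_ifs <;> simp

lemma bdry_zero (s : ℕ) : bdry s 0 = 0 := by simp [bdry]

lemma bdry_sum {ι : Type*} (s : ℕ) (S : Finset ι) (f : ι → Lau) :
    bdry s (∑ i ∈ S, f i) = ∑ i ∈ S, bdry s (f i) := by
  classical
  induction S using Finset.induction_on with
  | empty => simp [bdry_zero]
  | insert a S ha ih => rw [Finset.sum_insert ha, Finset.sum_insert ha, bdry_add, ih]

lemma bdry_single (s : ℕ) (e : ℕ →₀ ℤ) (c : ZMod 2) : bdry s (AddMonoidAlgebra.single e c) =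
    if e s = -1 then AddMonoidAlgebra.single (e.erase s) c else 0 := by
  rw [bdry, AddMonoidAlgebra.coeff_single, Finsupp.sum_single_index]
  split_ifs <;> simp

lemma bdry_mul_single (s : ℕ) (x : Lau) (hx : Low s x) (k : ℤ) :
    bdry s (x * AddMonoidAlgebra.single (Finsupp.single s k) 1) = if k = -1 then x else 0 := by
  have hx' : x = ∑ e ∈ x.coeff.support, AddMonoidAlgebra.single e (x.coeff e) := by
    have h := x.coeff.sum_single
    apply AddMonoidAlgebra.coeff_injective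
    conv_lhs => rw [← h]
    rw [Finsupp.sum, AddMonoidAlgebra.coeff_sum]
    simp
  have hterm : ∀ e ∈ x.coeff.support, bdry s (AddMonoidAlgebra.single e (x.coeff e) *
      AddMonoidAlgebra.single (Finsupp.single s k) 1) =
      if k = -1 then AddMonoidAlgebra.single e (x.coeff e) else 0 := by
    intro e he
    have h0 : e s = 0 := hx e he s le_rfl
    rw [AddMonoidAlgebra.single_mul_single, bdry_single, mul_one, Finsupp.add_apply,
      Finsupp.single_eq_same, h0, zero_add]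
    split_ifs with hk
    · congr 1
      ext i
      rw [Finsupp.erase_apply]
      split_ifs with hi
      · rw [hi, h0]
      · rw [Finsupp.add_apply, Finsupp.single_apply, if_neg (fun h => hi h.symm), add_zero]
    · rfl
  conv_lhs => rw [hx']
  rw [Finset.sum_mul, bdry_sum, Finset.sum_congr rfl hterm]
  split_ifs
  · exact hx'.symm
  · simp

lemma v_pow (s n : ℕ) : v s ^ n = AddMonoidAlgebra.single (Finsupp.single s (n : ℤ)) 1 := by
  rw [v, AddMonoidAlgebra.single_pow, one_pow, Finsupp.smul_single]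
  simp

lemma tv_pow (s n : ℕ) : tv s ^ n = AddMonoidAlgebra.single (Finsupp.single s (-(n : ℤ))) 1 := by
  rw [tv, AddMonoidAlgebra.single_pow, one_pow, Finsupp.smul_single]
  simp

/-- the boundary in terms of `e_m` -/
lemma bdry_ev (s N : ℕ) (Φ : D (s+1)) :
    bdry s (ev (s+1) Φ * Qi (s+1) ^ (N+1)) = ev s (e s N Φ) * (Q s 0 ^ N * Qi s ^ (2 * (N+1))) := by
  have hQ : Qi (s+1) ^ (N+1) = tv s ^ (N+1) * Qi s ^ (2 * (N+1)) := by
    rw [Qi, mul_pow, ← pow_mul]
  have hterm : ∀ m : ℕ, bdry s ((ev s : D s →+* Lau) ((rho s Φ).coeff m) * (v s * Q s 0) ^ m *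
      Qi (s+1) ^ (N+1)) = if m = N then ev s (e s N Φ) * (Q s 0 ^ N * Qi s ^ (2 * (N+1))) else 0 := by
    intro m
    have h1 : tv s ^ (N+1) * v s ^ m =
        AddMonoidAlgebra.single (Finsupp.single s ((m : ℤ) - (N+1))) 1 := by
      rw [tv_pow, v_pow, AddMonoidAlgebra.single_mul_single, ← Finsupp.single_add, mul_one,
        show -(((N+1 : ℕ)) : ℤ) + m = (m : ℤ) - (N+1) by push_cast; ring]
    have h2 : (ev s : D s →+* Lau) ((rho s Φ).coeff m) * (v s * Q s 0) ^ m * Qi (s+1) ^ (N+1) =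
        (ev s ((rho s Φ).coeff m) * (Q s 0 ^ m * Qi s ^ (2 * (N+1)))) *
        AddMonoidAlgebra.single (Finsupp.single s ((m : ℤ) - (N+1))) 1 := by
      rw [hQ, ← h1]
      show ev s ((rho s Φ).coeff m) * (v s * Q s 0) ^ m * (tv s ^ (N+1) * Qi s ^ (2 * (N+1))) = _
      ring
    rw [h2, bdry_mul_single s _ (Low_mul (Low_ev s _) (Low_mul (Low_pow (Low_Q s 0) _)
      (Low_pow (Low_Qi s) _)))]
    by_cases hm : m = N
    · rw [if_pos (by omega), if_pos hm, hm, e_nat]
    · rw [if_neg (by omega), if_neg hm]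
  rw [ev_succ, Polynomial.eval₂_eq_sum_range' _ (n := (rho s Φ).natDegree + N + 1) (by omega),
    Finset.sum_mul, bdry_sum, Finset.sum_congr rfl (fun m _ => hterm m), Finset.sum_ite_eq',
    if_pos (by simp)]

/-- membership in `Γ⁺` -/
lemma ev_mem (s N : ℕ) (Φ : D (s+1)) (hΦ : Ng (s+1) N Φ) :
    ev (s+1) Φ * Qi (s+1) ^ N ∈ GammaPlus (s+1) := by
  rw [D_as_sum Φ, map_sum, Finset.sum_mul]
  refine Submodule.sum_mem _ (fun m hm => ?_)
  have hw := Hom.weight hΦ hm
  set i : ℕ → ℕ := fun j => if h : j < s + 1 then m ⟨j, h⟩ else 0 with hi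
  have him : ∀ j : Fin (s+1), m j = i j := by intro j; rw [hi]; simp only [dif_pos j.2]
  apply Submodule.subset_span
  refine ⟨N, i 0, i, ?_, ?_⟩
  · rw [map_prod]
    have h1 : ∏ j : Fin (s+1), ev (s+1) (gen j ^ m j) = ∏ j ∈ Finset.range (s+1), Q (s+1) j ^ i j := by
      rw [← Fin.prod_univ_eq_prod_range (fun j => Q (s+1) j ^ i j) (s+1)]
      refine Finset.prod_congr rfl (fun j _ => ?_)
      have hj : (gen j : D (s+1)) = q (s+1) j := by rw [q_lt j.2]
      rw [map_pow, hj, ev_q, him]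
    rw [h1, Finset.range_eq_Ico, Finset.prod_eq_prod_Ico_succ_bot (by omega), mul_assoc, ← mul_pow,
      mul_comm (Qi (s+1)), Q_mul_Qi, one_pow, mul_one]
  · have h2 : ∑ j : Fin (s+1), (m j : ℤ) * w (s+1) j =
        ∑ j ∈ Finset.range (s+1), (i j : ℤ) * (2 ^ (s+1) - 2 ^ j) := by
      rw [← Fin.sum_univ_eq_sum_range (fun j => (i j : ℤ) * (2 ^ (s+1) - 2 ^ j)) (s+1)]
      refine Finset.sum_congr rfl (fun j _ => ?_)
      rw [him]; rfl
    rw [h2, Finset.range_eq_Ico, Finset.sum_eq_sum_Ico_succ_bot (by omega)] at hw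
    zify
    have h3 : ∑ j ∈ Finset.Ico 1 (s+1), (i j : ℤ) * ((2 ^ (s+1) - 2 ^ j : ℕ) : ℤ) =
        ∑ j ∈ Finset.Ico (0+1) (s+1), (i j : ℤ) * (2 ^ (s+1) - 2 ^ j) := by
      refine Finset.sum_congr rfl (fun j hj => ?_)
      have : 2 ^ j ≤ 2 ^ (s+1) := Nat.pow_le_pow_right (by norm_num) (by simp at hj; omega)
      push_cast [this]; ring
    rw [h3]
    have : (0:ℤ) ≤ i 0 := by positivity
    nlinarith

theorem mon_bdry (s : ℕ) (hs : 3 ≤ s) (ε : ℕ → ℕ) (hε : ∃ j < s, ε j ≠ 0) :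
    ∃ y ∈ GammaPlus (s+1), bdry s y = ∏ j ∈ Finset.range s, Q s j ^ ε j := by
  obtain ⟨t, rfl⟩ : ∃ t, s = t + 1 := ⟨s - 1, by omega⟩
  have hpos : 0 < dg (t+1) ε := by
    obtain ⟨j, hj, hj0⟩ := hε
    have hj1 : (1:ℤ) ≤ ε j := by exact_mod_cast Nat.one_le_iff_ne_zero.mpr hj0
    have h2 : ∀ i ∈ Finset.Ico 1 (t+1), (0:ℤ) ≤ (ε i : ℤ) * (2 ^ (t+1) - 2 ^ i) := by
      intro i hi
      refine mul_nonneg (by positivity) ?_
      have : (2:ℤ) ^ i ≤ 2 ^ (t+1) := pow_le_pow_right₀ (by norm_num) (by simp at hi; omega)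
      linarith
    have h3 : (1:ℤ) < 2 ^ (t+1) := one_lt_pow₀ (by norm_num) (by omega)
    rw [dg]
    rcases Nat.eq_zero_or_pos j with h | h
    · subst h
      have := Finset.sum_nonneg h2
      nlinarith
    · have h4 : (0:ℤ) < (ε j : ℤ) * (2 ^ (t+1) - 2 ^ j) := by
        refine mul_pos (by linarith) ?_
        have : (2:ℤ) ^ j < 2 ^ (t+1) := pow_lt_pow_right₀ (by norm_num) hj
        linarith
      have h5 := Finset.single_le_sum h2 (show j ∈ Finset.Ico 1 (t+1) by simp; omega)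
      have h6 : (0:ℤ) ≤ ε 0 * (2 ^ (t+1) - 1) := mul_nonneg (by positivity) (by linarith)
      linarith
  obtain ⟨d, hd⟩ : ∃ d : ℕ, dg (t+1) ε = d := ⟨(dg (t+1) ε).toNat, by rw [Int.toNat_of_nonneg hpos.le]⟩
  have hd0 : 0 < d := by rw [hd] at hpos; exact_mod_cast hpos
  obtain ⟨Φ, hΦN, hΦ⟩ := main_all t (by omega) ε d hd hd0
  have h0 := hΦ 0 le_rfl
  rw [if_pos rfl, Nat.cast_zero, add_zero] at h0
  have hmon : ev (t+1) (mon (t+1) ε) = ∏ j ∈ Finset.range (t+1), Q (t+1) j ^ ε j := by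
    have h9 : ∏ j ∈ Finset.range (t+1), Q (t+1) j ^ ε j =
        Q (t+1) 0 ^ ε 0 * ∏ j ∈ Finset.Ico 1 (t+1), Q (t+1) j ^ ε j := by
      rw [Finset.range_eq_Ico, Finset.prod_eq_prod_Ico_succ_bot (by omega)]
    rw [h9, mon, map_mul, map_pow, ev_q, map_prod]
    congr 1
    exact Finset.prod_congr rfl (fun j _ => by rw [map_pow, ev_q])
  rcases Nat.lt_or_ge d 2 with hd2 | hd2
  · rw [e_neg _ (by omega)] at h0
    have h7 : mon (t+1) ε = 0 := by
      rcases mul_eq_zero.mp h0.symm with h | h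
      · exact absurd h (pow_ne_zero _ (q0_ne_zero _))
      · exact h
    exact ⟨0, Submodule.zero_mem _, by rw [bdry_zero, ← hmon, h7, map_zero]⟩
  · obtain ⟨N, rfl⟩ : ∃ N, d = N + 2 := ⟨d - 2, by omega⟩
    refine ⟨ev (t+2) Φ * Qi (t+2) ^ (N+1), ev_mem (t+1) (N+1) Φ (hΦN.congr (by push_cast; ring)), ?_⟩
    rw [show (((N+2 : ℕ) : ℤ) - 2) = N by push_cast; ring] at h0
    rw [bdry_ev (t+1) N Φ, h0, map_mul, map_pow, ev_q, hmon]
    have h8 : Q (t+1) 0 ^ (N+2) * Q (t+1) 0 ^ N * Qi (t+1) ^ (2 * (N+1)) = 1 := by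
      rw [← pow_add, show N + 2 + N = 2 * (N+1) by ring, ← mul_pow, Q_mul_Qi, one_pow]
    calc Q (t+1) 0 ^ (N+2) * (∏ j ∈ Finset.range (t+1), Q (t+1) j ^ ε j) *
          (Q (t+1) 0 ^ N * Qi (t+1) ^ (2 * (N+1)))
        = (Q (t+1) 0 ^ (N+2) * Q (t+1) 0 ^ N * Qi (t+1) ^ (2 * (N+1))) *
          ∏ j ∈ Finset.range (t+1), Q (t+1) j ^ ε j := by ring
      _ = _ := by rw [h8, one_mul]

theorem dickson_bdry (s : ℕ) (hs : 3 ≤ s) (x : Lau) (hx : x ∈ DicksonPlus s) :
    ∃ y ∈ GammaPlus (s+1), bdry s y = x := by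
  induction hx using Submodule.span_induction with
  | mem x hx =>
    obtain ⟨i, hi, rfl⟩ := hx
    exact mon_bdry s hs i hi
  | zero => exact ⟨0, Submodule.zero_mem _, bdry_zero s⟩
  | add x y _ _ hx hy =>
    obtain ⟨a, ha, rfl⟩ := hx
    obtain ⟨b, hb, rfl⟩ := hy
    exact ⟨a + b, Submodule.add_mem _ ha hb, bdry_add _ _ _⟩
  | smul c x _ hx =>
    obtain ⟨a, ha, rfl⟩ := hx
    rcases zmod2 c with h | h
    · exact ⟨0, Submodule.zero_mem _, by rw [h, zero_smul, bdry_zero]⟩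
    · exact ⟨a, ha, by rw [h, one_smul]⟩

end

end Vale.Agent.P263.LZ
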